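import Vale.Agent.P245.SLC3

open MeasureTheory Real Set
open scoped RealInnerProductSpace ENNReal

namespace Vale.Agent.P245

variable {n : ℕ}

/-! A priori defective inequalities.
`Tg_le`: for each `s`, `w`: Young `gk s y x * u ≤ gk s y x * (log gk s y x - log gk s y w) - gk s y x
+ gk s y w * exp u`, `log_gk_sub`, `‖y-w‖² - ‖y-x‖² = ‖x-w‖² + 2⟪x-w, y-x⟫`, `integral_gk_inner`:
`∫ gk s y x * uu ≤ ‖x-w‖²/(2s) - 1 + ∫ gk s y w * exp uu`; integrate over `w ~ μ`, swap,
`pp 0 * exp uu = pp g` (`exp_uu`), `integral_pp`; finally `Av_iter`.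
`exp_sq_le`: `exp (‖w‖²/(8a²)) = ∫ gk (1/(4a²)) ζ 0 * exp ⟪w, ζ⟫ dζ` (`integral_gk_exp`), swap, `SG`,
and `gk τ ζ 0 * exp (a²‖ζ‖²) = 2^(n/2) gk (2τ) ζ 0` for `τ = 1/(4a²)`.
`def_R`, `def_n`: `ent_split` with `s0 = lam`, `S = 2 lam`, `Gg_le`, `Tg_le`;
`‖x-w‖² ≤ 2‖x-c‖² + 2‖w-c‖²`, `dv` with `ψ = ‖x-c‖²/(8a²)` for `g` and for `0`. -/

variable {μ : Measure (E n)} {R : ℝ} {g : E n → ℝ} {a s0 S lam : ℝ} {c : E n}

theorem apr_pt (hμ : Good μ R) (hg : Continuous g) (hN : Nm μ g) {s : ℝ} (hs : 0 < s) (x : E n) :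
    ∫ y, gk s y x • uu μ g s y ≤ (∫ w, ‖x - w‖ ^ 2 ∂μ) / (2 * s) := by
  have := hμ.prob
  obtain ⟨M, -, hM⟩ := exists_bd hg R
  have key : ∀ y, gk s y x • uu μ g s y ≤ gk s y x * ((∫ w, ‖x - w‖ ^ 2 ∂μ) / (2 * s) - 1) +
      s⁻¹ * (gk s y x * ⟪∫ w, x - w ∂μ, y - x⟫) + pp μ g s y := fun y => by
    have h1 : ∀ w, gk s y x * uu μ g s y ≤ gk s y x * (‖x - w‖ ^ 2 / (2 * s) - 1) +
        s⁻¹ * (gk s y x * ⟪y - x, x - w⟫) + gk s y w * exp (uu μ g s y) := fun w => by
      have a := gk_pos hs y x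
      have e := log_gk_sub hs y x w
      have e' : ‖y - w‖ ^ 2 = ‖y - x‖ ^ 2 + 2 * ⟪y - x, x - w⟫ + ‖x - w‖ ^ 2 := by
        rw [← norm_add_sq_real, sub_add_sub_cancel]
      have h := add_one_le_exp (uu μ g s y - (log (gk s y x) - log (gk s y w)))
      rw [exp_sub, exp_sub, exp_log a, exp_log (gk_pos hs y w), div_div_eq_mul_div,
        le_div_iff₀ a, e, e'] at h
      have e'' : (‖y - x‖ ^ 2 + 2 * ⟪y - x, x - w⟫ + ‖x - w‖ ^ 2 - ‖y - x‖ ^ 2) / (2 * s) =
          ‖x - w‖ ^ 2 / (2 * s) + s⁻¹ * ⟪y - x, x - w⟫ := by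
        field_simp
        ring
      rw [e''] at h
      linarith
    have c1 := continuous_gk_right s y
    have h2 := integral_mono (integrable_const _) (hμ.integrable (by fun_prop)) h1
    rw [integral_add (hμ.integrable (by fun_prop)) (hμ.integrable (by fun_prop)),
      integral_add (hμ.integrable (by fun_prop)) (hμ.integrable (by fun_prop)),
      integral_const_mul, integral_const_mul, integral_const_mul, integral_const_mul,
      integral_mul_const, integral_sub (hμ.integrable (by fun_prop)) (integrable_const _), integral_div,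
      integral_inner (hμ.integrable (by fun_prop)), ← pp_zero, exp_uu hμ hg hs,
      mul_div_cancel₀ _ (pp_pos hμ continuous_zero hs y).ne', real_inner_comm] at h2
    simpa using h2
  have i1 : Integrable fun y => gk s y x * ⟪∫ w, x - w ∂μ, y - x⟫ :=
    integrable_gk_growth hs x (by fun_prop) (‖∫ w, x - w ∂μ‖ * (1 + ‖x‖)) 1 fun y => by
      refine (norm_inner_le_norm _ _).trans ?_
      rw [mul_assoc, pow_one]
      refine mul_le_mul_of_nonneg_left ((norm_sub_le _ _).trans ?_) (norm_nonneg _)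
      nlinarith [mul_nonneg (norm_nonneg x) (norm_nonneg y)]
  have i2 := (integrable_gk hs x).mul_const ((∫ w, ‖x - w‖ ^ 2 ∂μ) / (2 * s) - 1)
  have h3 := integral_mono (integrable_gk_growth hs x ((sm_uu hμ hg).comp_measurable
    (measurable_prodMk_left (x := s))).aestronglyMeasurable M 0 fun y => by
      simpa using abs_uu_le hμ hg hs hM y) ((i2.add (i1.const_mul s⁻¹)).add (integrable_pp hμ hg hs))
    key
  rw [integral_add' (i2.add (i1.const_mul s⁻¹)) (integrable_pp hμ hg hs),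
    integral_add' i2 (i1.const_mul s⁻¹), integral_mul_const, integral_const_mul, integral_gk hs,
    integral_gk_inner hs, integral_pp hμ hg hs, hN] at h3
  simpa using h3

theorem Tg_le (hμ : Good μ R) (hg : Continuous g) (hN : Nm μ g) (hs : 0 < s0) (hS : s0 < S)
    (x : E n) : Tg μ g s0 S x ≤ (∫ w, ‖x - w‖ ^ 2 ∂μ) / (2 * s0) := by
  obtain ⟨M, -, hM⟩ := exists_bd hg R
  have hB := bd_uu (S := S) hμ hg hs hM
  have h0 := sub_pos.2 hS
  rw [Tg, Av_iter hB hs hS, smul_eq_mul, inv_mul_le_iff₀ h0, intervalIntegral.integral_of_le hS.le]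
  refine (setIntegral_mono_on (hB.integrable hs x).integral_prod_left
    (integrable_const ((∫ w, ‖x - w‖ ^ 2 ∂μ) / (2 * s0))) measurableSet_Ioc fun s h => ?_).trans_eq ?_
  · refine (apr_pt hμ hg hN (hs.trans h.1) x).trans ?_
    exact div_le_div_of_nonneg_left (integral_nonneg fun w => by positivity) (by positivity)
      (by linarith [h.1])
  · rw [setIntegral_const, Real.volume_real_Ioc_of_le hS.le, smul_eq_mul]

theorem exp_sq_le (hμ : Good μ R) (ha : 0 < a) (hSG : SG μ a c) :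
    log (∫ x, exp (‖x - c‖ ^ 2 / (8 * a ^ 2)) ∂μ) ≤ n / 2 := by
  have := hμ.prob
  have hτ : 0 < 1 / (4 * a ^ 2) := by positivity
  have e1 : ∀ x : E n, ∫ ζ, gk (1 / (4 * a ^ 2)) ζ 0 * exp ⟪x - c, ζ - 0⟫ =
      exp (‖x - c‖ ^ 2 / (8 * a ^ 2)) := fun x => by
    rw [integral_gk_exp hτ]
    congr 1
    field_simp
    ring
  have hI : Integrable (fun p : E n × E n => gk (1 / (4 * a ^ 2)) p.2 0 * exp ⟪p.1 - c, p.2 - 0⟫)
      (μ.prod volume) := by
    refine (integrable_prod_iff (((continuous_gk_left _ _).comp continuous_snd).mul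
      (by fun_prop : Continuous fun p : E n × E n => exp ⟪p.1 - c, p.2 - 0⟫)).aestronglyMeasurable).2
      ⟨.of_forall fun x => integrable_gk_exp hτ 0 (x - c), ?_⟩
    change Integrable (fun x => ∫ ζ, ‖gk (1 / (4 * a ^ 2)) ζ 0 * exp ⟪x - c, ζ - 0⟫‖) μ
    simp only [Real.norm_of_nonneg (mul_pos (gk_pos hτ _ _) (exp_pos _)).le, e1]
    exact hμ.integrable (by fun_prop)
  have e2 : ∀ ζ : E n, gk (1 / (4 * a ^ 2)) ζ 0 * exp (a ^ 2 * ‖ζ‖ ^ 2) =
      2 ^ ((n : ℝ) / 2) * gk (2 * (1 / (4 * a ^ 2))) ζ 0 := fun ζ => by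
    unfold gk
    rw [mul_assoc _ (exp _), ← exp_add, mul_left_comm (2 * π), mul_rpow zero_le_two (by positivity),
      ← mul_assoc, ← mul_assoc, ← rpow_add two_pos, neg_div, add_neg_cancel, rpow_zero, one_mul,
      sub_zero]
    congr 2
    field_simp
    ring
  have key : ∫ x, exp (‖x - c‖ ^ 2 / (8 * a ^ 2)) ∂μ ≤ 2 ^ ((n : ℝ) / 2) := by
    simp only [← e1]
    rw [integral_integral_swap
      (f := fun x ζ : E n => gk (1 / (4 * a ^ 2)) ζ 0 * exp ⟪x - c, ζ - 0⟫) hI]
    refine (integral_mono hI.integral_prod_right ((integrable_gk (s := 2 * (1 / (4 * a ^ 2)))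
      (by positivity) 0).const_mul (2 ^ ((n : ℝ) / 2))) fun ζ => ?_).trans_eq ?_
    · simp only [← e2, integral_const_mul, sub_zero, real_inner_comm ζ]
      exact mul_le_mul_of_nonneg_left (hSG ζ) (gk_pos hτ _ _).le
    · rw [integral_const_mul, integral_gk (by positivity), mul_one]
  refine (log_le_log (hμ.integral_exp_pos (by fun_prop)) key).trans ?_
  rw [log_rpow two_pos]
  exact mul_le_of_le_one_right (by positivity) (by linarith [log_two_lt_d9])

theorem def_R (hμ : Good μ R) (hL : LC μ R) (hl : 0 < lam) : Def μ lam (2 * R ^ 2 / lam) := by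
  intro g hg hN
  have := hμ.prob
  have hc := hg.continuous
  have h2 : lam < 2 * lam := by linarith
  have h3 := Gg_le hμ hL hg hl h2
  have h4 : ∫ x, exp (g x) * Tg μ g lam (2 * lam) x ∂μ ≤ ∫ x, exp (g x) * (2 * R ^ 2 / lam) ∂μ := by
    refine integral_mono_ae (hμ.integrable (hc.rexp.mul (continuous_Tg hμ hc hl)))
      (hμ.integrable (by fun_prop)) ?_
    filter_upwards [hμ.supp] with x hx
    refine mul_le_mul_of_nonneg_left ((Tg_le hμ hc hN hl h2 x).trans ?_) (exp_pos _).le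
    have : ∫ w, ‖x - w‖ ^ 2 ∂μ ≤ ∫ _, (2 * R) ^ 2 ∂μ := by
      refine integral_mono_ae (hμ.integrable (by fun_prop)) (integrable_const _) ?_
      filter_upwards [hμ.supp] with w hw
      exact pow_le_pow_left₀ (norm_nonneg _) ((norm_sub_le _ _).trans (by linarith)) 2
    rw [integral_const, probReal_univ, one_smul] at this
    rw [div_le_div_iff₀ (by positivity) hl]
    nlinarith
  rw [integral_mul_const, hN, one_mul] at h4
  rw [ent_split hμ hc hl h2]
  nlinarith [mul_nonneg hl.le (Ii_nonneg μ g)]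

theorem def_n (hμ : Good μ R) (hL : LC μ R) (ha : 0 < a) (hSG : SG μ a c)
    (hl : 32 * a ^ 2 ≤ lam) : Def μ lam n := by
  intro g hg hN
  have := hμ.prob
  have hc := hg.continuous
  have hl0 : 0 < lam := lt_of_lt_of_le (by positivity) hl
  have h2 : lam < 2 * lam := by linarith
  have h3 := Gg_le hμ hL hg hl0 h2
  have hE := exp_sq_le hμ ha hSG
  have hψ : Continuous fun x : E n => ‖x - c‖ ^ 2 / (8 * a ^ 2) := by fun_prop
  have d0 := dv (g := fun _ => 0) hμ continuous_const (by simp [Nm]) hψ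
  have d1 := dv hμ hc hN hψ
  simp only [Hh, exp_zero, one_mul, mul_zero, integral_zero, zero_add, integral_div] at d0
  simp only [← mul_div_assoc, integral_div] at d1
  rw [div_le_iff₀ (by positivity)] at d0 d1
  have h4 : ∫ x, exp (g x) * Tg μ g lam (2 * lam) x ∂μ ≤
      ∫ x, (exp (g x) * ‖x - c‖ ^ 2 + exp (g x) * ∫ w, ‖w - c‖ ^ 2 ∂μ) / lam ∂μ := by
    refine integral_mono (hμ.integrable (hc.rexp.mul (continuous_Tg hμ hc hl0)))
      (hμ.integrable (by fun_prop)) fun x => ?_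
    simp only [← mul_add, mul_div_assoc]
    refine mul_le_mul_of_nonneg_left ((Tg_le hμ hc hN hl0 h2 x).trans ?_) (exp_pos _).le
    have : ∫ w, ‖x - w‖ ^ 2 ∂μ ≤ ∫ w, 2 * (‖x - c‖ ^ 2 + ‖w - c‖ ^ 2) ∂μ := by
      refine integral_mono (hμ.integrable (by fun_prop)) (hμ.integrable (by fun_prop)) fun w => ?_
      have h := norm_sub_le (x - c) (w - c)
      rw [sub_sub_sub_cancel_right] at h
      have := pow_le_pow_left₀ (norm_nonneg _) h 2
      nlinarith [sq_nonneg (‖x - c‖ - ‖w - c‖)]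
    rw [integral_const_mul, integral_add (integrable_const _) (hμ.integrable (by fun_prop)),
      integral_const, probReal_univ, one_smul] at this
    rw [div_le_div_iff₀ (by positivity) hl0]
    nlinarith
  rw [integral_div, integral_add (hμ.integrable (by fun_prop)) (hμ.integrable (by fun_prop)),
    integral_mul_const, hN, one_mul] at h4
  have hH := Hh_nonneg hμ hc hN
  have hn : (0 : ℝ) ≤ n := Nat.cast_nonneg n
  have h5 : (∫ x, exp (g x) * ‖x - c‖ ^ 2 ∂μ + ∫ w, ‖w - c‖ ^ 2 ∂μ) / lam ≤ (Hh μ g + n) / 4 := by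
    rw [div_le_div_iff₀ hl0 four_pos]
    have ha2 : 0 < a ^ 2 := by positivity
    nlinarith [mul_le_mul_of_nonneg_left hl (add_nonneg hH hn),
      mul_le_mul_of_nonneg_right hE ha2.le]
  have h6 := ent_split hμ hc hl0 h2
  nlinarith

end Vale.Agent.P245
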