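import Vale.Agent.P245.Post

open MeasureTheory Real Set
open scoped RealInnerProductSpace ENNReal

namespace Vale.Agent.P245

variable {n : ℕ}

/-! Derivatives of the posterior quantities. Differentiate under the integral with
`hasFDerivAt_integral_of_dominated_of_fderiv_le` and `hasDerivAt_integral_of_dominated_loc_of_deriv_le`
(everything is bounded for `‖x‖ ≤ R`, `y` in a ball, `s` in `[s/2, 2s]`; `gk_le`, `gk_dom`).
Continuity: `continuousAt_of_dominated` (or `Good.integrable` style bounds on balls).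
`hasFDerivAt_av`: the vector integral `U y = ∫ (e^g gk) • x` has derivative
`∫ (e^g gk / s) • (innerSL (x - y)).smulRight x`; quotient rule; identify with `s⁻¹ • cv`
(test with `inner_cv` / `ContinuousLinearMap.integral_apply`; `∫ (e^g gk) • (x - av) = 0`). -/

variable {μ : Measure (E n)} {R : ℝ} {g : E n → ℝ} {s : ℝ}

theorem postd_cont {V P : Type*} [NormedAddCommGroup V] [NormedSpace ℝ V] [TopologicalSpace P]
    [FirstCountableTopology P] [LocallyCompactSpace P] (hμ : Good μ R) {F : P → E n → V}
    (hF : Continuous F.uncurry) : Continuous fun y => ∫ x, F y x ∂μ := by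
  have := hμ.prob
  have h : μ.restrict (Metric.closedBall 0 R) = μ :=
    Measure.restrict_eq_self_of_ae_mem (by simpa using hμ.supp)
  have h2 := continuous_parametric_integral_of_continuous (μ := μ) hF
    (isCompact_closedBall (0 : E n) R)
  rwa [h] at h2

theorem postd_bd {V P : Type*} [NormedAddCommGroup V] [TopologicalSpace P] (hμ : Good μ R)
    {F : P → E n → V} {K : Set P} (hK : IsCompact K)
    (hF : ContinuousOn F.uncurry (K ×ˢ univ)) : ∃ C : ℝ, ∀ᵐ x ∂μ, ∀ y ∈ K, ‖F y x‖ ≤ C := by
  obtain ⟨C, hC⟩ := (hK.prod (isCompact_closedBall (0 : E n) R)).exists_bound_of_continuousOn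
    (hF.mono (prod_mono_right (subset_univ _)))
  exact ⟨C, hμ.supp.mono fun x hx y hy => hC (y, x) ⟨hy, by simpa using hx⟩⟩

theorem postd_inner (hμ : Good μ R) {φ : E n → ℝ} (hφ : Continuous φ) (y b : E n) :
    ⟪b, PD μ φ s y⟫ = ∫ x, φ x * gk s y x / s * ⟪b, x - y⟫ ∂μ := by
  have := continuous_gk_right s y
  rw [PD, ← integral_inner (hμ.integrable (by fun_prop))]
  simp only [inner_smul_right]

theorem hasFDerivAt_PP (hμ : Good μ R) (hs : 0 < s) {φ : E n → ℝ} (hφ : Continuous φ) (y : E n) :
    HasFDerivAt (PP μ φ s) (innerSL ℝ (PD μ φ s y)) y := by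
  have := hμ.prob
  have hk := continuous_gk (n := n) s
  have hc : Continuous (Function.uncurry fun y x : E n =>
      φ x • ((gk s y x / s) • innerSL ℝ (x - y))) :=
    (hφ.comp continuous_snd).smul ((hk.div_const s).smul
      ((innerSL ℝ).continuous.comp (continuous_snd.sub continuous_fst)))
  obtain ⟨C, hC⟩ := postd_bd hμ (isCompact_closedBall y 1) hc.continuousOn
  have hi : Integrable (fun x => φ x • ((gk s y x / s) • innerSL ℝ (x - y))) μ :=
    hμ.integrable (hc.comp (Continuous.prodMk_right y))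
  have h := hasFDerivAt_integral_of_dominated_of_fderiv_le (μ := μ) (𝕜 := ℝ)
    (F := fun y x => φ x * gk s y x)
    (F' := fun y x => φ x • ((gk s y x / s) • innerSL ℝ (x - y)))
    (Metric.closedBall_mem_nhds y one_pos)
    (Filter.Eventually.of_forall fun z =>
      (hφ.mul (continuous_gk_right s z)).aestronglyMeasurable)
    (hμ.integrable (hφ.mul (continuous_gk_right s y))) hi.aestronglyMeasurable hC
    (integrable_const C)
    (Filter.Eventually.of_forall fun x z _ => (hasFDerivAt_gk hs z x).const_mul (φ x))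
  refine h.congr_fderiv ?_
  ext v
  rw [ContinuousLinearMap.integral_apply hi, innerSL_apply_apply, real_inner_comm,
    postd_inner hμ hφ]
  refine integral_congr_ae (Filter.Eventually.of_forall fun x => ?_)
  simp only [smul_apply, innerSL_apply_apply, smul_eq_mul]
  rw [real_inner_comm]
  ring

theorem hasDerivAt_PP (hμ : Good μ R) (hs : 0 < s) {φ : E n → ℝ} (hφ : Continuous φ) (y : E n) :
    HasDerivAt (fun s => PP μ φ s y) (PS μ φ s y) s := by
  have := hμ.prob
  have hc : ContinuousOn (Function.uncurry fun (s : ℝ) (x : E n) =>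
      φ x * (gk s y x * (‖y - x‖ ^ 2 / (2 * s ^ 2) - n / (2 * s)))) (Icc (s / 2) (2 * s) ×ˢ univ) := by
    intro z hz
    have h0 : 0 < z.1 := lt_of_lt_of_le (half_pos hs) hz.1.1
    refine ContinuousAt.continuousWithinAt ?_
    unfold gk Function.uncurry
    have h1 : ContinuousAt (fun z : ℝ × E n => (2 * π * z.1) ^ (-(n : ℝ) / 2)) z :=
      ContinuousAt.rpow_const (by fun_prop) (Or.inl (by positivity))
    have h2 : 2 * z.1 ≠ 0 := by positivity
    have h3 : 2 * z.1 ^ 2 ≠ 0 := by positivity
    fun_prop (disch := assumption)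
  obtain ⟨C, hC⟩ := postd_bd hμ isCompact_Icc hc
  have hk := continuous_gk_right s y
  exact (hasDerivAt_integral_of_dominated_loc_of_deriv_le (μ := μ)
    (F := fun s x => φ x * gk s y x)
    (F' := fun s x => φ x * (gk s y x * (‖y - x‖ ^ 2 / (2 * s ^ 2) - n / (2 * s))))
    (Icc_mem_nhds (half_lt_self hs) (by linarith))
    (Filter.Eventually.of_forall fun z =>
      (hφ.mul (continuous_gk_right z y)).aestronglyMeasurable)
    (hμ.integrable (hφ.mul hk)) (Continuous.aestronglyMeasurable (by fun_prop)) hC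
    (integrable_const C)
    (Filter.Eventually.of_forall fun x z hz =>
      (hasDerivAt_gk (lt_of_lt_of_le (half_pos hs) hz.1) y x).const_mul (φ x))).2

theorem continuous_PD (hμ : Good μ R) (hs : 0 < s) {φ : E n → ℝ} (hφ : Continuous φ) :
    Continuous (PD μ φ s) := by
  have hk := continuous_gk (n := n) s
  exact postd_cont hμ (F := fun y x => (φ x * gk s y x / s) • (x - y))
    ((((hφ.comp continuous_snd).mul hk).div_const s).smul (continuous_snd.sub continuous_fst))

theorem PD_exp (hμ : Good μ R) (hg : Continuous g) (hs : 0 < s) (y : E n) :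
    PD μ (fun x => exp (g x)) s y = (pp μ g s y / s) • (av μ g s y - y) := by
  have hk := continuous_gk_right s y
  have hp := (pp_pos hμ hg hs y).ne'
  refine ext_inner_left ℝ fun b => ?_
  rw [postd_inner hμ (by fun_prop), inner_smul_right, inner_sub_right, inner_av hμ hg hs]
  have e : ∀ x, exp (g x) * gk s y x / s * ⟪b, x - y⟫ =
      s⁻¹ * (exp (g x) * gk s y x * ⟪b, x⟫) - s⁻¹ * ⟪b, y⟫ * (exp (g x) * gk s y x) := fun x => by
    rw [inner_sub_right]; ring
  simp only [e]
  rw [integral_sub (hμ.integrable (by fun_prop)) (hμ.integrable (by fun_prop)), integral_const_mul,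
    integral_const_mul, ← pp]
  field_simp

/-- Gradient of the heat flow of `e^g x_i μ`. -/
theorem PD_exp_coord (hμ : Good μ R) (hg : Continuous g) (hs : 0 < s) (y : E n) (i : Fin n) :
    PD μ (fun x => exp (g x) * x i) s y =
      av μ g s y i • PD μ (fun x => exp (g x)) s y +
        (pp μ g s y / s) • cv μ g s y (EuclideanSpace.single i 1) := by
  have hk := continuous_gk_right s y
  have hp := (pp_pos hμ hg hs y).ne'
  refine ext_inner_left ℝ fun b => ?_
  rw [inner_add_right, inner_smul_right, inner_smul_right, postd_inner hμ (by fun_prop),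
    postd_inner hμ (by fun_prop), inner_cv hμ hg hs]
  have ha := av_apply hμ hg hs y i
  rw [eq_div_iff hp, PP, pp] at ha
  generalize av μ g s y = a at ha ⊢
  have e : ∀ x : E n, exp (g x) * x i * gk s y x / s * ⟪b, x - y⟫ =
      a i * (exp (g x) * gk s y x / s * ⟪b, x - y⟫) +
      s⁻¹ * (exp (g x) * gk s y x * (⟪b, x - a⟫ * ⟪EuclideanSpace.single i (1 : ℝ), x - a⟫)) +
      (s⁻¹ * ⟪b, a - y⟫ * (exp (g x) * x i * gk s y x) -
        s⁻¹ * ⟪b, a - y⟫ * a i * (exp (g x) * gk s y x)) := fun x => by
    rw [EuclideanSpace.inner_single_left]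
    simp only [inner_sub_right, map_one, PiLp.sub_apply]
    ring
  simp only [e]
  rw [integral_add (hμ.integrable (by fun_prop)) (hμ.integrable (by fun_prop)),
    integral_add (hμ.integrable (by fun_prop)) (hμ.integrable (by fun_prop)),
    integral_sub (hμ.integrable (by fun_prop)) (hμ.integrable (by fun_prop)),
    integral_const_mul, integral_const_mul, integral_const_mul, integral_const_mul, ← ha]
  field_simp
  ring

theorem hasFDerivAt_pp (hμ : Good μ R) (hg : Continuous g) (hs : 0 < s) (y : E n) :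
    HasFDerivAt (pp μ g s) (innerSL ℝ ((pp μ g s y / s) • (av μ g s y - y))) y := by
  rw [← PD_exp hμ hg hs]
  exact hasFDerivAt_PP hμ hs (by fun_prop) y

theorem hasFDerivAt_uu (hμ : Good μ R) (hg : Continuous g) (hs : 0 < s) (y : E n) :
    HasFDerivAt (uu μ g s) (innerSL ℝ (NN μ g s y)) y := by
  have h0 : Continuous (0 : E n → ℝ) := continuous_zero
  have hp := (pp_pos hμ hg hs y).ne'
  have hq := (pp_pos hμ h0 hs y).ne'
  refine (((hasFDerivAt_pp hμ hg hs y).log hp).fun_sub
    ((hasFDerivAt_pp hμ h0 hs y).log hq)).congr_fderiv ?_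
  ext v
  simp only [NN, sub_apply, smul_apply,
    innerSL_apply_apply, real_inner_smul_left, inner_sub_left, smul_eq_mul]
  field_simp
  ring

theorem postd_symm (hμ : Good μ R) (hg : Continuous g) (hs : 0 < s) (y a b : E n) :
    ⟪a, cv μ g s y b⟫ = ⟪cv μ g s y a, b⟫ := by
  rw [real_inner_comm b, inner_cv hμ hg hs, inner_cv hμ hg hs]
  simp only [mul_comm ⟪a, _⟫]

theorem hasFDerivAt_av (hμ : Good μ R) (hg : Continuous g) (hs : 0 < s) (y : E n) :
    HasFDerivAt (av μ g s) (s⁻¹ • cv μ g s y) y := by
  have hp := (pp_pos hμ hg hs y).ne'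
  rw [← hasFDerivWithinAt_univ, hasFDerivWithinAt_euclidean]
  intro i
  rw [hasFDerivWithinAt_univ]
  have e : (fun y => av μ g s y i) =
      fun y => PP μ (fun x => exp (g x) * x i) s y * (pp μ g s y)⁻¹ :=
    funext fun y => by rw [av_apply hμ hg hs, div_eq_mul_inv]
  have h1 := hasFDerivAt_PP hμ hs (φ := fun x => exp (g x) * x i) (by fun_prop) y
  have h2 := (hasDerivAt_inv hp).comp_hasFDerivAt y (hasFDerivAt_pp hμ hg hs y)
  rw [e]
  refine (h1.fun_mul h2).congr_fderiv ?_
  ext v
  have ha := av_apply hμ hg hs y i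
  rw [eq_div_iff hp] at ha
  have hc : ⟪cv μ g s y (EuclideanSpace.single i 1), v⟫ = cv μ g s y v i := by
    rw [← postd_symm hμ hg hs, EuclideanSpace.inner_single_left]; simp
  rw [PD_exp_coord hμ hg hs, PD_exp hμ hg hs, ← ha]
  simp only [add_apply, smul_apply,
    innerSL_apply_apply, real_inner_smul_left, inner_add_left, smul_eq_mul, hc,
    ContinuousLinearMap.comp_apply, Function.comp_apply, PiLp.proj_apply, PiLp.smul_apply]
  field_simp
  ring

theorem hasFDerivAt_NN (hμ : Good μ R) (hg : Continuous g) (hs : 0 < s) (y : E n) :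
    HasFDerivAt (NN μ g s) (DN μ g s y) y := by
  refine (((hasFDerivAt_av hμ hg hs y).fun_sub
    (hasFDerivAt_av hμ continuous_zero hs y)).fun_const_smul s⁻¹).congr_fderiv ?_
  rw [DN, ← smul_sub, smul_smul, sq, mul_inv]

theorem continuous_av (hμ : Good μ R) (hg : Continuous g) (hs : 0 < s) :
    Continuous (av μ g s) :=
  continuous_iff_continuousAt.2 fun y => (hasFDerivAt_av hμ hg hs y).continuousAt

theorem continuous_cv (hμ : Good μ R) (hg : Continuous g) (hs : 0 < s) :
    Continuous (cv μ g s) := by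
  have ha := continuous_av hμ hg hs
  have hp : Continuous (pp μ g s) :=
    continuous_iff_continuousAt.2 fun y => (hasFDerivAt_pp hμ hg hs y).continuousAt
  have hd : Continuous fun z : E n × E n => z.2 - av μ g s z.1 := by fun_prop
  refine (hp.inv₀ fun y => (pp_pos hμ hg hs y).ne').smul (postd_cont hμ
    (F := fun y x => (exp (g x) * gk s y x) •
      (innerSL ℝ (x - av μ g s y)).smulRight (x - av μ g s y)) ?_)
  refine (((hg.comp continuous_snd).rexp).mul (continuous_gk s)).smul ?_
  exact (ContinuousLinearMap.smulRightL ℝ (E n) (E n)).continuous₂.comp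
    (((innerSL ℝ).continuous.comp hd).prodMk hd)

theorem continuous_DN (hμ : Good μ R) (hg : Continuous g) (hs : 0 < s) :
    Continuous (DN μ g s) :=
  ((continuous_cv hμ hg hs).sub (continuous_cv hμ continuous_zero hs)).const_smul (s ^ 2)⁻¹

theorem cv_symm (hμ : Good μ R) (hg : Continuous g) (hs : 0 < s) (y a b : E n) :
    ⟪a, cv μ g s y b⟫ = ⟪cv μ g s y a, b⟫ := postd_symm hμ hg hs y a b

end Vale.Agent.P245
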