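import Vale.Agent.P245.PostM
import Vale.Agent.P245.PostD

open MeasureTheory Real Set
open scoped RealInnerProductSpace ENNReal

namespace Vale.Agent.P245

variable {n : ℕ}

/-! Weak form of the heat equation `∂_s P = Δ P / 2`. Swap the integrals (`integral_integral_swap`;
integrability on `volume.prod μ` from `gk_dom` with `s1 = s2 = s`, `k = 2`, and `integrable_PP`),
apply `stein2` for each `x`; note `F' y (PD φ s y) = ∫ (φ x * gk / s) * F' y (x - y) ∂μ`.
`PS_dom`: `gk_dom` with `k = 2`. -/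

variable {μ : Measure (E n)} {R : ℝ} {s : ℝ} {φ : E n → ℝ}

theorem dissa_gk (hμ : Good μ R) (hs : 0 < s) :
    Integrable (fun z : E n × E n => gk s z.1 z.2) ((volume : Measure (E n)).prod μ) := by
  have := hμ.prob
  rw [integrable_prod_iff' (continuous_gk s).aestronglyMeasurable]
  refine ⟨Filter.Eventually.of_forall fun x => integrable_gk hs x, ?_⟩
  have e : ∀ x : E n, ∫ y, ‖gk s y x‖ = 1 := fun x => by
    simp only [Real.norm_of_nonneg (gk_pos hs _ x).le, integral_gk hs x]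
  simp only [e]
  exact integrable_const _

theorem dissa_int {V : Type*} [NormedAddCommGroup V] [SecondCountableTopology V] (hμ : Good μ R)
    (hs : 0 < s) {G : E n × E n → V} (hG : Continuous G) {M : ℝ} (hM : 0 ≤ M)
    (hb : ∀ y x, ‖x‖ ≤ R → ‖G (y, x)‖ ≤ M * (gk s y x * (1 + ‖y - x‖) ^ 2)) :
    Integrable G ((volume : Measure (E n)).prod μ) := by
  have := hμ.prob
  obtain ⟨C, -, hC⟩ := gk_dom (n := n) (s2 := s) hs 2
  refine ((dissa_gk hμ (mul_pos two_pos hs)).const_mul (M * C)).mono' hG.aestronglyMeasurable ?_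
  filter_upwards [Measure.quasiMeasurePreserving_snd.ae hμ.supp] with z hz
  rw [mul_assoc]
  exact (hb z.1 z.2 hz).trans (mul_le_mul_of_nonneg_left (hC s ⟨le_rfl, le_rfl⟩ _ _) hM)

theorem dissa_ker {s1 d : ℝ} (h1 : 0 < s1) (hs : s1 ≤ s) (hd : 0 ≤ d) :
    |d ^ 2 / (2 * s ^ 2) - n / (2 * s)| ≤ (1 / (2 * s1 ^ 2) + n / (2 * s1)) * (1 + d) ^ 2 := by
  have h0 : 0 < s := h1.trans_le hs
  refine (abs_sub _ _).trans ?_
  rw [abs_of_nonneg (by positivity), abs_of_nonneg (by positivity), add_mul]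
  refine add_le_add ?_ ?_
  · rw [div_mul_eq_mul_div, one_mul]
    gcongr
    linarith
  · refine le_trans (b := n / (2 * s1) * 1) (by rw [mul_one]; gcongr) ?_
    gcongr
    nlinarith

theorem dissa_S (hs : 0 < s) {s1 M : ℝ} (h1 : 0 < s1) (h2 : s1 ≤ s) {y x : E n}
    (hM : ‖φ x‖ ≤ M) : ‖φ x * (gk s y x * (‖y - x‖ ^ 2 / (2 * s ^ 2) - n / (2 * s)))‖ ≤
      M * (1 / (2 * s1 ^ 2) + n / (2 * s1)) * (gk s y x * (1 + ‖y - x‖) ^ 2) := by
  have hk := (gk_pos hs y x).le
  have h3 := dissa_ker (n := n) h1 h2 (norm_nonneg (y - x))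
  have h4 := (norm_nonneg _).trans hM
  rw [norm_mul, norm_mul, Real.norm_of_nonneg hk, Real.norm_eq_abs (_ - _)]
  calc _ ≤ M * (gk s y x * ((1 / (2 * s1 ^ 2) + n / (2 * s1)) * (1 + ‖y - x‖) ^ 2)) := by gcongr
    _ = _ := by ring

theorem dissa_D (hs : 0 < s) {M : ℝ} {y x : E n} (hM : ‖φ x‖ ≤ M) :
    ‖(φ x * gk s y x / s) • (x - y)‖ ≤ M / s * (gk s y x * (1 + ‖y - x‖) ^ 2) := by
  have hk := (gk_pos hs y x).le
  have h4 := (norm_nonneg _).trans hM
  have h5 : ‖x - y‖ ≤ (1 + ‖y - x‖) ^ 2 := by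
    rw [norm_sub_rev]; nlinarith [norm_nonneg (y - x)]
  rw [norm_smul, norm_div, norm_mul, Real.norm_of_nonneg hk, Real.norm_of_nonneg hs.le]
  calc _ ≤ M * gk s y x / s * (1 + ‖y - x‖) ^ 2 := by gcongr
    _ = _ := by ring

theorem dissa_iS (hμ : Good μ R) (hs : 0 < s) (hφ : Continuous φ) :
    Integrable (fun z : E n × E n => φ z.2 * (gk s z.1 z.2 *
      (‖z.1 - z.2‖ ^ 2 / (2 * s ^ 2) - n / (2 * s)))) ((volume : Measure (E n)).prod μ) := by
  obtain ⟨M, hM0, hM⟩ := exists_bd hφ R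
  have hk := continuous_gk (n := n) s
  exact dissa_int hμ hs (by fun_prop) (by positivity) fun y x hx =>
    dissa_S hs hs le_rfl (hM x hx)

theorem dissa_iD (hμ : Good μ R) (hs : 0 < s) (hφ : Continuous φ) :
    Integrable (fun z : E n × E n => (φ z.2 * gk s z.1 z.2 / s) • (z.2 - z.1))
      ((volume : Measure (E n)).prod μ) := by
  obtain ⟨M, hM0, hM⟩ := exists_bd hφ R
  have hk := continuous_gk (n := n) s
  exact dissa_int hμ hs (by fun_prop) (by positivity) fun y x hx => dissa_D hs (hM x hx)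

theorem PS_dom (hμ : Good μ R) (hφ : Continuous φ) {s1 s2 : ℝ} (h1 : 0 < s1) :
    ∃ C : ℝ, 0 ≤ C ∧ ∀ s ∈ Icc s1 s2, ∀ y, |PS μ φ s y| ≤ C * pp μ 0 (2 * s2) y := by
  obtain ⟨M, hM0, hM⟩ := exists_bd hφ R
  obtain ⟨C, hC0, hC⟩ := gk_dom (n := n) (s2 := s2) h1 2
  refine ⟨M * (1 / (2 * s1 ^ 2) + n / (2 * s1)) * C, by positivity, fun s hs y => ?_⟩
  rw [pp_zero, ← integral_const_mul, PS, ← Real.norm_eq_abs]
  refine norm_integral_le_of_norm_le
    ((hμ.integrable (continuous_gk_right _ y)).const_mul _) (hμ.supp.mono fun x hx => ?_)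
  refine (dissa_S (h1.trans_le hs.1) h1 hs.1 (hM x hx)).trans ?_
  rw [mul_assoc _ C]
  exact mul_le_mul_of_nonneg_left (hC s hs y x) (by positivity)

theorem integrable_PS (hμ : Good μ R) (hs : 0 < s) (hφ : Continuous φ) :
    Integrable (PS μ φ s) := by
  have := hμ.prob
  exact (dissa_iS hμ hs hφ).integral_prod_left

theorem integrable_PD (hμ : Good μ R) (hs : 0 < s) (hφ : Continuous φ) :
    Integrable (PD μ φ s) := by
  have := hμ.prob
  exact (dissa_iD hμ hs hφ).integral_prod_left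

theorem weak_heat (hμ : Good μ R) (hs : 0 < s) (hφ : Continuous φ) {F : E n → ℝ}
    {F' : E n → E n →L[ℝ] ℝ} (hF : ∀ y, HasFDerivAt F (F' y) y) (hc : Continuous F') (C : ℝ)
    (hb : ∀ y, ‖F y‖ ≤ C) (hb' : ∀ y, ‖F' y‖ ≤ C) :
    ∫ y, F y * PS μ φ s y = -(1 / 2) * ∫ y, F' y (PD μ φ s y) := by
  have := hμ.prob
  have hFc : Continuous F := continuous_iff_continuousAt.2 fun y => (hF y).continuousAt
  have hk := continuous_gk (n := n) s
  have i1 : Integrable (Function.uncurry fun y x : E n => F y * (φ x * (gk s y x *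
      (‖y - x‖ ^ 2 / (2 * s ^ 2) - n / (2 * s))))) ((volume : Measure (E n)).prod μ) :=
    (dissa_iS hμ hs hφ).bdd_mul (hFc.comp continuous_fst).aestronglyMeasurable
      (Filter.Eventually.of_forall fun z => hb z.1)
  have i2 : Integrable (Function.uncurry fun y x : E n => F' y ((φ x * gk s y x / s) • (x - y)))
      ((volume : Measure (E n)).prod μ) := by
    refine ((dissa_iD hμ hs hφ).norm.const_mul C).mono'
      (Continuous.aestronglyMeasurable ?_) (Filter.Eventually.of_forall fun z => ?_)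
    · exact (hc.comp continuous_fst).clm_apply (by fun_prop)
    · exact (F' z.1).le_of_opNorm_le (hb' z.1) _
  have e1 : ∀ y, F y * PS μ φ s y = ∫ x, F y * (φ x * (gk s y x *
      (‖y - x‖ ^ 2 / (2 * s ^ 2) - n / (2 * s)))) ∂μ := fun y => by
    rw [integral_const_mul, PS]
  have e2 : ∀ y, F' y (PD μ φ s y) = ∫ x, F' y ((φ x * gk s y x / s) • (x - y)) ∂μ := fun y => by
    have := continuous_gk_right s y
    rw [PD, ContinuousLinearMap.integral_comp_comm _ (hμ.integrable (by fun_prop))]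
  simp only [e1, e2]
  rw [integral_integral_swap i1, integral_integral_swap i2, ← integral_const_mul]
  refine integral_congr_ae (Filter.Eventually.of_forall fun x => ?_)
  have e3 : ∀ y, F y * (φ x * (gk s y x * (‖y - x‖ ^ 2 / (2 * s ^ 2) - n / (2 * s)))) =
      φ x * (F y * (gk s y x * (‖y - x‖ ^ 2 / (2 * s ^ 2) - n / (2 * s)))) := fun y => by ring
  have e4 : ∀ y, F' y ((φ x * gk s y x / s) • (x - y)) =
      -(φ x / s) * (gk s y x * F' y (y - x)) := fun y => by
    rw [map_smul, ← neg_sub y x, map_neg, smul_eq_mul]; ring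
  simp only [e3, e4]
  rw [integral_const_mul, integral_const_mul, stein2 hs x hF hc C hb hb']
  field_simp

end Vale.Agent.P245
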