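import Vale.Agent.P245.DissA

open MeasureTheory Real Set
open scoped RealInnerProductSpace ENNReal

namespace Vale.Agent.P245

variable {n : ℕ}

/-! Differentiation in `s` under the `y`-integral.
`hasDerivAt_K`: write `‖v‖² = ∑ i, (v i)²`, `av g s y i = PP (e^g x_i) / PP (e^g)` (`av_apply`, valid
for `s` near the base point, `pp_eq_PP`; for `g = 0` rewrite `exp (0 x) = 1`), use `hasDerivAt_PP` and
the quotient rule, then `field_simp` coordinatewise.
`hasDerivAt_KK`: `hasDerivAt_integral_of_dominated_loc_of_deriv_le` on the ball of radius `s/2`;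
the coefficients in `KS` are bounded (`norm_av_le`, `pp g / pp 0 ≤ exp M` from `exp_uu`, `abs_uu_le`)
and `PS_dom` bounds the rest by `C * pp μ 0 (4 s) y`, integrable by `integrable_pp`. -/

variable {μ : Measure (E n)} {R : ℝ} {g : E n → ℝ} {s : ℝ}

theorem dissb_pp (μ : Measure (E n)) (s : ℝ) (y : E n) : pp μ 0 s y = PP μ (fun _ => 1) s y := by
  simp only [pp_eq_PP, Pi.zero_apply, exp_zero]

theorem dissb_av (hμ : Good μ R) (hs : 0 < s) (y : E n) (i : Fin n) :
    av μ 0 s y i = PP μ (fun x => x i) s y / PP μ (fun _ => 1) s y := by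
  simp only [av_apply hμ continuous_zero hs, dissb_pp, Pi.zero_apply, exp_zero, one_mul]

theorem dissb_inner (u v : E n) : ⟪u, v⟫ = ∑ i, u i * v i := by
  simp [PiLp.inner_apply, mul_comm]

theorem hasDerivAt_K (hμ : Good μ R) (hg : Continuous g) (hs : 0 < s) (y : E n) :
    HasDerivAt (fun s => pp μ g s y * ‖av μ g s y - av μ 0 s y‖ ^ 2) (KS μ g s y) s := by
  have p := (pp_pos hμ hg hs y).ne'
  have q := (pp_pos hμ continuous_zero hs y).ne'
  rw [pp_eq_PP] at p
  rw [dissb_pp] at q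
  have dP := hasDerivAt_PP hμ hs (φ := fun x => exp (g x)) (by fun_prop) y
  have dQ := hasDerivAt_PP hμ hs (φ := fun _ => 1) continuous_const y
  have h := HasDerivAt.fun_sum (u := Finset.univ) fun (i : Fin n) _ => dP.fun_mul
    ((((hasDerivAt_PP hμ hs (φ := fun x => exp (g x) * x i) (by fun_prop) y).fun_div dP p).fun_sub
      ((hasDerivAt_PP hμ hs (φ := fun x => x i) (by fun_prop) y).fun_div dQ q)).fun_pow 2)
  refine (h.congr_of_eventuallyEq ?_).congr_deriv ?_
  · filter_upwards [lt_mem_nhds hs] with t ht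
    simp only [EuclideanSpace.real_norm_sq_eq, PiLp.sub_apply, av_apply hμ hg ht, dissb_av hμ ht,
      pp_eq_PP μ g, Finset.mul_sum]
  · simp only [KS, EuclideanSpace.real_norm_sq_eq, dissb_inner, PiLp.sub_apply, av_apply hμ hg hs,
      dissb_av hμ hs, pp_eq_PP μ g, dissb_pp, Finset.mul_sum, ← Finset.sum_sub_distrib,
      Finset.sum_mul, ← Finset.sum_add_distrib]
    refine Finset.sum_congr rfl fun i _ => ?_
    rw [Nat.add_one_sub_one, pow_one, Nat.cast_ofNat]
    field_simp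
    ring

theorem dissb_mul {a b A B : ℝ} (ha : |a| ≤ A) (hb : |b| ≤ B) : |a * b| ≤ A * B := by
  rw [abs_mul]
  exact mul_le_mul ha hb (abs_nonneg _) ((abs_nonneg _).trans ha)

theorem dissb_dom (hμ : Good μ R) (hg : Continuous g) {s1 s2 : ℝ} (h1 : 0 < s1) :
    ∃ C : ℝ, ∀ s ∈ Icc s1 s2, ∀ y, |KS μ g s y| ≤ C * pp μ 0 (2 * s2) y := by
  obtain ⟨M, -, hM⟩ := exists_bd hg R
  obtain ⟨C0, -, k0⟩ := PS_dom hμ (φ := fun x => exp (g x)) (by fun_prop) (s2 := s2) h1
  obtain ⟨C3, -, k3⟩ := PS_dom hμ (φ := fun _ => 1) continuous_const (s2 := s2) h1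
  choose C1 _ k1 using fun i : Fin n =>
    PS_dom hμ (φ := fun x => exp (g x) * x i) (by fun_prop) (s2 := s2) h1
  choose C2 _ k2 using fun i : Fin n => PS_dom hμ (φ := fun x => x i) (by fun_prop) (s2 := s2) h1
  refine ⟨((2 * R) ^ 2 + 2 * (2 * R * R)) * C0 + ∑ i, 2 * (2 * R) * C1 i +
    ∑ i, 2 * (exp M * (2 * R)) * C2 i + 2 * (exp M * (2 * R * R)) * C3, fun s hs y => ?_⟩
  have s0 := h1.trans_le hs.1
  have a1 := norm_av_le hμ hg s0 y
  have a0 := norm_av_le hμ continuous_zero s0 y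
  have a2 : ‖av μ g s y - av μ 0 s y‖ ≤ 2 * R := (norm_sub_le _ _).trans (by linarith)
  have a3 : ∀ i, |(av μ g s y - av μ 0 s y) i| ≤ 2 * R :=
    fun i => (PiLp.norm_apply_le _ i).trans a2
  have a4 : ∀ v : E n, ‖v‖ ≤ R → |⟪av μ g s y - av μ 0 s y, v⟫| ≤ 2 * R * R := fun v hv =>
    (abs_real_inner_le_norm _ _).trans (mul_le_mul a2 hv (norm_nonneg _) ((norm_nonneg _).trans a2))
  have a5 : |pp μ g s y / pp μ 0 s y| ≤ exp M := by
    rw [← exp_uu hμ hg s0, abs_of_pos (exp_pos _)]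
    exact exp_le_exp.2 (abs_le.1 (abs_uu_le hμ hg s0 hM y)).2
  have t2 : |(2 : ℝ)| ≤ 2 := abs_two.le
  have a6 : |‖av μ g s y - av μ 0 s y‖ ^ 2| ≤ (2 * R) ^ 2 := by
    rw [abs_of_nonneg (sq_nonneg _)]
    exact pow_le_pow_left₀ (norm_nonneg _) a2 2
  have b0 := dissb_mul ((abs_sub _ _).trans (add_le_add a6 (dissb_mul t2 (a4 _ a1)))) (k0 s hs y)
  have b1 := (Finset.abs_sum_le_sum_abs _ _).trans (Finset.sum_le_sum (s := Finset.univ)
    fun i _ => dissb_mul (dissb_mul t2 (a3 i)) (k1 i s hs y))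
  have b2 := (Finset.abs_sum_le_sum_abs _ _).trans (Finset.sum_le_sum (s := Finset.univ)
    fun i _ => dissb_mul (dissb_mul t2 (dissb_mul a5 (a3 i))) (k2 i s hs y))
  have b3 := dissb_mul (dissb_mul t2 (dissb_mul a5 (a4 _ a0))) (k3 s hs y)
  refine ((abs_add_le _ _).trans (add_le_add ((abs_sub _ _).trans (add_le_add
    ((abs_add_le _ _).trans (add_le_add b0 b1)) b2)) b3)).trans_eq ?_
  simp only [add_mul _ _ (pp μ 0 _ y), Finset.sum_mul, mul_assoc]

theorem hasDerivAt_KK (hμ : Good μ R) (hg : Continuous g) (hs : 0 < s) :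
    HasDerivAt (fun s => ∫ y, pp μ g s y * ‖av μ g s y - av μ 0 s y‖ ^ 2) (∫ y, KS μ g s y) s := by
  obtain ⟨C, hC⟩ := dissb_dom hμ hg (s2 := 2 * s) (half_pos hs)
  have m : ∀ t, StronglyMeasurable fun y => ‖av μ g t y - av μ 0 t y‖ ^ 2 := fun t =>
    ((((sm_av hμ hg).sub (sm_av hμ continuous_zero)).norm.pow 2).comp_measurable
      measurable_prodMk_left :)
  refine (hasDerivAt_integral_of_dominated_loc_of_deriv_le (s := Icc (s / 2) (2 * s))
    (Icc_mem_nhds (by linarith) (by linarith))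
    (.of_forall fun t => (((sm_pp hμ hg).comp_measurable measurable_prodMk_left).mul
      (m t)).aestronglyMeasurable) ?_
    ((sm_KS hμ hg).comp_measurable measurable_prodMk_left).aestronglyMeasurable
    (.of_forall fun y t ht => hC t ht y)
    ((integrable_pp hμ continuous_zero (by positivity)).const_mul C)
    (.of_forall fun y t ht => hasDerivAt_K hμ hg ((half_pos hs).trans_le ht.1) y)).2
  refine (integrable_pp hμ hg hs).mul_bdd (c := (2 * R) ^ 2) (m s).aestronglyMeasurable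
    (.of_forall fun y => ?_)
  rw [Real.norm_of_nonneg (sq_nonneg _)]
  exact pow_le_pow_left₀ (norm_nonneg _) ((norm_sub_le _ _).trans (by
    linarith [norm_av_le hμ hg hs y, norm_av_le hμ continuous_zero hs y])) 2

end Vale.Agent.P245
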