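import Vale.Agent.P245.Post

open MeasureTheory Real Set
open scoped RealInnerProductSpace ENNReal

namespace Vale.Agent.P245

variable {n : ℕ}

/-! Subgaussian bound, covariance bound and transport bound for the posterior of `μ`.
`post_mgf`: with `φ x = log (gk s y x)`, `t' = 1 - t`, `c = t s ‖ζ‖²/(2t')` apply `LC` to
`U = ⟪ζ,·⟫ + φ`, `V = -(t/t') ⟪ζ,·⟫ - c/t' + φ`, `W = φ`; the hypothesis is
`t ⟪ζ, x-w⟫ - c - t t' ‖x-w‖²/(2s) ≤ 0` together with
`t φ x + t' φ w = φ (t•x+t'•w) - t t' ‖x-w‖²/(2s)`. Jensen for `V` is `post_dv` with `g = 0`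
(`Hy_zero`, `inner_av`). This gives `log (∫ gk e^⟪ζ,x-a⟫ / q) ≤ s‖ζ‖²/(2t')`; let `t → 0`.
`post_cov`: add `post_mgf` for `ε•e` and `-ε•e`, use `2 + u² ≤ exp u + exp (-u)`, divide by `ε²`,
let `ε → 0` (`inner_cv`).
`post_T1`: `post_dv` with `ψ x = ⟪ζ, x - av 0⟫`, `ζ = NN`, then `post_mgf`. -/

variable {μ : Measure (E n)} {R : ℝ} {g : E n → ℝ} {s : ℝ}

theorem slc2_norm (p r : E n) (t : ℝ) : ‖t • p + (1 - t) • r‖ ^ 2 =
    t * ‖p‖ ^ 2 + (1 - t) * ‖r‖ ^ 2 - t * (1 - t) * ‖r - p‖ ^ 2 := by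
  rw [norm_add_sq_real, norm_sub_sq_real, norm_smul, norm_smul, mul_pow, mul_pow, real_inner_smul_left,
    real_inner_smul_right, real_inner_comm, Real.norm_eq_abs, Real.norm_eq_abs, sq_abs, sq_abs]
  ring

theorem slc2_log (hμ : Good μ R) (hL : LC μ R) (hs : 0 < s) (y ζ : E n) :
    uu μ (fun x => ⟪ζ, x⟫) s y ≤ ⟪ζ, av μ 0 s y⟫ + s * ‖ζ‖ ^ 2 / 2 := by
  have hφ : Continuous fun x => log (gk s y x) :=
    (continuous_gk_right s y).log fun x => (gk_pos hs y x).ne'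
  have key : ∀ t : ℝ, 0 < t → t < 1 →
      (1 - t) * (uu μ (fun x => ⟪ζ, x⟫) s y - ⟪ζ, av μ 0 s y⟫) ≤ s * ‖ζ‖ ^ 2 / 2 := by
    intro t h0 h1
    have h2 : 0 < 1 - t := by linarith
    have h3 := hL t h0 h1 (fun x => ⟪ζ, x⟫ + log (gk s y x))
      (fun x => ⟪(-(t / (1 - t))) • ζ, x⟫ + log (gk s y x))
      (fun x => log (gk s y x) + t * (s * ‖ζ‖ ^ 2 / 2 / (1 - t))) (by fun_prop) (by fun_prop)
      (by fun_prop) fun x w _ _ => by
        have e1 := log_gk_sub hs y x (t • x + (1 - t) • w)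
        have e2 := log_gk_sub hs y w (t • x + (1 - t) • w)
        have e3 : y - (t • x + (1 - t) • w) = t • (y - x) + (1 - t) • (y - w) := by module
        rw [e3, slc2_norm, sub_sub_sub_cancel_left] at e1 e2
        have e4 := real_inner_le_norm ζ (x - w)
        have e5 : ‖ζ‖ * ‖x - w‖ ≤ (1 - t) * ‖x - w‖ ^ 2 / (2 * s) + s * ‖ζ‖ ^ 2 / 2 / (1 - t) := by
          rw [div_div, div_add_div _ _ (by positivity) (by positivity), le_div_iff₀ (by positivity)]
          nlinarith [sq_nonneg ((1 - t) * ‖x - w‖ - s * ‖ζ‖)]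
        have e6 := mul_le_mul_of_nonneg_left (e4.trans e5) h0.le
        rw [inner_sub_right] at e6
        have e7 : (1 - t) * ⟪(-(t / (1 - t))) • ζ, w⟫ = -(t * ⟪ζ, w⟫) := by
          rw [real_inner_smul_left]; field_simp
        have e8 : t * log (gk s y x) + (1 - t) * log (gk s y w) =
            log (gk s y (t • x + (1 - t) • w)) - t * ((1 - t) * ‖x - w‖ ^ 2 / (2 * s)) := by
          linear_combination t * e1 + (1 - t) * e2
        linarith
    simp only [exp_add, exp_log (gk_pos hs y _)] at h3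
    have q0 := pp_pos hμ (g := 0) continuous_zero hs y
    rw [integral_mul_const, ← pp_zero, log_mul q0.ne' (exp_pos _).ne', log_exp] at h3
    have h4 := post_dv hμ (g := 0) continuous_zero hs (ψ := fun x => ⟪(-(t / (1 - t))) • ζ, x⟫)
      (by fun_prop) y
    rw [← inner_av hμ continuous_zero hs, Hy_zero, zero_add, real_inner_smul_left] at h4
    have h5 := mul_le_mul_of_nonneg_left h4 h2.le
    have h6 : (1 - t) * (-(t / (1 - t)) * ⟪ζ, av μ 0 s y⟫) = -(t * ⟪ζ, av μ 0 s y⟫) := by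
      field_simp
    rw [mul_comm, ← le_div_iff₀ h2]
    refine le_of_mul_le_mul_left ?_ h0
    simp only [uu] at h5 ⊢
    simp only [pp] at h5 h3 h6 ⊢
    linarith
  by_contra hc
  push Not at hc
  set X := uu μ (fun x => ⟪ζ, x⟫) s y - ⟪ζ, av μ 0 s y⟫
  set K := s * ‖ζ‖ ^ 2 / 2
  have hK : 0 ≤ K := by positivity
  have hX : K < X := by simp only [X]; linarith
  have h0 : 0 < X := hK.trans_lt hX
  have := key ((X - K) / (2 * X)) (div_pos (by linarith) (by linarith))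
    ((div_lt_one (by linarith)).2 (by linarith))
  have e : (1 - (X - K) / (2 * X)) * X = (X + K) / 2 := by field_simp; ring
  linarith

theorem post_mgf (hμ : Good μ R) (hL : LC μ R) (hs : 0 < s) (y ζ : E n) :
    ∫ x, gk s y x * exp ⟪ζ, x - av μ 0 s y⟫ ∂μ ≤ pp μ 0 s y * exp (s * ‖ζ‖ ^ 2 / 2) := by
  have h := exp_le_exp.2 (slc2_log hμ hL hs y ζ)
  have q0 := pp_pos hμ (g := 0) continuous_zero hs y
  rw [exp_uu hμ (by fun_prop) hs, div_le_iff₀ q0, exp_add] at h
  have e : ∫ x, gk s y x * exp ⟪ζ, x - av μ 0 s y⟫ ∂μ =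
      pp μ (fun x => ⟪ζ, x⟫) s y / exp ⟪ζ, av μ 0 s y⟫ := by
    simp only [pp, ← integral_div, inner_sub_right, exp_sub]
    congr 1; funext x; ring
  rw [e, div_le_iff₀ (exp_pos _)]
  linarith

theorem slc2_cosh (u : ℝ) : 2 + u ^ 2 ≤ exp u + exp (-u) := by
  have h1 := cosh_two_mul (u / 2)
  have h2 := cosh_sq (u / 2)
  have h3 : (u / 2) ^ 2 ≤ sinh (u / 2) ^ 2 := by
    rw [sq_le_sq, abs_sinh]
    exact self_le_sinh_iff.2 (abs_nonneg _)
  rw [show 2 * (u / 2) = u by ring, cosh_eq u] at h1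
  linarith

theorem post_cov (hμ : Good μ R) (hL : LC μ R) (hs : 0 < s) (y e : E n) :
    ⟪e, cv μ 0 s y e⟫ ≤ s * ‖e‖ ^ 2 := by
  have q0 := pp_pos hμ (g := 0) continuous_zero hs y
  have gc := continuous_gk_right s y
  rw [inner_cv hμ continuous_zero hs]
  simp only [Pi.zero_apply, exp_zero, one_mul]
  set a := av μ 0 s y
  set K := s * ‖e‖ ^ 2 / 2 with hK
  have hK0 : 0 ≤ K := by positivity
  refine le_of_forall_pos_le_add fun η hη => ?_
  set ε := min (1 / (K + 1)) (η / (2 * K ^ 2 + 1)) with hε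
  have h0 : 0 < ε := lt_min (by positivity) (by positivity)
  have h1 : ε * (K + 1) ≤ 1 := (le_div_iff₀ (by positivity)).1 (min_le_left _ _)
  have h2 : ε * (2 * K ^ 2 + 1) ≤ η := (le_div_iff₀ (by positivity)).1 (min_le_right _ _)
  have h3 : ε ≤ 1 := by nlinarith
  have m1 := post_mgf hμ hL hs y (ε • e)
  have m2 := post_mgf hμ hL hs y (-(ε • e))
  rw [norm_neg] at m2
  have e1 : s * ‖ε • e‖ ^ 2 / 2 = ε ^ 2 * K := by
    rw [norm_smul, mul_pow, Real.norm_eq_abs, sq_abs, hK]; ring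
  rw [e1] at m1 m2
  have i1 : Integrable (fun x => gk s y x) μ := hμ.integrable gc
  have i2 : Integrable (fun x => gk s y x * (⟪e, x - a⟫ * ⟪e, x - a⟫)) μ :=
    hμ.integrable (by fun_prop)
  have i3 : Integrable (fun x => gk s y x * exp ⟪ε • e, x - a⟫) μ := hμ.integrable (by fun_prop)
  have i4 : Integrable (fun x => gk s y x * exp ⟪-(ε • e), x - a⟫) μ := hμ.integrable (by fun_prop)
  have m3 := integral_mono ((i1.const_mul 2).add (i2.const_mul (ε ^ 2))) (i3.add i4) fun x => by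
    have := mul_le_mul_of_nonneg_left (slc2_cosh (ε * ⟪e, x - a⟫)) (gk_pos hs y x).le
    simp only [Pi.add_apply, inner_neg_left, real_inner_smul_left]
    linarith
  simp only [Pi.add_apply] at m3
  rw [integral_add (i1.const_mul 2) (i2.const_mul _), integral_add i3 i4, integral_const_mul,
    integral_const_mul, ← pp_zero] at m3
  have h4 : ε ^ 2 * K ≤ 1 := by nlinarith [mul_nonneg h0.le hK0]
  have h5 := (abs_le.1 (abs_exp_sub_one_sub_id_le (x := ε ^ 2 * K)
    (by rw [abs_of_nonneg (by positivity)]; exact h4))).2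
  have h6 := mul_le_mul_of_nonneg_left h5 q0.le
  have h7 : ε ^ 2 * (2 * K ^ 2) ≤ η := by nlinarith [mul_nonneg h0.le (sq_nonneg K)]
  have h8 := mul_le_mul_of_nonneg_left h7 (mul_pos (pow_pos h0 2) q0).le
  rw [div_le_iff₀ q0]
  refine le_of_mul_le_mul_left ?_ (pow_pos h0 2)
  have h9 : s * ‖e‖ ^ 2 = 2 * K := by rw [hK]; ring
  rw [h9]
  linarith

theorem post_T1 (hμ : Good μ R) (hL : LC μ R) (hg : Continuous g) (hs : 0 < s) (y : E n) :
    s * ‖NN μ g s y‖ ^ 2 ≤ 2 * Hy μ g s y := by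
  have h1 := post_dv hμ hg hs (ψ := fun x => ⟪NN μ g s y, x⟫) (by fun_prop) y
  rw [← inner_av hμ hg hs] at h1
  have h2 := slc2_log hμ hL hs y (NN μ g s y)
  have h3 : av μ g s y - av μ 0 s y = s • NN μ g s y := by
    rw [NN, smul_smul, mul_inv_cancel₀ hs.ne', one_smul]
  have h4 := congrArg (fun v => ⟪NN μ g s y, v⟫) h3
  simp only [inner_sub_right, real_inner_smul_right, real_inner_self_eq_norm_sq] at h4
  linarith

end Vale.Agent.P245
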