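import Vale.Agent.P245.DissA
import Vale.Agent.P245.SLC2

open MeasureTheory Real Set
open scoped RealInnerProductSpace ENNReal

namespace Vale.Agent.P245

variable {n : ℕ}

/-! The dissipation identity. Notation: `p = pp g`, `q = pp 0`, `r = p/q = exp uu`, `a = av g`,
`b = av 0`, `v = a - b = s • NN`, `Da = s⁻¹ • cv g`, `Db = s⁻¹ • cv 0`, `Dv = s • DN`,
`∇r = r • NN` (`hasFDerivAt_uu`, `exp_uu`). Apply `weak_heat` to the pairs (test function, weight)
`(‖v‖² - 2⟪v,a⟫, e^g)`, `(2 v i, e^g x_i)`, `(2 r v i, x_i)`, `(2 r ⟪v,b⟫, 1)`; all test functions and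
their derivatives are bounded and continuous (`norm_av_le`, `norm_cv_le`, `abs_uu_le`, `norm_NN_le`).
With `PD_exp`, `PD_exp_coord` (for `g` and for `0`) the sum of the right hand integrands is pointwise
`-p * HS Dv + 2 p ⟪v, Db NN⟫` (uses `cv_symm`, `∇p - r ∇q = p • NN`, `q ∇r = p • NN`):
`int_KS_eq`. Then `post_cov` gives `⟪NN, cv 0 NN⟫ ≤ s ‖NN‖²`. -/

variable {μ : Measure (E n)} {R : ℝ} {g : E n → ℝ} {s : ℝ}

/-- bounded function with bounded continuous derivative given by `D` -/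
def dissc_B (F : E n → ℝ) (D : E n → E n → ℝ) : Prop :=
  ∃ F' : E n → E n →L[ℝ] ℝ, (∀ y, HasFDerivAt F (F' y) y) ∧ Continuous F' ∧
    (∃ C : ℝ, ∀ y, ‖F y‖ ≤ C ∧ ‖F' y‖ ≤ C) ∧ ∀ y h, F' y h = D y h

theorem dissc_congr {F G : E n → ℝ} {D D' : E n → E n → ℝ} (h : dissc_B F D)
    (h1 : ∀ y, G y = F y) (h2 : ∀ y e, D' y e = D y e) : dissc_B G D' := by
  obtain rfl : G = F := funext h1
  obtain rfl : D' = D := funext fun y => funext (h2 y)
  exact h

theorem dissc_add {F G : E n → ℝ} {D D' : E n → E n → ℝ} (h : dissc_B F D) (h' : dissc_B G D') :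
    dissc_B (fun y => F y + G y) (fun y e => D y e + D' y e) := by
  obtain ⟨F', d1, c1, ⟨C1, b1⟩, e1⟩ := h
  obtain ⟨G', d2, c2, ⟨C2, b2⟩, e2⟩ := h'
  refine ⟨fun y => F' y + G' y, fun y => (d1 y).add (d2 y), c1.add c2, ⟨C1 + C2, fun y => ?_⟩,
    fun y e => ?_⟩
  · exact ⟨(norm_add_le _ _).trans (add_le_add (b1 y).1 (b2 y).1),
      (norm_add_le _ _).trans (add_le_add (b1 y).2 (b2 y).2)⟩
  · simp [e1, e2]

theorem dissc_const (c : ℝ) : dissc_B (fun _ : E n => c) (fun _ _ => 0) :=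
  ⟨fun _ => 0, fun y => hasFDerivAt_const c y, continuous_const,
    ⟨‖c‖, fun _ => ⟨le_rfl, by simp⟩⟩, fun _ _ => rfl⟩

theorem dissc_mul {F G : E n → ℝ} {D D' : E n → E n → ℝ} (h : dissc_B F D) (h' : dissc_B G D') :
    dissc_B (fun y => F y * G y) (fun y e => F y * D' y e + G y * D y e) := by
  obtain ⟨F', d1, c1, ⟨C1, b1⟩, e1⟩ := h
  obtain ⟨G', d2, c2, ⟨C2, b2⟩, e2⟩ := h'
  have cF : Continuous F := continuous_iff_continuousAt.2 fun y => (d1 y).continuousAt
  have cG : Continuous G := continuous_iff_continuousAt.2 fun y => (d2 y).continuousAt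
  refine ⟨fun y => F y • G' y + G y • F' y, fun y => (d1 y).mul (d2 y),
    (cF.smul c2).add (cG.smul c1), ⟨2 * (C1 * C2), fun y => ?_⟩, fun y e => ?_⟩
  · have p1 : 0 ≤ C1 := (norm_nonneg _).trans (b1 y).1
    have p2 : 0 ≤ C2 := (norm_nonneg _).trans (b2 y).1
    have q0 : 0 ≤ C1 * C2 := mul_nonneg p1 p2
    have q1 : ‖F y‖ * ‖G y‖ ≤ C1 * C2 := mul_le_mul (b1 y).1 (b2 y).1 (norm_nonneg _) p1
    have q2 : ‖F y‖ * ‖G' y‖ ≤ C1 * C2 := mul_le_mul (b1 y).1 (b2 y).2 (norm_nonneg _) p1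
    have q3 : ‖G y‖ * ‖F' y‖ ≤ C2 * C1 := mul_le_mul (b2 y).1 (b1 y).2 (norm_nonneg _) p2
    constructor
    · rw [norm_mul]
      linarith
    · refine (norm_add_le _ _).trans ?_
      rw [norm_smul, norm_smul]
      linarith
  · simp [e1, e2]

theorem dissc_cmul (c : ℝ) {F : E n → ℝ} {D : E n → E n → ℝ} (h : dissc_B F D) :
    dissc_B (fun y => c * F y) (fun y e => c * D y e) :=
  dissc_congr (dissc_mul (dissc_const c) h) (fun _ => rfl) (fun _ _ => by ring)

theorem dissc_sub {F G : E n → ℝ} {D D' : E n → E n → ℝ} (h : dissc_B F D) (h' : dissc_B G D') :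
    dissc_B (fun y => F y - G y) (fun y e => D y e - D' y e) :=
  dissc_congr (dissc_add h (dissc_cmul (-1) h')) (fun _ => by ring) (fun _ _ => by ring)

theorem dissc_sum {ι : Type*} (t : Finset ι) {F : ι → E n → ℝ} {D : ι → E n → E n → ℝ}
    (h : ∀ i, dissc_B (F i) (D i)) :
    dissc_B (fun y => ∑ i ∈ t, F i y) (fun y e => ∑ i ∈ t, D i y e) := by
  classical
  induction t using Finset.induction_on with
  | empty => exact dissc_congr (dissc_const 0) (fun _ => by simp) (fun _ _ => by simp)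
  | insert i t hi ih =>
    exact dissc_congr (dissc_add (h i) ih) (fun _ => Finset.sum_insert hi)
      (fun _ _ => Finset.sum_insert hi)

theorem dissc_inner_eq (x y : E n) : ⟪x, y⟫ = ∑ i, x i * y i := by
  simp [PiLp.inner_apply, mul_comm]

theorem dissc_inner {f k : E n → E n} {f' k' : E n → E n → E n}
    (hf : ∀ i, dissc_B (fun y => f y i) (fun y e => f' y e i))
    (hk : ∀ i, dissc_B (fun y => k y i) (fun y e => k' y e i)) :
    dissc_B (fun y => ⟪f y, k y⟫) (fun y e => ⟪f y, k' y e⟫ + ⟪k y, f' y e⟫) :=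
  dissc_congr (dissc_sum Finset.univ fun i => dissc_mul (hf i) (hk i))
    (fun _ => dissc_inner_eq _ _)
    (fun _ _ => by rw [dissc_inner_eq, dissc_inner_eq, Finset.sum_add_distrib])

theorem dissc_av (hμ : Good μ R) (hg : Continuous g) (hs : 0 < s) (i : Fin n) :
    dissc_B (fun y => av μ g s y i) (fun y e => (s⁻¹ • cv μ g s y e) i) := by
  let L : E n →L[ℝ] ℝ := EuclideanSpace.proj i
  have hL : ∀ x, ‖L x‖ ≤ ‖x‖ := fun x => PiLp.norm_apply_le x i
  have hL' : ‖L‖ ≤ 1 := L.opNorm_le_bound zero_le_one fun x => by simpa using hL x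
  refine ⟨fun y => L.comp (s⁻¹ • cv μ g s y),
    fun y => L.hasFDerivAt.comp y (hasFDerivAt_av hμ hg hs y),
    continuous_const.clm_comp ((continuous_cv hμ hg hs).const_smul s⁻¹),
    ⟨R + s⁻¹ * (4 * R ^ 2), fun y => ⟨?_, ?_⟩⟩, fun _ _ => rfl⟩
  · have h1 := (hL _).trans (norm_av_le hμ hg hs y)
    have h2 : 0 ≤ s⁻¹ * (4 * R ^ 2) := by positivity
    exact h1.trans (by linarith)
  · have h1 : ‖s⁻¹ • cv μ g s y‖ ≤ s⁻¹ * (4 * R ^ 2) := by
      rw [norm_smul, Real.norm_eq_abs, abs_of_pos (inv_pos.2 hs)]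
      exact mul_le_mul_of_nonneg_left (norm_cv_le hμ hg hs y) (inv_pos.2 hs).le
    have h2 := mul_le_mul hL' h1 (norm_nonneg _) zero_le_one
    have h3 := hμ.nn
    exact (ContinuousLinearMap.opNorm_comp_le _ _).trans (by linarith)

theorem dissc_contNN (hμ : Good μ R) (hg : Continuous g) (hs : 0 < s) :
    Continuous (NN μ g s) :=
  continuous_iff_continuousAt.2 fun y => (hasFDerivAt_NN hμ hg hs y).continuousAt

theorem dissc_r (hμ : Good μ R) (hg : Continuous g) (hs : 0 < s) :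
    dissc_B (fun y => pp μ g s y / pp μ 0 s y)
      (fun y e => pp μ g s y / pp μ 0 s y * ⟪NN μ g s y, e⟫) := by
  obtain ⟨M, hM0, hM⟩ := exists_bd hg R
  have cu : Continuous (uu μ g s) :=
    continuous_iff_continuousAt.2 fun y => (hasFDerivAt_uu hμ hg hs y).continuousAt
  refine dissc_congr (F := fun y => exp (uu μ g s y))
    (D := fun y e => exp (uu μ g s y) * ⟪NN μ g s y, e⟫) ?_
    (fun y => (exp_uu hμ hg hs y).symm) (fun y e => by rw [exp_uu hμ hg hs y])
  refine ⟨fun y => exp (uu μ g s y) • innerSL ℝ (NN μ g s y),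
    fun y => (hasFDerivAt_uu hμ hg hs y).exp,
    cu.rexp.smul ((innerSL ℝ).continuous.comp (dissc_contNN hμ hg hs)),
    ⟨exp M + exp M * (2 * R / s), fun y => ?_⟩, fun _ _ => by simp⟩
  have h1 : exp (uu μ g s y) ≤ exp M := exp_le_exp.2 (le_of_abs_le (abs_uu_le hμ hg hs hM y))
  have h2 := norm_NN_le hμ hg hs y
  have h3 : 0 ≤ exp M * (2 * R / s) := mul_nonneg (exp_pos _).le ((norm_nonneg _).trans h2)
  constructor
  · rw [Real.norm_eq_abs, abs_of_pos (exp_pos _)]
    linarith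
  · rw [norm_smul, Real.norm_eq_abs, abs_of_pos (exp_pos _), innerSL_apply_norm]
    have h4 := mul_le_mul h1 h2 (norm_nonneg _) (exp_pos _).le
    have h5 := exp_pos M
    linarith

theorem dissc_heat (hμ : Good μ R) (hs : 0 < s) {φ : E n → ℝ} (hφ : Continuous φ) {F : E n → ℝ}
    {D : E n → E n → ℝ} (h : dissc_B F D) :
    Integrable (fun y => F y * PS μ φ s y) ∧ Integrable (fun y => D y (PD μ φ s y)) ∧
      ∫ y, F y * PS μ φ s y = -(1 / 2) * ∫ y, D y (PD μ φ s y) := by
  obtain ⟨F', d1, c1, ⟨C, b1⟩, e1⟩ := h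
  have cF : Continuous F := continuous_iff_continuousAt.2 fun y => (d1 y).continuousAt
  have e2 : (fun y => D y (PD μ φ s y)) = fun y => F' y (PD μ φ s y) :=
    funext fun y => (e1 _ _).symm
  refine ⟨(integrable_PS hμ hs hφ).bdd_mul cF.aestronglyMeasurable
    (ae_of_all _ fun y => (b1 y).1), ?_, ?_⟩
  · rw [e2]
    refine ((integrable_PD hμ hs hφ).norm.const_mul C).mono'
      (c1.clm_apply (continuous_PD hμ hs hφ)).aestronglyMeasurable (ae_of_all _ fun y => ?_)
    exact ((F' y).le_opNorm _).trans (mul_le_mul_of_nonneg_right (b1 y).2 (norm_nonneg _))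
  · rw [e2]
    exact weak_heat hμ hs hφ d1 c1 C (fun y => (b1 y).1) (fun y => (b1 y).2)

theorem dissc_sum_single (L : E n →L[ℝ] E n) (w v : E n) :
    ∑ i, v i * ⟪w, L (EuclideanSpace.single i 1)⟫ = ⟪w, L v⟫ := by
  have h : v = ∑ i, v i • EuclideanSpace.single i (1 : ℝ) := by
    ext j
    simp [Finset.sum_apply, Pi.single_apply]
  conv_rhs => rw [h]
  simp [map_sum, inner_sum, inner_smul_right]

theorem dissc_HS (L : E n →L[ℝ] E n) (hL : ∀ a b, ⟪a, L b⟫ = ⟪L a, b⟫) :
    HS L = ∑ i, L (L (EuclideanSpace.single i 1)) i := by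
  refine Finset.sum_congr rfl fun i _ => ?_
  rw [← real_inner_self_eq_norm_sq, ← hL]
  simp [EuclideanSpace.inner_single_left]

/-- the pointwise identity -/
theorem dissc_alg {p q s : ℝ} (hq : q ≠ 0) (hs : s ≠ 0) (a b y N P Q : E n)
    (A B D : E n →L[ℝ] E n) (hN : N = s⁻¹ • (a - b)) (hD : D = (s ^ 2)⁻¹ • (A - B))
    (hP : P = (p / s) • (a - y)) (hQ : Q = (q / s) • (b - y))
    (hS : ∀ a b, ⟪a, D b⟫ = ⟪D a, b⟫) :
    (2 * ⟪a - b, s • D P⟫ - 2 * (⟪a - b, s⁻¹ • A P⟫ + ⟪a, s • D P⟫)) +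
      (∑ i, 2 * (s • D (a i • P + (p / s) • A (EuclideanSpace.single i 1))) i) -
      (∑ i, 2 * (p / q * (s • D (b i • Q + (q / s) • B (EuclideanSpace.single i 1))) i +
        (a - b) i * (p / q * ⟪N, b i • Q + (q / s) • B (EuclideanSpace.single i 1)⟫))) +
      2 * (p / q * (⟪a - b, s⁻¹ • B Q⟫ + ⟪b, s • D Q⟫) + ⟪a - b, b⟫ * (p / q * ⟪N, Q⟫)) =
    2 * s ^ 2 * (p * HS D) - 4 * (p * ⟪N, B N⟫) := by
  have hv : a - b = s • N := by rw [hN, smul_smul, mul_inv_cancel₀ hs, one_smul]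
  have hA : A = B + s ^ 2 • D := by
    rw [hD, smul_smul, mul_inv_cancel₀ (pow_ne_zero 2 hs), one_smul]
    abel
  have hPQ : P = (p / q) • Q + p • N := by
    rw [hP, hQ, hN, smul_smul, smul_smul, show p / q * (q / s) = p / s by field_simp,
      show p * s⁻¹ = p / s by ring, ← smul_add]
    congr 1
    abel
  have s1 : ∑ i, 2 * (s • D (a i • P + (p / s) • A (EuclideanSpace.single i 1))) i =
      2 * s * ⟪a, D P⟫ + 2 * p * (∑ i, D (B (EuclideanSpace.single i 1)) i) +
        2 * s ^ 2 * (p * HS D) := by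
    rw [dissc_HS D hS, dissc_inner_eq, hA]
    simp only [Finset.mul_sum, ← Finset.sum_add_distrib]
    refine Finset.sum_congr rfl fun i _ => ?_
    simp only [map_add, map_smul, _root_.add_apply, _root_.smul_apply,
      PiLp.smul_apply, PiLp.add_apply, smul_eq_mul]
    field_simp
    ring
  have s2 : ∑ i, 2 * (p / q * (s • D (b i • Q + (q / s) • B (EuclideanSpace.single i 1))) i +
        (a - b) i * (p / q * ⟪N, b i • Q + (q / s) • B (EuclideanSpace.single i 1)⟫)) =
      2 * (p / q) * s * ⟪b, D Q⟫ + 2 * p * (∑ i, D (B (EuclideanSpace.single i 1)) i) +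
        2 * (p / q) * ⟪N, Q⟫ * ⟪a - b, b⟫ + 2 * (p / s) * ⟪N, B (a - b)⟫ := by
    rw [← dissc_sum_single B N (a - b), dissc_inner_eq b, dissc_inner_eq (a - b)]
    simp only [Finset.mul_sum, ← Finset.sum_add_distrib]
    refine Finset.sum_congr rfl fun i _ => ?_
    simp only [map_add, map_smul, PiLp.smul_apply, PiLp.add_apply, smul_eq_mul, inner_add_right,
      inner_smul_right]
    field_simp
    ring
  have s3 : ⟪N, A P⟫ = p / q * ⟪N, B Q⟫ + p * ⟪N, B N⟫ + s ^ 2 * ⟪N, D P⟫ := by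
    rw [hA, _root_.add_apply, _root_.smul_apply, inner_add_right,
      inner_smul_right]
    congr 1
    rw [hPQ]
    simp only [map_add, map_smul, inner_add_right, inner_smul_right]
  rw [s1, s2, hv]
  simp only [map_smul, inner_smul_left, inner_smul_right, conj_trivial, s3]
  field_simp
  ring

theorem dissc_int_mul (hμ : Good μ R) (hg : Continuous g) (hs : 0 < s) {F : E n → ℝ}
    (hF : Continuous F) {C : ℝ} (hb : ∀ y, ‖F y‖ ≤ C) :
    Integrable (fun y => pp μ g s y * F y) :=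
  (integrable_pp hμ hg hs).mul_bdd hF.aestronglyMeasurable (ae_of_all _ hb)

theorem dissc_int_X (hμ : Good μ R) (hg : Continuous g) (hs : 0 < s) :
    Integrable (fun y => pp μ g s y * ⟪NN μ g s y, cv μ 0 s y (NN μ g s y)⟫) := by
  have c := dissc_contNN hμ hg hs
  refine dissc_int_mul hμ hg hs (c.inner ((continuous_cv hμ continuous_zero hs).clm_apply c))
    (C := 2 * R / s * (4 * R ^ 2 * (2 * R / s))) fun y => ?_
  have h1 := norm_NN_le hμ hg hs y
  have h2 := norm_cv_le (g := 0) hμ continuous_zero hs y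
  refine (norm_inner_le_norm _ _).trans (mul_le_mul h1 ?_ (norm_nonneg _)
    ((norm_nonneg _).trans h1))
  exact (ContinuousLinearMap.le_opNorm _ _).trans
    (mul_le_mul h2 h1 (norm_nonneg _) (by positivity))

theorem dissc_int_Y (hμ : Good μ R) (hg : Continuous g) (hs : 0 < s) :
    Integrable (fun y => pp μ g s y * HS (DN μ g s y)) := by
  have c := continuous_DN hμ hg hs
  refine dissc_int_mul hμ hg hs (continuous_finsetSum _ fun j _ =>
    (c.clm_apply continuous_const).norm.pow 2)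
    (C := ∑ _j : Fin n, (8 * R ^ 2 / s ^ 2) ^ 2) fun y => ?_
  refine (norm_sum_le _ _).trans (Finset.sum_le_sum fun j _ => ?_)
  rw [Real.norm_eq_abs, abs_of_nonneg (by positivity)]
  refine pow_le_pow_left₀ (norm_nonneg _) ?_ 2
  have h := (DN μ g s y).le_opNorm (EuclideanSpace.single j 1)
  have h1 : ‖(EuclideanSpace.single j 1 : E n)‖ = 1 := by simp
  rw [h1, mul_one] at h
  exact h.trans (norm_DN_le hμ hg hs y)

theorem int_KS_eq (hμ : Good μ R) (hg : Continuous g) (hs : 0 < s) :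
    ∫ y, KS μ g s y = -(s ^ 2 * TT μ g s) +
      2 * ∫ y, pp μ g s y * ⟪NN μ g s y, cv μ 0 s y (NN μ g s y)⟫ := by
  have h0 : Continuous (0 : E n → ℝ) := continuous_zero
  have ha := dissc_av hμ hg hs
  have hb := dissc_av hμ h0 hs
  have hr := dissc_r hμ hg hs
  have hv : ∀ i, dissc_B (fun y => (av μ g s y - av μ 0 s y) i)
      (fun y e => (s • DN μ g s y e) i) := fun i =>
    dissc_congr (dissc_sub (ha i) (hb i)) (fun _ => rfl) fun y e => by
      simp only [DN, _root_.smul_apply, _root_.sub_apply,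
        PiLp.smul_apply, PiLp.sub_apply, smul_eq_mul]
      field_simp
  have B1 : dissc_B (fun y => ‖av μ g s y - av μ 0 s y‖ ^ 2 -
        2 * ⟪av μ g s y - av μ 0 s y, av μ g s y⟫)
      (fun y e => 2 * ⟪av μ g s y - av μ 0 s y, s • DN μ g s y e⟫ -
        2 * (⟪av μ g s y - av μ 0 s y, s⁻¹ • cv μ g s y e⟫ + ⟪av μ g s y, s • DN μ g s y e⟫)) :=
    dissc_congr (dissc_sub (dissc_inner hv hv) (dissc_cmul 2 (dissc_inner hv ha)))
      (fun y => by rw [real_inner_self_eq_norm_sq]) (fun y e => by ring)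
  have B2 := fun i => dissc_cmul 2 (hv i)
  have B3 := fun i => dissc_cmul 2 (dissc_mul hr (hv i))
  have B4 := dissc_cmul 2 (dissc_mul hr (dissc_inner hv hb))
  have ci : ∀ i : Fin n, Continuous fun x : E n => x i := fun i => by fun_prop
  obtain ⟨i1, j1, e1⟩ := dissc_heat hμ hs (φ := fun x => exp (g x)) hg.rexp B1
  have H2 := fun i => dissc_heat hμ hs (φ := fun x => exp (g x) * x i) (hg.rexp.mul (ci i)) (B2 i)
  have H3 := fun i => dissc_heat hμ hs (φ := fun x => x i) (ci i) (B3 i)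
  obtain ⟨i4, j4, e4⟩ := dissc_heat hμ hs (φ := fun _ => 1) continuous_const B4
  have i2 := integrable_finsetSum Finset.univ fun i _ => (H2 i).1
  have j2 := integrable_finsetSum Finset.univ fun i _ => (H2 i).2.1
  have i3 := integrable_finsetSum Finset.univ fun i _ => (H3 i).1
  have j3 := integrable_finsetSum Finset.univ fun i _ => (H3 i).2.1
  have e2 := (integral_finsetSum Finset.univ fun i _ => (H2 i).1).trans
    ((Finset.sum_congr rfl fun i _ => (H2 i).2.2).trans ((Finset.mul_sum _ _ _).symm.trans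
      (congrArg _ (integral_finsetSum Finset.univ fun i _ => (H2 i).2.1).symm)))
  have e3 := (integral_finsetSum Finset.univ fun i _ => (H3 i).1).trans
    ((Finset.sum_congr rfl fun i _ => (H3 i).2.2).trans ((Finset.mul_sum _ _ _).symm.trans
      (congrArg _ (integral_finsetSum Finset.univ fun i _ => (H3 i).2.1).symm)))
  have l1 := (integral_add ((i1.fun_add i2).sub' i3) i4).trans
    (congrArg (· + _) ((integral_sub (i1.fun_add i2) i3).trans
      (congrArg (· - _) (integral_add i1 i2))))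
  have l2 := (integral_add ((j1.fun_add j2).sub' j3) j4).trans
    (congrArg (· + _) ((integral_sub (j1.fun_add j2) j3).trans
      (congrArg (· - _) (integral_add j1 j2))))
  have z1 : (fun _ : E n => (1 : ℝ)) = fun x => exp ((0 : E n → ℝ) x) := by
    funext x
    simp
  have z2 : ∀ i : Fin n, (fun x : E n => x i) = fun x => exp ((0 : E n → ℝ) x) * x i := by
    intro i
    funext x
    simp
  have hS : ∀ y a b, ⟪a, DN μ g s y b⟫ = ⟪DN μ g s y a, b⟫ := fun y a b => by
    simp only [DN, _root_.smul_apply, _root_.sub_apply,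
      inner_smul_left, inner_smul_right, inner_sub_left, inner_sub_right, conj_trivial,
      cv_symm hμ hg hs y a b, cv_symm hμ h0 hs y a b]
  have l3 := l2.symm.trans (integral_congr_ae (g := fun y => 2 * s ^ 2 *
      (pp μ g s y * HS (DN μ g s y)) -
      4 * (pp μ g s y * ⟪NN μ g s y, cv μ 0 s y (NN μ g s y)⟫)) (ae_of_all _ fun y => by
    have k2 : ∀ i : Fin n, PD μ (fun x => x i) s y = av μ 0 s y i • PD μ (fun _ => 1) s y +
        (pp μ 0 s y / s) • cv μ 0 s y (EuclideanSpace.single i 1) := fun i => by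
      rw [z1, z2 i]
      exact PD_exp_coord hμ h0 hs y i
    have k1 : PD μ (fun _ => 1) s y = (pp μ 0 s y / s) • (av μ 0 s y - y) := by
      rw [z1]
      exact PD_exp hμ h0 hs y
    simp only [PD_exp_coord hμ hg hs y, k2]
    exact dissc_alg (pp_pos hμ h0 hs y).ne' hs.ne' _ _ y _ _ _ _ _ _ rfl rfl
      (PD_exp hμ hg hs y) k1 (hS y)))
  rw [integral_sub ((dissc_int_Y hμ hg hs).const_mul _) ((dissc_int_X hμ hg hs).const_mul _),
    integral_const_mul (2 * s ^ 2), integral_const_mul 4] at l3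
  have l4 : ∫ y, KS μ g s y = _ := l1
  rw [l4, e1, e2, e3, e4]
  unfold TT
  linear_combination (-(1 / 2)) * l3

theorem int_KS_le (hμ : Good μ R) (hL : LC μ R) (hg : Continuous g) (hs : 0 < s) :
    ∫ y, KS μ g s y ≤ -(s ^ 2 * TT μ g s) + 2 * s * JJ μ g s := by
  have i2 : Integrable (fun y => pp μ g s y * ‖NN μ g s y‖ ^ 2) :=
    dissc_int_mul hμ hg hs ((dissc_contNN hμ hg hs).norm.pow 2) (C := (2 * R / s) ^ 2) fun y => by
      rw [Real.norm_eq_abs, abs_of_nonneg (by positivity)]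
      exact pow_le_pow_left₀ (norm_nonneg _) (norm_NN_le hμ hg hs y) 2
  have h : ∫ y, pp μ g s y * ⟪NN μ g s y, cv μ 0 s y (NN μ g s y)⟫ ≤
      ∫ y, s * (pp μ g s y * ‖NN μ g s y‖ ^ 2) :=
    integral_mono (dissc_int_X hμ hg hs) (i2.const_mul s) fun y => by
      have h1 := mul_le_mul_of_nonneg_left (post_cov hμ hL hs y (NN μ g s y))
        (pp_pos hμ hg hs y).le
      exact h1.trans_eq (by ring)
  rw [integral_const_mul] at h
  rw [int_KS_eq hμ hg hs]
  unfold JJ
  linarith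

end Vale.Agent.P245
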