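import Vale.Agent.P245.DissB
import Vale.Agent.P245.DissC

open MeasureTheory Real Set
open scoped RealInnerProductSpace ENNReal

namespace Vale.Agent.P245

variable {n : ℕ}

/-! `JJ s = K s / s²` for `s > 0`, so `JJ' = (∫ KS)/s² - 2 JJ/s ≤ -TT`. Apply
`intervalIntegral.integral_le_sub_of_hasDeriv_right_of_le` to `s ↦ -((S - s) * JJ s)`;
integrability of `JJ + (S - s) TT` on `[s0, S]` from `sm_JJ`, `sm_TT`, `JJ_bd`, `TT_bd`. -/

variable {μ : Measure (E n)} {R : ℝ} {g : E n → ℝ} {s0 S : ℝ}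

theorem dissd_der (hμ : Good μ R) (hg : Continuous g) {s : ℝ} (hs : 0 < s) :
    HasDerivAt (JJ μ g) ((∫ y, KS μ g s y) / s ^ 2 - 2 * JJ μ g s / s) s := by
  have e : ∀ t, JJ μ g t = (∫ y, pp μ g t y * ‖av μ g t y - av μ 0 t y‖ ^ 2) / t ^ 2 := fun t => by
    rw [JJ, ← integral_div]
    simp only [NN, norm_smul, mul_pow, norm_inv, norm_eq_abs, inv_pow, sq_abs, div_eq_mul_inv,
      mul_assoc, mul_comm (t ^ 2)⁻¹]
  rw [funext e]
  refine ((hasDerivAt_KK hμ hg hs).div (hasDerivAt_pow 2 s) (pow_pos hs 2).ne').congr_deriv ?_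
  simp only [Nat.cast_ofNat, Nat.add_one_sub_one, pow_one]
  field_simp

theorem diss (hμ : Good μ R) (hL : LC μ R) (hg : Continuous g) (hs : 0 < s0) (hS : s0 < S) :
    ∫ s in s0..S, (JJ μ g s + (S - s) * TT μ g s) ≤ (S - s0) * JJ μ g s0 := by
  have h0 : ∀ s ∈ Icc s0 S, 0 < s := fun s h => hs.trans_le h.1
  have hd := fun s h => (((hasDerivAt_id' s).const_sub S).mul (dissd_der hμ hg (h0 s h))).neg
  have hT : IntegrableOn (TT μ g) (Icc s0 S) := Integrable.mono'
    (ContinuousOn.integrableOn_Icc (f := fun s => n * (8 * R ^ 2 / s ^ 2) ^ 2 * ∫ x, exp (g x) ∂μ)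
      ((continuousOn_const.mul ((continuousOn_const.div (by fun_prop) fun s h =>
        (pow_pos (h0 s h) 2).ne').pow 2)).mul continuousOn_const))
    (sm_TT hμ hg).aestronglyMeasurable (ae_restrict_of_forall_mem measurableSet_Icc fun s h => by
      rw [norm_of_nonneg (TT_bd hμ hg (h0 s h)).1]
      exact (TT_bd hμ hg (h0 s h)).2)
  refine (intervalIntegral.integral_le_sub_of_hasDeriv_right_of_le hS.le
    (fun s h => (hd s h).continuousAt.continuousWithinAt)
    (fun s h => (hd s (Ioo_subset_Icc_self h)).hasDerivWithinAt)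
    ((ContinuousOn.integrableOn_Icc fun s h =>
      (dissd_der hμ hg (h0 s h)).continuousAt.continuousWithinAt).add
      (hT.continuousOn_mul (by fun_prop) isCompact_Icc)) fun s h => ?_).trans_eq (by simp)
  have h1 := h0 s (Ioo_subset_Icc_self h)
  have h2 : (∫ y, KS μ g s y) / s ^ 2 - 2 * JJ μ g s / s ≤ -TT μ g s := by
    rw [sub_le_iff_le_add, div_le_iff₀ (pow_pos h1 2)]
    exact (int_KS_le hμ hL hg h1).trans_eq (by field_simp)
  have h3 := mul_le_mul_of_nonneg_left h2 (sub_pos.2 h.2).le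
  simp only [Pi.add_apply]
  linarith

end Vale.Agent.P245
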