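import Vale.Agent.P245.Defs

open MeasureTheory Real Set
open scoped RealInnerProductSpace ENNReal

namespace Vale.Agent.P245

variable {n : ℕ}

/-! A log-concave function has a Borel version: `ρ' = indicator (interior K) ρ`, `K = {ρ > 0}`.
`ConcaveOn.continuousOn_interior`, `Convex.interior`, `Convex.addHaar_frontier`,
`ContinuousOn.measurable_piecewise` or `measurable_of_continuousOn` style lemmas
(`ρ = exp (log ρ)` on `K`). -/

theorem exists_meas_version {ρ : E n → ℝ} (hρ : ∀ x, 0 ≤ ρ x)
    (hc : ConcaveOn ℝ {x | 0 < ρ x} (fun x => log (ρ x))) :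
    ∃ ρ' : E n → ℝ, Measurable ρ' ∧ (∀ x, 0 ≤ ρ' x) ∧
      ConcaveOn ℝ {x | 0 < ρ' x} (fun x => log (ρ' x)) ∧ ρ' =ᵐ[volume] ρ := by
  classical
  set K := {x | 0 < ρ x} with hK
  have hpos : {x | 0 < (interior K).indicator ρ x} = interior K := by
    ext x
    by_cases hx : x ∈ interior K
    · simp only [mem_setOf_eq, indicator_of_mem hx, hx, iff_true]
      exact interior_subset (s := K) hx
    · simp [hx]
  have hcont : ContinuousOn ρ (interior K) := by
    refine (Real.continuous_exp.comp_continuousOn hc.continuousOn_interior).congr fun x hx => ?_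
    exact (exp_log (interior_subset (s := K) hx)).symm
  refine ⟨(interior K).indicator ρ, ?_, fun x => indicator_nonneg (fun x _ => hρ x) x, ?_, ?_⟩
  · rw [← piecewise_eq_indicator]
    exact hcont.measurable_piecewise continuousOn_const isOpen_interior.measurableSet
  · rw [hpos]
    refine (hc.subset interior_subset hc.1.interior).congr fun x hx => ?_
    simp only [indicator_of_mem hx]
  · have h0 : volume (frontier K) = 0 := hc.1.addHaar_frontier volume
    filter_upwards [measure_eq_zero_iff_ae_notMem.1 h0] with x hx
    by_cases h1 : x ∈ interior K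
    · exact indicator_of_mem h1 _
    · rw [indicator_of_notMem h1]
      refine le_antisymm (hρ x) (not_lt.1 fun h2 => hx ⟨subset_closure h2, h1⟩)

end Vale.Agent.P245
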