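import Vale.Agent.P245.Post

open MeasureTheory Real Set
open scoped RealInnerProductSpace ENNReal

namespace Vale.Agent.P245

variable {n : ℕ}

/-! From the `ψ₂` bound to the moment generating function bound. Write `ζ = l • θ`, `‖θ‖ = 1`,
`X = ⟪x, θ⟫`, `Y = X - E X`. Jensen: `exp ((E X)²/a²) ≤ exp (E X²/a²) ≤ 4` (`dv` with `g = 0`).
`Y²/(4a²) ≤ X²/(2a²) + (E X)²/(2a²)` and `exp (u/2) ≤ (exp u)/4 + 1`, so `E exp (Y²/(4a²)) ≤ 4`.
With `τ = 4 a² l²`: if `τ ≤ 1`, `exp u ≤ u + exp (u²)` and `exp (τ v) ≤ 1 + τ (exp v - 1)` give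
`E exp (l Y) ≤ 1 + 3τ ≤ exp (4τ)`; if `τ ≥ 1`, `l Y ≤ τ/4 + Y²/(4a²)` gives `≤ 4 exp (τ/4) ≤ exp (4τ)`. -/

theorem mgf_exp (u : ℝ) : exp u ≤ u + exp (u ^ 2) := by
  have h0 := add_one_le_exp (u ^ 2)
  rcases le_total 1 u with h | h
  · have : exp u ≤ exp (u ^ 2) := exp_le_exp.2 (by nlinarith)
    linarith
  · rcases le_total u (-1) with h' | h'
    · have : exp u ≤ 1 := exp_le_one_iff.2 (by linarith)
      nlinarith
    · have := (abs_le.1 (abs_exp_sub_one_sub_id_le (abs_le.2 ⟨h', h⟩))).2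
      linarith

theorem mgf_conv {τ : ℝ} (h0 : 0 ≤ τ) (h1 : τ ≤ 1) (v : ℝ) :
    exp (τ * v) ≤ (1 - τ) + τ * exp v := by
  have := convexOn_exp.2 (mem_univ 0) (mem_univ v) (sub_nonneg.2 h1) h0 (by ring)
  simpa using this

theorem mgf_half (u : ℝ) : exp (u / 2) ≤ exp u / 4 + 1 := by
  have h : exp u = exp (u / 2) ^ 2 := by rw [← exp_nat_mul]; congr 1; push_cast; ring
  nlinarith [sq_nonneg (exp (u / 2) - 2)]

theorem mgf_lin {μ : Measure (E n)} {R : ℝ} (hμ : Good μ R) {f g : E n → ℝ} (hf : Continuous f)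
    (hg : Continuous g) (a b c : ℝ) :
    ∫ x, (a + b * f x + c * g x) ∂μ = a + b * ∫ x, f x ∂μ + c * ∫ x, g x ∂μ := by
  have := hμ.prob
  rw [integral_add (hμ.integrable (by fun_prop)) (hμ.integrable (by fun_prop)),
    integral_add (hμ.integrable (by fun_prop)) (hμ.integrable (by fun_prop)), integral_const_mul,
    integral_const_mul]
  simp

theorem mgf_four {μ : Measure (E n)} {R a : ℝ} (hμ : Good μ R) (ha : 0 < a) {X : E n → ℝ}
    (hX : Continuous X) (h : ∫ x, exp (X x ^ 2 / a ^ 2) ∂μ ≤ 4) :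
    ∫ x, exp ((X x - ∫ y, X y ∂μ) ^ 2 / (4 * a ^ 2)) ∂μ ≤ 4 := by
  set m := ∫ y, X y ∂μ with hm
  have hc : Continuous fun x => exp (X x ^ 2 / a ^ 2) := by fun_prop
  have h1 : exp (m ^ 2 / a ^ 2) ≤ 4 := by
    have h2 := integral_mono (μ := μ) (f := fun x => exp (m ^ 2 / a ^ 2) * (1 - 2 * m ^ 2 / a ^ 2) +
      exp (m ^ 2 / a ^ 2) * (2 * m / a ^ 2) * X x + 0 * X x) (hμ.integrable (by fun_prop))
      (hμ.integrable hc) fun x => ?_
    · rw [mgf_lin hμ hX hX, ← hm] at h2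
      refine le_trans (le_of_eq ?_) (h2.trans h)
      ring
    · have h3 : m ^ 2 / a ^ 2 + 2 * m * (X x - m) / a ^ 2 ≤ X x ^ 2 / a ^ 2 := by
        rw [← add_div]
        exact div_le_div_of_nonneg_right (by nlinarith [sq_nonneg (X x - m)]) (by positivity)
      refine le_trans ?_ (exp_le_exp.2 h3)
      rw [exp_add]
      refine le_trans (le_of_eq ?_) (mul_le_mul_of_nonneg_left (add_one_le_exp _) (exp_pos _).le)
      ring
  have h4 : exp (m ^ 2 / a ^ 2 / 2) ≤ 2 := (mgf_half _).trans (by linarith)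
  have h5 := integral_mono (μ := μ) (f := fun x => exp ((X x - m) ^ 2 / (4 * a ^ 2)))
    (g := fun x => 2 + 1 / 2 * exp (X x ^ 2 / a ^ 2) + 0 * X x) (hμ.integrable (by fun_prop))
    (hμ.integrable (by fun_prop)) fun x => ?_
  · rw [mgf_lin hμ hc hX] at h5
    linarith
  · have h3 : (X x - m) ^ 2 / (4 * a ^ 2) ≤ m ^ 2 / a ^ 2 / 2 + X x ^ 2 / a ^ 2 / 2 := by
      have e : m ^ 2 / a ^ 2 / 2 + X x ^ 2 / a ^ 2 / 2 = (2 * m ^ 2 + 2 * X x ^ 2) / (4 * a ^ 2) := by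
        field_simp; ring
      rw [e]
      exact div_le_div_of_nonneg_right (by nlinarith [sq_nonneg (X x + m)]) (by positivity)
    refine (exp_le_exp.2 h3).trans ?_
    rw [exp_add]
    refine (mul_le_mul h4 (mgf_half _) (exp_pos _).le zero_le_two).trans (le_of_eq ?_)
    ring

theorem mgf_core {μ : Measure (E n)} {R a : ℝ} (hμ : Good μ R) (ha : 0 < a) {X : E n → ℝ}
    (hX : Continuous X) (h : ∫ x, exp (X x ^ 2 / a ^ 2) ∂μ ≤ 4) (l : ℝ) :
    ∫ x, exp (l * (X x - ∫ y, X y ∂μ)) ∂μ ≤ exp ((4 * a) ^ 2 * l ^ 2) := by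
  have h4 := mgf_four hμ ha hX h
  set m := ∫ y, X y ∂μ with hm
  have hc : Continuous fun x => exp ((X x - m) ^ 2 / (4 * a ^ 2)) := by fun_prop
  have hτ : 0 ≤ 4 * a ^ 2 * l ^ 2 := by positivity
  have e : (4 * a) ^ 2 * l ^ 2 = 4 * (4 * a ^ 2 * l ^ 2) := by ring
  rw [e]
  set τ := 4 * a ^ 2 * l ^ 2 with hτd
  rcases le_total τ 1 with h1 | h1
  · have h5 := integral_mono (μ := μ) (f := fun x => exp (l * (X x - m)))
      (g := fun x => (1 - τ - l * m) + l * X x + τ * exp ((X x - m) ^ 2 / (4 * a ^ 2)))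
      (hμ.integrable (by fun_prop)) (hμ.integrable (by fun_prop)) fun x => ?_
    · rw [mgf_lin hμ hX hc, ← hm] at h5
      nlinarith [add_one_le_exp (4 * τ), mul_le_mul_of_nonneg_left h4 hτ]
    · have h2 : (l * (X x - m)) ^ 2 = τ * ((X x - m) ^ 2 / (4 * a ^ 2)) := by
        rw [hτd]; field_simp
      have h3 := mgf_exp (l * (X x - m))
      rw [h2] at h3
      have := mgf_conv hτ h1 ((X x - m) ^ 2 / (4 * a ^ 2))
      simp only
      linarith
  · have h5 := integral_mono (μ := μ) (f := fun x => exp (l * (X x - m)))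
      (g := fun x => exp (τ / 4) * exp ((X x - m) ^ 2 / (4 * a ^ 2)))
      (hμ.integrable (by fun_prop)) (hμ.integrable (by fun_prop)) fun x => ?_
    · rw [integral_const_mul] at h5
      have h6 : exp (4 * τ) = exp (τ / 4) * exp (15 / 4 * τ) := by
        rw [← exp_add]; congr 1; ring
      rw [h6]
      refine h5.trans (mul_le_mul_of_nonneg_left (h4.trans ?_) (exp_pos _).le)
      linarith [add_one_le_exp (15 / 4 * τ)]
    · simp only
      rw [← exp_add]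
      refine exp_le_exp.2 ?_
      have e : τ / 4 + (X x - m) ^ 2 / (4 * a ^ 2) =
          l * (X x - m) + (l * a - (X x - m) / (2 * a)) ^ 2 := by
        rw [hτd]; field_simp; ring
      rw [e]
      exact le_add_of_nonneg_right (sq_nonneg _)

theorem sg_of_psi2 {μ : Measure (E n)} {R a : ℝ} (hμ : Good μ R) (ha : 0 < a)
    (h : ∀ θ : E n, ‖θ‖ = 1 → ∫ x, exp (⟪x, θ⟫ ^ 2 / a ^ 2) ∂μ ≤ 4) :
    SG μ (4 * a) (∫ x, x ∂μ) := by
  have := hμ.prob
  intro ζ
  rcases eq_or_ne ζ 0 with rfl | hζ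
  · simp
  have h0 : ‖ζ‖ ≠ 0 := norm_ne_zero_iff.2 hζ
  have h1 := mgf_core hμ ha (X := fun x => ⟪x, ‖ζ‖⁻¹ • ζ⟫) (by fun_prop)
    (h _ (by rw [norm_smul, norm_inv, norm_norm, inv_mul_cancel₀ h0])) ‖ζ‖
  refine le_trans (le_of_eq ?_) h1
  refine integral_congr_ae (Filter.Eventually.of_forall fun x => ?_)
  simp only [real_inner_comm (‖ζ‖⁻¹ • ζ)]
  rw [integral_inner (hμ.integrable continuous_id'), ← inner_sub_right, real_inner_smul_left,
    mul_inv_cancel_left₀ h0]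

end Vale.Agent.P245
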