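import Vale.Agent.P245.LCc
import Vale.Agent.P245.Mgf
import Vale.Agent.P245.Meas

open MeasureTheory Real Set
open scoped RealInnerProductSpace ENNReal

namespace Vale.Agent.P245

variable {n : ℕ}

/-! Removal of the compact support assumption. Replace `ρ` by its Borel version
(`exists_meas_version`, `withDensity_congr_ae`). For `R` large (`μ (closedBall 0 R) ≥ 1/2`,
`tsupport f ⊆ closedBall 0 R`) let `μR = cond μ (closedBall 0 R)`, `m = μ.real (closedBall 0 R)`.
`good_cond`, `lc_cond`, `sg_of_psi2` (the `ψ₂` integral is at most `2/m ≤ 4`). For every continuous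
`F` vanishing outside the ball `∫ F ∂μ = m ∫ F ∂μR`, so with `B = ∫ f² ∂μ`
`Ent μ f² = m Ent μR f² - B log m ≤ K (4a)² ∫ ‖fderiv f‖² ∂μ - B log m`; let `R → ∞`
(`tendsto_measure_iUnion_atTop`, `m → 1`). `‖gradient f x‖ = ‖fderiv ℝ f x‖`. -/

theorem final_integral_cond (μ : Measure (E n)) (s : Set (E n)) (F : E n → ℝ) :
    ∫ x, F x ∂(ProbabilityTheory.cond μ s) = (μ.real s)⁻¹ * ∫ x in s, F x ∂μ := by
  rw [ProbabilityTheory.cond, integral_smul_measure, ENNReal.toReal_inv, smul_eq_mul, Measure.real]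

theorem final_ent {A B m : ℝ} (hm : 0 < m) :
    A - B * log B = m * (m⁻¹ * A - m⁻¹ * B * log (m⁻¹ * B)) - B * log m := by
  by_cases hB : B = 0
  · subst hB
    field_simp
    simp
  · rw [log_mul (inv_pos.2 hm).ne' hB, log_inv]
    field_simp
    ring

theorem final_tendsto (μ : Measure (E n)) [IsProbabilityMeasure μ] :
    Filter.Tendsto (fun N : ℕ => μ.real (Metric.closedBall 0 N)) Filter.atTop (nhds 1) := by
  have h1 := tendsto_measure_iUnion_atTop (μ := μ)
    (s := fun N : ℕ => Metric.closedBall (0 : E n) N)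
    fun a b hab => Metric.closedBall_subset_closedBall (Nat.cast_le.2 hab)
  rw [Metric.iUnion_closedBall_nat, measure_univ] at h1
  exact (ENNReal.tendsto_toReal ENNReal.one_ne_top).comp h1

theorem final_of_core {K : ℝ}
    (hK : ∀ (μ : Measure (E n)) (R a : ℝ) (c : E n), Good μ R → LC μ R → 0 < a → SG μ a c →
      ∀ f : E n → ℝ, ContDiff ℝ 1 f →
      Ent μ (fun x => f x ^ 2) ≤ K * a ^ 2 * ∫ x, ‖fderiv ℝ f x‖ ^ 2 ∂μ)
    {ρ : E n → ℝ} (hρ : ∀ x, 0 ≤ ρ x) (hc : ConcaveOn ℝ {x | 0 < ρ x} (fun x => log (ρ x)))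
    (μ : Measure (E n)) [IsProbabilityMeasure μ]
    (hμ : μ = volume.withDensity (fun x => ENNReal.ofReal (ρ x))) {a : ℝ} (ha : 0 < a)
    (h : ∀ θ : E n, ‖θ‖ = 1 → ∫⁻ x, ENNReal.ofReal (exp (⟪x, θ⟫ ^ 2 / a ^ 2)) ∂μ ≤ 2)
    {f : E n → ℝ} (hf : ContDiff ℝ 1 f) (hcs : HasCompactSupport f) :
    Ent μ (fun x => f x ^ 2) ≤ 16 * K * a ^ 2 * ∫ x, ‖gradient f x‖ ^ 2 ∂μ := by
  obtain ⟨ρ', hm, h0, hc', hae⟩ := exists_meas_version hρ hc
  have hμ' : μ = volume.withDensity fun x => ENNReal.ofReal (ρ' x) := by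
    rw [hμ]
    exact withDensity_congr_ae (hae.mono fun x hx => by simp only [hx])
  have hg : ∀ x, ‖gradient f x‖ = ‖fderiv ℝ f x‖ := fun x => by
    rw [gradient, LinearIsometryEquiv.norm_map]
  simp only [hg]
  obtain ⟨r, hr⟩ := hcs.isCompact.isBounded.subset_closedBall (0 : E n)
  have ht := final_tendsto μ
  have key : ∀ᶠ N : ℕ in Filter.atTop, Ent μ (fun x => f x ^ 2) ≤
      16 * K * a ^ 2 * ∫ x, ‖fderiv ℝ f x‖ ^ 2 ∂μ -
        (∫ x, f x ^ 2 ∂μ) * log (μ.real (Metric.closedBall 0 N)) := by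
    filter_upwards [ht.eventually_const_le (show (1 / 2 : ℝ) < 1 by norm_num),
      tendsto_natCast_atTop_atTop.eventually_ge_atTop r] with N hN1 hN2
    have hs : tsupport f ⊆ Metric.closedBall 0 N :=
      hr.trans (Metric.closedBall_subset_closedBall hN2)
    have hN0 : (0 : ℝ) ≤ N := Nat.cast_nonneg N
    have hm0 : 0 < μ.real (Metric.closedBall 0 N) := by linarith
    have hne : μ (Metric.closedBall 0 N) ≠ 0 := fun e => by
      rw [Measure.real, e] at hm0
      simp at hm0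
    have hG := good_cond μ hN0 hne
    have hS := sg_of_psi2 hG ha fun θ hθ => by
      rw [final_integral_cond, inv_mul_le_iff₀ hm0]
      have h1 : ∫ x in Metric.closedBall (0 : E n) N, exp (⟪x, θ⟫ ^ 2 / a ^ 2) ∂μ ≤ 2 := by
        have c1 : Continuous fun x : E n => exp (⟪x, θ⟫ ^ 2 / a ^ 2) := by fun_prop
        rw [integral_eq_lintegral_of_nonneg_ae (Filter.Eventually.of_forall fun _ => (exp_pos _).le)
          c1.aestronglyMeasurable]
        refine ENNReal.toReal_le_of_le_ofReal zero_le_two ?_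
        refine (setLIntegral_le_lintegral _ _).trans ((h θ hθ).trans (le_of_eq ?_))
        simp
      linarith
    have h2 := hK _ N (4 * a) _ hG (lc_cond hm h0 hc' μ hμ' hN0 hne) (by positivity) hS f hf
    have z1 : ∀ x, x ∉ Metric.closedBall (0 : E n) N → f x = 0 := fun x hx =>
      image_eq_zero_of_notMem_tsupport fun h' => hx (hs h')
    have z2 : ∀ x, x ∉ Metric.closedBall (0 : E n) N → fderiv ℝ f x = 0 := fun x hx => by
      by_contra h'
      exact hx (hs (support_fderiv_subset ℝ h'))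
    rw [Ent, final_integral_cond, final_integral_cond, final_integral_cond,
      setIntegral_eq_integral_of_forall_compl_eq_zero (fun x hx => by simp [z1 x hx]),
      setIntegral_eq_integral_of_forall_compl_eq_zero (fun x hx => by simp [z1 x hx]),
      setIntegral_eq_integral_of_forall_compl_eq_zero (fun x hx => by simp [z2 x hx])] at h2
    rw [Ent, final_ent hm0]
    have h3 := mul_le_mul_of_nonneg_left h2 hm0.le
    refine sub_le_sub_right (h3.trans (le_of_eq ?_)) _
    field_simp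
    ring
  have h4 := ((ht.log one_ne_zero).const_mul (∫ x, f x ^ 2 ∂μ)).const_sub
    (16 * K * a ^ 2 * ∫ x, ‖fderiv ℝ f x‖ ^ 2 ∂μ)
  rw [log_one, mul_zero, sub_zero] at h4
  exact ge_of_tendsto h4 key

end Vale.Agent.P245
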