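import Vale.Agent.P245.SLC3

open MeasureTheory Real Set
open scoped RealInnerProductSpace ENNReal

namespace Vale.Agent.P245

variable {n : ℕ}

/-! Monotonicity of `Phi` along the Blahut-Arimoto map. Let `g' = BA g`,
`c = log ∫ exp (Tg g / η)`, so `Tg g = η (g' + c)`. Then `Phi g = η c - η ∫ e^g (g - g')`.
By `integral_Av` (twice, with weight `g'`), `∫ e^g' Tg g' - ∫ e^g' Tg g = (S-s0)⁻¹ ∫ p' log (p'/p) ≥ 0`
(`p' log (p'/p) ≥ p' - p`, `integral_tau_PP`), and `∫ e^g' Tg g = η Hh g' + η c`, so `Phi g' ≥ η c`.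
`rel_eq_zero`: the integrand `e^g (g - g') - e^g + e^g'` is nonnegative, continuous, vanishes only
if `g = g'`; `integral_eq_zero_iff_of_nonneg`.
`Phi_cont`: if `|g - g'| ≤ ε ≤ 1` and `|g|, |g'| ≤ M` on the ball then `|uu g - uu g'| ≤ ε`, so
`|Tg g - Tg g'| ≤ ε`, `|Tg| ≤ M`, `|e^g - e^g'| ≤ 2 ε e^M`. -/

variable {μ : Measure (E n)} {R : ℝ} {g g' : E n → ℝ} {η s0 S : ℝ}

theorem Tg_congr (h : g =ᵐ[μ] g') : Tg μ g s0 S = Tg μ g' s0 S := by
  have e : pp μ g = pp μ g' := by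
    funext s y
    exact integral_congr_ae (h.mono fun x hx => by simp only [hx])
  have e2 : uu μ g = uu μ g' := by
    funext s y
    rw [uu, uu, e]
  rw [Tg, Tg, e2]

theorem Phi_congr (h : g =ᵐ[μ] g') : Phi μ η s0 S g = Phi μ η s0 S g' := by
  rw [Phi, Phi, Tg_congr h, Hh, Hh]
  congr 1
  · exact integral_congr_ae (h.mono fun x hx => by simp only [hx])
  · exact congrArg _ (integral_congr_ae (h.mono fun x hx => by simp only [hx]))

theorem continuous_BA (hμ : Good μ R) (hg : Continuous g) (hs : 0 < s0) :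
    Continuous (BA μ η s0 S g) :=
  ((continuous_Tg hμ hg hs).div_const η).sub continuous_const

theorem nm_BA (hμ : Good μ R) (hg : Continuous g) (hs : 0 < s0) : Nm μ (BA μ η s0 S g) := by
  have h := hμ.integral_exp_pos ((continuous_Tg (S := S) hμ hg hs).div_const η)
  simp only [Nm, BA, exp_sub _ (log _), exp_log h]
  rw [integral_div]
  exact div_self h.ne'

theorem fix1_cmp (hμ : Good μ R) (hg : Continuous g) (hg' : Continuous g') (hN : Nm μ g)
    (hN' : Nm μ g') (hs : 0 < s0) (hS : s0 < S) :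
    ∫ x, exp (g' x) * Tg μ g s0 S x ∂μ ≤ ∫ x, exp (g' x) * Tg μ g' s0 S x ∂μ := by
  obtain ⟨M, -, hM⟩ := exists_bd hg R
  obtain ⟨M', -, hM'⟩ := exists_bd hg' R
  have b := bd_uu (S := S) hμ hg hs hM
  have b' := bd_uu (S := S) hμ hg' hs hM'
  refine (integral_Av b hs hμ hg').trans_le (le_of_le_of_eq ?_ (integral_Av b' hs hμ hg').symm)
  refine smul_le_smul_of_nonneg_left ?_ (inv_nonneg.2 (sub_pos.2 hS).le)
  have i := integrable_tau_PP (S := S) hμ hs (φ := fun x => exp (g x)) (by fun_prop)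
  have i' := integrable_tau_PP (S := S) hμ hs (φ := fun x => exp (g' x)) (by fun_prop)
  have h := integral_mono_ae ((b.integrable_pp hs hμ hg').add i')
    ((b'.integrable_pp hs hμ hg').add i) ((tau_ae n s0 S).mono fun z hz => by
      have p := pp_pos hμ hg (hs.trans hz.1) z.2
      have p' := pp_pos hμ hg' (hs.trans hz.1) z.2
      have k := mul_le_mul_of_nonneg_left (log_le_sub_one_of_pos (div_pos p p')) p'.le
      rw [log_div p.ne' p'.ne', mul_sub _ (_ / _), mul_div_cancel₀ _ p'.ne'] at k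
      simp only [Pi.add_apply, ← pp_eq_PP, uu, smul_eq_mul]
      linarith)
  simp only [Pi.add_apply] at h
  rw [integral_add (b.integrable_pp hs hμ hg') i', integral_add (b'.integrable_pp hs hμ hg') i,
    integral_tau_PP hμ hs hS (by fun_prop), integral_tau_PP hμ hs hS (by fun_prop),
    show ∫ x, exp (g x) ∂μ = 1 from hN, show ∫ x, exp (g' x) ∂μ = 1 from hN'] at h
  linarith

theorem fix1_Tg (hμ : Good μ R) (hg : Continuous g) (hg' : Continuous g') (hN : Nm μ g')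
    (hη : 0 < η) (hs : 0 < s0) : ∫ x, exp (g' x) * Tg μ g s0 S x ∂μ =
      η * ∫ x, exp (g' x) * BA μ η s0 S g x ∂μ + η * log (∫ w, exp (Tg μ g s0 S w / η) ∂μ) := by
  have c := continuous_BA (η := η) (S := S) hμ hg hs
  rw [← one_mul (η * log _), ← show ∫ x, exp (g' x) ∂μ = 1 from hN, ← integral_mul_const,
    ← integral_const_mul, ← integral_add (hμ.integrable (by fun_prop)) (hμ.integrable (by fun_prop))]
  congr 1
  funext x
  rw [BA]
  field_simp
  ring

theorem Phi_BA (hμ : Good μ R) (hg : Continuous g) (hN : Nm μ g) (hη : 0 < η) (hs : 0 < s0)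
    (hS : s0 < S) :
    Phi μ η s0 S g + η * ∫ x, exp (g x) * (g x - BA μ η s0 S g x) ∂μ ≤
      Phi μ η s0 S (BA μ η s0 S g) := by
  have c := continuous_BA (η := η) (S := S) hμ hg hs
  have N' := nm_BA (η := η) (S := S) hμ hg hs
  have k1 := fix1_cmp hμ hg c hN N' hs hS
  rw [fix1_Tg hμ hg c N' hη hs] at k1
  simp only [mul_sub]
  rw [integral_sub (hμ.integrable (by fun_prop)) (hμ.integrable (by fun_prop)), Phi, Phi,
    fix1_Tg hμ hg hg hN hη hs, Hh, Hh]
  linarith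

theorem fix1_exp (a b : ℝ) : exp a - exp b ≤ exp a * (a - b) := by
  have h := mul_le_mul_of_nonneg_left (add_one_le_exp (b - a)) (exp_pos a).le
  rw [← exp_add, add_sub_cancel] at h
  linarith

theorem fix1_rel (hμ : Good μ R) (hg : Continuous g) (hg' : Continuous g') (hN : Nm μ g)
    (hN' : Nm μ g') : ∫ x, exp (g x) * (g x - g' x) - (exp (g x) - exp (g' x)) ∂μ =
      ∫ x, exp (g x) * (g x - g' x) ∂μ := by
  rw [integral_sub (hμ.integrable (by fun_prop)) (hμ.integrable (by fun_prop)),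
    integral_sub (hμ.integrable (by fun_prop)) (hμ.integrable (by fun_prop)),
    show ∫ x, exp (g x) ∂μ = 1 from hN, show ∫ x, exp (g' x) ∂μ = 1 from hN', sub_self, sub_zero]

theorem rel_nonneg (hμ : Good μ R) (hg : Continuous g) (hg' : Continuous g') (hN : Nm μ g)
    (hN' : Nm μ g') : 0 ≤ ∫ x, exp (g x) * (g x - g' x) ∂μ := by
  rw [← fix1_rel hμ hg hg' hN hN']
  exact integral_nonneg fun x => sub_nonneg.2 (fix1_exp _ _)

theorem rel_eq_zero (hμ : Good μ R) (hg : Continuous g) (hg' : Continuous g') (hN : Nm μ g)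
    (hN' : Nm μ g') (h : ∫ x, exp (g x) * (g x - g' x) ∂μ ≤ 0) : g =ᵐ[μ] g' := by
  rw [← fix1_rel hμ hg hg' hN hN'] at h
  have h0 : 0 ≤ fun x => exp (g x) * (g x - g' x) - (exp (g x) - exp (g' x)) :=
    fun x => sub_nonneg.2 (fix1_exp _ _)
  filter_upwards [(integral_eq_zero_iff_of_nonneg h0 (hμ.integrable (by fun_prop))).1
    (h.antisymm (integral_nonneg h0))] with x hx
  by_contra e
  have k := mul_lt_mul_of_pos_left (add_one_lt_exp (sub_ne_zero.2 (Ne.symm e))) (exp_pos (g x))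
  rw [← exp_add, add_sub_cancel] at k
  simp only [Pi.zero_apply] at hx
  linarith

theorem fix1_uu (hμ : Good μ R) (hg : Continuous g) (hg' : Continuous g') {s ε : ℝ} (hs : 0 < s)
    (h : ∀ x, ‖x‖ ≤ R → g x - g' x ≤ ε) (y : E n) : uu μ g s y - uu μ g' s y ≤ ε := by
  have c := continuous_gk_right s y
  have k : pp μ g s y ≤ exp ε * pp μ g' s y := by
    rw [pp, pp, ← integral_const_mul]
    refine integral_mono_ae (hμ.integrable (by fun_prop)) (hμ.integrable (by fun_prop))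
      (hμ.supp.mono fun x hx => ?_)
    dsimp only
    rw [← mul_assoc, ← exp_add]
    exact mul_le_mul_of_nonneg_right (exp_le_exp.2 (by linarith [h x hx])) (gk_pos hs y x).le
  have k2 := log_le_log (pp_pos hμ hg hs y) k
  rw [log_mul (exp_pos _).ne' (pp_pos hμ hg' hs y).ne', log_exp] at k2
  simp only [uu]
  linarith

theorem fix1_pt {a b t t' M ε : ℝ} (ha : |a| ≤ M) (hb : |b| ≤ M) (ht : |t'| ≤ M)
    (h1 : |a - b| ≤ ε) (h2 : |t - t'| ≤ ε) : |exp a * t - exp b * t'| ≤ exp M * (1 + |M|) * ε := by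
  have ea : exp a ≤ exp M := exp_le_exp.2 (abs_le.1 ha).2
  have eb : exp b ≤ exp M := exp_le_exp.2 (abs_le.1 hb).2
  have e0 : 0 ≤ ε := (abs_nonneg _).trans h1
  have k1 : |exp a - exp b| ≤ exp M * ε := abs_sub_le_iff.2
    ⟨(fix1_exp a b).trans ((mul_le_mul_of_nonneg_left (abs_sub_le_iff.1 h1).1 (exp_pos a).le).trans
      (mul_le_mul_of_nonneg_right ea e0)),
    (fix1_exp b a).trans ((mul_le_mul_of_nonneg_left (abs_sub_le_iff.1 h1).2 (exp_pos b).le).trans
      (mul_le_mul_of_nonneg_right eb e0))⟩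
  have k2 := abs_add_le (exp a * (t - t')) ((exp a - exp b) * t')
  rw [abs_mul, abs_mul, abs_of_pos (exp_pos a),
    show exp a * (t - t') + (exp a - exp b) * t' = exp a * t - exp b * t' by ring] at k2
  have k3 := mul_le_mul ea h2 (abs_nonneg _) (exp_pos M).le
  have k4 := mul_le_mul k1 (ht.trans (le_abs_self M)) (abs_nonneg _) (by positivity)
  linarith

theorem fix1_int (hμ : Good μ R) {f f' : E n → ℝ} (hf : Continuous f) (hf' : Continuous f') {c : ℝ}
    (h : ∀ x, ‖x‖ ≤ R → |f x - f' x| ≤ c) : |∫ x, f x ∂μ - ∫ x, f' x ∂μ| ≤ c := by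
  have := hμ.prob
  rw [← integral_sub (hμ.integrable hf) (hμ.integrable hf')]
  simpa using norm_integral_le_of_norm_le_const (μ := μ) (f := fun x => f x - f' x)
    (hμ.supp.mono h)

theorem Phi_cont (hμ : Good μ R) (hη : 0 < η) (hs : 0 < s0) (hS : s0 < S) (M : ℝ) :
    ∃ C : ℝ, 0 ≤ C ∧ ∀ ε : ℝ, 0 ≤ ε → ε ≤ 1 → ∀ g g' : E n → ℝ, Continuous g → Continuous g' →
      (∀ x, ‖x‖ ≤ R → ‖g x‖ ≤ M) → (∀ x, ‖x‖ ≤ R → ‖g' x‖ ≤ M) →
      (∀ x, ‖x‖ ≤ R → |g x - g' x| ≤ ε) → |Phi μ η s0 S g - Phi μ η s0 S g'| ≤ C * ε := by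
  refine ⟨(1 + η) * (exp M * (1 + |M|)), by positivity, fun ε _ _ g g' hg hg' hM hM' h => ?_⟩
  have b' := bd_uu (S := S) hμ hg' hs hM'
  have b : Bd s0 S ε fun s y => uu μ g s y - uu μ g' s y :=
    ⟨(sm_uu hμ hg).sub (sm_uu hμ hg'), fun s hs' y => abs_sub_le_iff.2
      ⟨fix1_uu hμ hg hg' (hs.trans hs'.1) (fun x hx => (abs_sub_le_iff.1 (h x hx)).1) y,
        fix1_uu hμ hg' hg (hs.trans hs'.1) (fun x hx => (abs_sub_le_iff.1 (h x hx)).2) y⟩⟩
  have k : ∀ x, |Tg μ g s0 S x - Tg μ g' s0 S x| ≤ ε := fun x => by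
    have e := Av_add b b' hs x
    simp only [sub_add_cancel] at e
    rw [Tg, Tg, e, add_sub_cancel_right]
    exact norm_Av_le b hs hS x
  have c := continuous_Tg (S := S) hμ hg hs
  have c' := continuous_Tg (S := S) hμ hg' hs
  have k1 := fix1_int hμ (f := fun x => exp (g x) * Tg μ g s0 S x)
    (f' := fun x => exp (g' x) * Tg μ g' s0 S x) (by fun_prop) (by fun_prop)
    fun x hx => fix1_pt (hM x hx) (hM' x hx) (norm_Av_le b' hs hS x) (h x hx) (k x)
  have k2 := fix1_int hμ (f := fun x => exp (g x) * g x) (f' := fun x => exp (g' x) * g' x)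
    (by fun_prop) (by fun_prop) fun x hx => fix1_pt (hM x hx) (hM' x hx) (hM' x hx) (h x hx) (h x hx)
  have k3 := mul_le_mul_of_nonneg_left (abs_le.1 k2).1 hη.le
  have k4 := mul_le_mul_of_nonneg_left (abs_le.1 k2).2 hη.le
  simp only [Phi, Hh]
  exact abs_le.2 ⟨by linarith [(abs_le.1 k1).1], by linarith [(abs_le.1 k1).2]⟩

end Vale.Agent.P245
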