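import Vale.Agent.P245.Fub
import Vale.Agent.P245.PostD

open MeasureTheory Real Set
open scoped RealInnerProductSpace ENNReal

namespace Vale.Agent.P245

variable {n : ℕ}

/-! Smoothness of the averaged objects. `hasFDerivAt_Av`: rewrite both sides with `Av_shift`
(as functions of `x`), `hasFDerivAt_integral_of_dominated_of_fderiv_le` with bound `gk z.1 z.2 0 * C'`.
`hasFDerivAt_Tg`: `F' s y = innerSL ℝ (NN s y)` and `Av_clm` for the continuous linear map
`innerSL ℝ` (or `InnerProductSpace.toDual`). `contDiff_one_iff_fderiv`, `continuous_Av`. -/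

variable {μ : Measure (E n)} {R : ℝ} {g : E n → ℝ} {s0 S : ℝ}

theorem sm1_shift {V : Type*} [NormedAddCommGroup V] {F : ℝ → E n → V} {C : ℝ}
    (hF : Bd s0 S C F) (x : E n) : Bd s0 S C (fun s y => F s (x + y)) :=
  ⟨hF.meas.comp_measurable (g := fun z : ℝ × E n => (z.1, x + z.2))
    (measurable_fst.prodMk (measurable_snd.const_add x)), fun s hs y => hF.bd s hs (x + y)⟩

theorem sm1_inner {F : ℝ → E n → E n} {C : ℝ} (hF : Bd s0 S C F) :
    Bd s0 S C (fun s y => innerSL ℝ (F s y)) :=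
  ⟨(innerSL ℝ (E := E n)).continuous.comp_stronglyMeasurable hF.meas,
    fun s hs y => (innerSL_apply_norm ℝ (F s y)).trans_le (hF.bd s hs y)⟩

theorem hasFDerivAt_Av {V : Type*} [NormedAddCommGroup V] [NormedSpace ℝ V] [CompleteSpace V]
    {F : ℝ → E n → V} {F' : ℝ → E n → E n →L[ℝ] V} {C C' : ℝ} (hF : Bd s0 S C F)
    (hF' : Bd s0 S C' F') (hs : 0 < s0)
    (hd : ∀ s ∈ Ioc s0 S, ∀ y, HasFDerivAt (F s) (F' s y) y) (x : E n) :
    HasFDerivAt (Av s0 S F) (Av s0 S F' x) x := by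
  have e : Av s0 S F =
      fun x => (S - s0)⁻¹ • ∫ z, gk z.1 z.2 0 • F z.1 (x + z.2) ∂(tau n s0 S) :=
    funext fun x => Av_shift hF hs x
  rw [e, Av_shift hF' hs x]
  refine HasFDerivAt.const_smul ?_ _
  refine hasFDerivAt_integral_of_dominated_of_fderiv_le (s := univ)
    (F := fun x (z : ℝ × E n) => gk z.1 z.2 0 • F z.1 (x + z.2))
    (F' := fun x (z : ℝ × E n) => gk z.1 z.2 0 • F' z.1 (x + z.2))
    (bound := fun z => gk z.1 z.2 0 * C') Filter.univ_mem
    (.of_forall fun w => ((sm1_shift hF w).integrable hs 0).1) ((sm1_shift hF x).integrable hs 0)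
    ((sm1_shift hF' x).integrable hs 0).1 ?_ ((integrable_tau_gk hs 0).mul_const _) ?_
  · filter_upwards [tau_ae n s0 S] with z hz w _
    have h1 := (gk_pos (hs.trans hz.1) z.2 (0 : E n)).le
    rw [norm_smul, Real.norm_of_nonneg h1]
    exact mul_le_mul_of_nonneg_left (hF'.bd _ hz _) h1
  · filter_upwards [tau_ae n s0 S] with z hz w _
    exact ((hasFDerivAt_comp_add_right z.2).2 (hd z.1 hz (w + z.2))).const_smul _

theorem hasFDerivAt_Tg (hμ : Good μ R) (hg : Continuous g) (hs : 0 < s0) (x : E n) :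
    HasFDerivAt (Tg μ g s0 S) (innerSL ℝ (Mg μ g s0 S x)) x := by
  obtain ⟨M, -, hM⟩ := exists_bd hg R
  have h := hasFDerivAt_Av (S := S) (bd_uu hμ hg hs hM) (sm1_inner (bd_NN hμ hg hs)) hs
    (fun s h y => hasFDerivAt_uu hμ hg (hs.trans h.1) y) x
  have e := Av_clm (S := S) (innerSL ℝ (E := E n)) (bd_NN hμ hg hs) hs x
  exact h.congr_fderiv e.symm

theorem hasFDerivAt_Mg (hμ : Good μ R) (hg : Continuous g) (hs : 0 < s0) (x : E n) :
    HasFDerivAt (Mg μ g s0 S) (Av s0 S (DN μ g) x) x :=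
  hasFDerivAt_Av (bd_NN hμ hg hs) (bd_DN hμ hg hs) hs
    (fun _ h y => hasFDerivAt_NN hμ hg (hs.trans h.1) y) x

theorem contDiff_Tg (hμ : Good μ R) (hg : Continuous g) (hs : 0 < s0) :
    ContDiff ℝ 1 (Tg μ g s0 S) := by
  rw [contDiff_one_iff_fderiv]
  refine ⟨fun x => (hasFDerivAt_Tg hμ hg hs x).differentiableAt, ?_⟩
  have e : fderiv ℝ (Tg μ g s0 S) = fun x => innerSL ℝ (Mg μ g s0 S x) :=
    funext fun x => (hasFDerivAt_Tg hμ hg hs x).fderiv
  rw [e]
  exact (innerSL ℝ (E := E n)).continuous.comp (continuous_Av (bd_NN hμ hg hs) hs)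

theorem contDiff_Mg (hμ : Good μ R) (hg : Continuous g) (hs : 0 < s0) :
    ContDiff ℝ 1 (Mg μ g s0 S) := by
  rw [contDiff_one_iff_fderiv]
  refine ⟨fun x => (hasFDerivAt_Mg hμ hg hs x).differentiableAt, ?_⟩
  have e : fderiv ℝ (Mg μ g s0 S) = Av s0 S (DN μ g) :=
    funext fun x => (hasFDerivAt_Mg hμ hg hs x).fderiv
  rw [e]
  exact continuous_Av (bd_DN hμ hg hs) hs

theorem norm_Mg_le (hμ : Good μ R) (hg : Continuous g) (hs : 0 < s0) (hS : s0 < S) (x : E n) :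
    ‖Mg μ g s0 S x‖ ≤ 2 * R / s0 := norm_Av_le (bd_NN hμ hg hs) hs hS x

theorem Tg_lip (hμ : Good μ R) (hg : Continuous g) (hs : 0 < s0) (hS : s0 < S) (x w : E n) :
    |Tg μ g s0 S x - Tg μ g s0 S w| ≤ 2 * R / s0 * ‖x - w‖ :=
  Convex.norm_image_sub_le_of_norm_hasFDerivWithin_le (s := univ)
    (fun y _ => (hasFDerivAt_Tg hμ hg hs y).hasFDerivWithinAt)
    (fun y _ => (innerSL_apply_norm ℝ _).trans_le (norm_Mg_le hμ hg hs hS y)) convex_univ
    (mem_univ w) (mem_univ x)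

end Vale.Agent.P245
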