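import Vale.Agent.P245.Fix1
import Vale.Agent.P245.Sm1

open MeasureTheory Real Set
open scoped RealInnerProductSpace ENNReal

namespace Vale.Agent.P245

variable {n : ℕ}

/-! Existence of a fixed point of `BA` with large `Phi`. Let `L = 2R/(s0 η)` and
`K = {g : C(E n, ℝ) | LipschitzWith L g ∧ Nm μ g}`. `BA g ∈ K` for every continuous `g`
(`Tg_lip`, `nm_BA`). Members of `K` satisfy `|g x| ≤ L (‖x‖ + R)` (normalisation: `g` is neither
`> 0` nor `< 0` on the whole ball; more simply `|g x - g w| ≤ L(‖x‖+R)` for `‖w‖ ≤ R`, integrate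
`exp`). `K` is compact (`ArzelaAscoli.isCompact_of_equicontinuous`, or work with
`BoundedContinuousFunction.arzela_ascoli` on the closed ball and `LipschitzOnWith.extend_real`, or
take a maximising sequence and a limit along an ultrafilter `hyperfilter ℕ`: pointwise limits exist
by boundedness, the limit is `L`-Lipschitz and the convergence is uniform on the compact ball).
`Phi` is continuous on `K` (`Phi_cont`); a maximiser `g` has `g =ᵐ[μ] BA g` by `Phi_BA`,
`rel_eq_zero`; take `BA g` (`Tg_congr`, `Phi_congr`). -/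

variable {μ : Measure (E n)} {R : ℝ} {η s0 S : ℝ}

theorem fix2_unif {L ε : ℝ} (hL : 0 ≤ L) (hε : 0 < ε) {K : Set (E n → ℝ)}
    (hK : ∀ g ∈ K, ∀ x w, |g x - g w| ≤ L * ‖x - w‖) {g0 : E n → ℝ} (h0 : g0 ∈ K) (R : ℝ) :
    ∀ᶠ g in nhdsWithin g0 K, ∀ x, ‖x‖ ≤ R → |g x - g0 x| ≤ ε := by
  obtain ⟨t, -, ht, hc⟩ := (isCompact_closedBall (0 : E n) R).finite_cover_balls
    (show 0 < ε / (3 * (L + 1)) by positivity)
  have h1 : ∀ᶠ g in nhds g0, ∀ w ∈ t, |g w - g0 w| < ε / 3 :=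
    (ht.eventually_all).2 fun w _ =>
      (isOpen_lt (f := fun g : E n → ℝ => |g w - g0 w|) (by fun_prop) continuous_const).mem_nhds
        (by simpa using hε)
  filter_upwards [nhdsWithin_le_nhds h1, self_mem_nhdsWithin] with g hg hgK x hx
  obtain ⟨w, hw, hxw⟩ := mem_iUnion₂.1 (hc (mem_closedBall_zero_iff.2 hx))
  rw [Metric.mem_ball, dist_eq_norm, lt_div_iff₀ (by positivity)] at hxw
  have a1 := abs_le.1 (hK g hgK x w)
  have a2 := abs_le.1 (hK g0 h0 x w)
  have a3 := abs_lt.1 (hg w hw)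
  have a4 := norm_nonneg (x - w)
  exact abs_le.2 ⟨by nlinarith, by nlinarith⟩

theorem fix2_cont {L C R : ℝ} (hL : 0 ≤ L) (hC : 0 ≤ C) {K : Set (E n → ℝ)}
    (hK : ∀ g ∈ K, ∀ x w, |g x - g w| ≤ L * ‖x - w‖) {F : (E n → ℝ) → ℝ}
    (hF : ∀ ε : ℝ, 0 ≤ ε → ε ≤ 1 → ∀ g ∈ K, ∀ g' ∈ K, (∀ x, ‖x‖ ≤ R → |g x - g' x| ≤ ε) →
      |F g - F g'| ≤ C * ε) : ContinuousOn F K := by
  intro g0 h0
  refine Metric.tendsto_nhds.2 fun δ hδ => ?_
  have hε : 0 < min 1 (δ / (C + 1)) := lt_min one_pos (by positivity)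
  filter_upwards [fix2_unif hL hε hK h0 R, self_mem_nhdsWithin] with g hg hgK
  refine (hF _ hε.le (min_le_left _ _) g hgK g0 h0 hg).trans_lt ?_
  have h1 := (le_div_iff₀ (by positivity)).1 (min_le_right 1 (δ / (C + 1)))
  nlinarith

theorem fix2_exp {a b M : ℝ} (ha : a ≤ M) (hb : b ≤ M) : |exp a - exp b| ≤ exp M * |a - b| := by
  have key : ∀ a b : ℝ, a ≤ M → exp a - exp b ≤ exp M * |a - b| := fun a b ha => by
    have h1 : exp b = exp a * exp (b - a) := by rw [← exp_add]; ring_nf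
    have h2 := add_one_le_exp (b - a)
    have h3 := exp_pos a
    have h4 := exp_le_exp.2 ha
    have h5 := le_abs_self (a - b)
    nlinarith [abs_nonneg (a - b)]
  refine abs_le.2 ⟨?_, key a b ha⟩
  have := key b a hb
  rw [abs_sub_comm] at this
  linarith

theorem fix2_contin {L : ℝ} {g : E n → ℝ} (h : ∀ x w, |g x - g w| ≤ L * ‖x - w‖) :
    Continuous g :=
  (LipschitzWith.of_dist_le' (K := L) fun x w => by
    rw [Real.dist_eq, dist_eq_norm]; exact h x w).continuous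

theorem fix2_bd (hμ : Good μ R) {L : ℝ} (hL : 0 ≤ L) {g : E n → ℝ}
    (h : ∀ x w, |g x - g w| ≤ L * ‖x - w‖) (hN : Nm μ g) (x : E n) : |g x| ≤ L * (‖x‖ + R) := by
  have := hμ.prob
  have hi := hμ.integrable (continuous_exp.comp (fix2_contin h))
  have hb : ∀ w, ‖w‖ ≤ R → |g x - g w| ≤ L * (‖x‖ + R) := fun w hw => (h x w).trans
    (mul_le_mul_of_nonneg_left ((norm_sub_le x w).trans (by linarith)) hL)
  have h1 : ∫ w, exp (g w) ∂μ ≤ ∫ _, exp (g x + L * (‖x‖ + R)) ∂μ :=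
    integral_mono_ae hi (integrable_const _) (hμ.supp.mono fun w hw =>
      exp_le_exp.2 (by linarith [(abs_le.1 (hb w hw)).1]))
  have h2 : ∫ _, exp (g x - L * (‖x‖ + R)) ∂μ ≤ ∫ w, exp (g w) ∂μ :=
    integral_mono_ae (integrable_const _) hi (hμ.supp.mono fun w hw =>
      exp_le_exp.2 (by linarith [(abs_le.1 (hb w hw)).2]))
  rw [show ∫ w, exp (g w) ∂μ = 1 from hN] at h1 h2
  simp only [integral_const, probReal_univ, one_smul, one_le_exp_iff, exp_le_one_iff] at h1 h2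
  exact abs_le.2 ⟨by linarith, by linarith⟩

theorem exists_fix (hμ : Good μ R) (hη : 0 < η) (hs : 0 < s0) (hS : s0 < S) {g0 : E n → ℝ}
    (hg : Continuous g0) (hN : Nm μ g0) :
    ∃ g : E n → ℝ, Continuous g ∧ Nm μ g ∧ BA μ η s0 S g = g ∧
      Phi μ η s0 S g0 ≤ Phi μ η s0 S g := by
  have := hμ.prob
  have hR := hμ.nn
  set L := 2 * R / s0 / η with hLd
  have hL : 0 ≤ L := by positivity
  set K1 : Set (E n → ℝ) := {g | ∀ x w, |g x - g w| ≤ L * ‖x - w‖} ∩
    Set.pi univ fun x => Icc (-(L * (‖x‖ + R))) (L * (‖x‖ + R)) with hK1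
  have c1 : IsCompact K1 := by
    refine IsCompact.inter_left (isCompact_univ_pi fun _ => isCompact_Icc) ?_
    simp only [Set.ofPred_forall]
    exact isClosed_iInter fun x => isClosed_iInter fun w =>
      isClosed_le (by fun_prop) continuous_const
  have hb : ∀ g ∈ K1, ∀ x, ‖x‖ ≤ R → ‖g x‖ ≤ L * (R + R) := fun g hg x hx =>
    (abs_le.2 (hg.2 x (mem_univ x))).trans (mul_le_mul_of_nonneg_left (by linarith) hL)
  have c2 : ContinuousOn (fun g : E n → ℝ => ∫ x, exp (g x) ∂μ) K1 := by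
    refine fix2_cont (R := R) hL (exp_pos (L * (R + R))).le (fun g hg => hg.1)
      fun ε _ _ g hg g' hg' h => ?_
    rw [← integral_sub (hμ.integrable (fix2_contin hg.1).rexp)
      (hμ.integrable (fix2_contin hg'.1).rexp)]
    have := norm_integral_le_of_norm_le_const (μ := μ) (f := fun x => exp (g x) - exp (g' x))
      (C := exp (L * (R + R)) * ε) (hμ.supp.mono fun x hx =>
        (fix2_exp (le_of_abs_le (hb g hg x hx)) (le_of_abs_le (hb g' hg' x hx))).trans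
          (mul_le_mul_of_nonneg_left (h x hx) (exp_pos _).le))
    simpa using this
  have c3 : IsCompact (K1 ∩ (fun g : E n → ℝ => ∫ x, exp (g x) ∂μ) ⁻¹' {1}) :=
    c1.of_isClosed_subset (c2.preimage_isClosed_of_isClosed c1.isClosed isClosed_singleton)
      inter_subset_left
  have hBA : ∀ g, Continuous g →
      BA μ η s0 S g ∈ K1 ∩ (fun g : E n → ℝ => ∫ x, exp (g x) ∂μ) ⁻¹' {1} := fun g hg => by
    have h1 : ∀ x w, |BA μ η s0 S g x - BA μ η s0 S g w| ≤ L * ‖x - w‖ := fun x w => by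
      have e : BA μ η s0 S g x - BA μ η s0 S g w = (Tg μ g s0 S x - Tg μ g s0 S w) / η := by
        unfold BA; ring
      rw [e, abs_div, abs_of_pos hη, hLd, div_mul_eq_mul_div]
      exact div_le_div_of_nonneg_right (Tg_lip hμ hg hs hS x w) hη.le
    exact ⟨⟨h1, fun x _ => abs_le.1 (fix2_bd hμ hL h1 (nm_BA hμ hg hs) x)⟩, nm_BA hμ hg hs⟩
  obtain ⟨C, hC, hP⟩ := Phi_cont hμ hη hs hS (L * (R + R))
  have c4 : ContinuousOn (Phi μ η s0 S) K1 := fix2_cont (R := R) hL hC (fun g hg => hg.1)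
    fun ε h0 h1 g hg g' hg' h => hP ε h0 h1 g g' (fix2_contin hg.1) (fix2_contin hg'.1)
      (hb g hg) (hb g' hg') h
  obtain ⟨g, hgK, hmax⟩ := c3.exists_isMaxOn ⟨_, hBA g0 hg⟩ (c4.mono inter_subset_left)
  have gc := fix2_contin hgK.1.1
  have gN : Nm μ g := hgK.2
  have m1 : Phi μ η s0 S (BA μ η s0 S g) ≤ Phi μ η s0 S g := hmax (hBA g gc)
  have m2 : Phi μ η s0 S (BA μ η s0 S g0) ≤ Phi μ η s0 S g := hmax (hBA g0 hg)
  have e : g =ᵐ[μ] BA μ η s0 S g := by
    refine rel_eq_zero hμ gc (continuous_BA hμ gc hs) gN (nm_BA hμ gc hs) ?_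
    have := Phi_BA hμ gc gN hη hs hS
    exact le_of_mul_le_mul_left (by linarith) hη
  refine ⟨BA μ η s0 S g, continuous_BA hμ gc hs, nm_BA hμ gc hs, ?_, ?_⟩
  · funext x
    rw [BA, ← Tg_congr e, BA]
  · have h1 := Phi_BA hμ hg hN hη hs hS
    have h2 := mul_nonneg hη.le
      (rel_nonneg hμ hg (continuous_BA (η := η) (S := S) hμ hg hs) hN (nm_BA hμ hg hs))
    rw [← Phi_congr e]
    linarith

end Vale.Agent.P245
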