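import Vale.Agent.P245.PostM

open MeasureTheory Real Set
open scoped RealInnerProductSpace ENNReal

namespace Vale.Agent.P245

variable {n : ℕ}

/-! The averaging operator `Av`. `tau` is a product measure; `∫ gk z.1 z.2 x ∂tau = S - s0`
(`integral_prod`, `integral_gk`, `integrable_prod_iff`). Membership `z.1 ∈ Ioc s0 S` holds
`tau`-a.e. (`tau_ae`). `Av_shift`: iterate, translate the inner integral
(`integral_add_left_eq_self`, `gk_add`), iterate back (or a measure preserving map).
`continuous_Av`: `continuousAt_of_dominated` with `gk_dom_centre`.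
`integral_Av`: `integral_integral_swap` on `μ.prod tau`, then `integral_smul_const`. -/

variable {μ : Measure (E n)} {R : ℝ} {g : E n → ℝ} {s0 S C : ℝ}
variable {V : Type*} [NormedAddCommGroup V] [NormedSpace ℝ V] [CompleteSpace V]
variable {F : ℝ → E n → V}

theorem tau_ae (n : ℕ) (s0 S : ℝ) : ∀ᵐ z ∂(tau n s0 S), z.1 ∈ Ioc s0 S :=
  Measure.quasiMeasurePreserving_fst.ae (ae_restrict_mem measurableSet_Ioc)

theorem integral_tau (hS : s0 < S) {f : ℝ × E n → V} (hf : Integrable f (tau n s0 S)) :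
    ∫ z, f z ∂(tau n s0 S) = ∫ s in s0..S, ∫ y, f (s, y) := by
  rw [intervalIntegral.integral_of_le hS.le]
  exact integral_prod _ hf

instance fub_sfinite (n : ℕ) (s0 S : ℝ) : SFinite (tau n s0 S) := by
  unfold tau
  infer_instance

theorem fub_gk (x : E n) : Measurable fun z : ℝ × E n => gk z.1 z.2 x :=
  measurable_gk.comp (f := fun z : ℝ × E n => (z.1, z.2, x)) (by fun_prop)

theorem integrable_tau_gk (hs : 0 < s0) (x : E n) :
    Integrable (fun z : ℝ × E n => gk z.1 z.2 x) (tau n s0 S) := by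
  refine (integrable_prod_iff (fub_gk x).aestronglyMeasurable).2 ⟨?_, ?_⟩
  · filter_upwards [ae_restrict_mem measurableSet_Ioc] with s h
    exact integrable_gk (hs.trans h.1) x
  · refine (integrable_const (1 : ℝ)).congr ?_
    filter_upwards [ae_restrict_mem measurableSet_Ioc] with s h
    simp only [Real.norm_of_nonneg (gk_pos (hs.trans h.1) _ _).le, integral_gk (hs.trans h.1)]

theorem fub_one (hs : 0 < s0) (x : E n) :
    ∫ z, gk z.1 z.2 x ∂(tau n s0 S) = volume.real (Ioc s0 S) := by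
  rw [tau, integral_prod _ (integrable_tau_gk hs x), setIntegral_congr_fun measurableSet_Ioc
    fun s h => integral_gk (hs.trans h.1) x]
  simp

theorem integral_tau_gk (hs : 0 < s0) (hS : s0 < S) (x : E n) :
    ∫ z, gk z.1 z.2 x ∂(tau n s0 S) = S - s0 := by
  rw [fub_one hs, Real.volume_real_Ioc_of_le hS.le]

theorem fub_int0 (hμ : Good μ R) (hs : 0 < s0) {φ : E n → ℝ} (hφ : Continuous φ) :
    Integrable (fun p : E n × ℝ × E n => φ p.1 * gk p.2.1 p.2.2 p.1) (μ.prod (tau n s0 S)) := by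
  have := hμ.prob
  refine (integrable_prod_iff ((hφ.measurable.comp measurable_fst).mul (measurable_gk.comp
    (f := fun p : E n × ℝ × E n => (p.2.1, p.2.2, p.1)) (by fun_prop))).aestronglyMeasurable).2
    ⟨.of_forall fun x => (integrable_tau_gk hs x).const_mul (φ x), ?_⟩
  change Integrable (fun x => ∫ z, ‖φ x * gk z.1 z.2 x‖ ∂(tau n s0 S)) μ
  have : ∀ x, ∫ z, ‖gk z.1 z.2 x‖ ∂(tau n s0 S) = volume.real (Ioc s0 S) := fun x => by
    rw [← fub_one hs x]
    refine integral_congr_ae ?_
    filter_upwards [tau_ae n s0 S] with z hz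
    exact Real.norm_of_nonneg (gk_pos (hs.trans hz.1) _ _).le
  simp only [norm_mul, integral_const_mul, this]
  exact (hμ.integrable hφ.norm).mul_const _

theorem integrable_tau_PP (hμ : Good μ R) (hs : 0 < s0) {φ : E n → ℝ} (hφ : Continuous φ) :
    Integrable (fun z : ℝ × E n => PP μ φ z.1 z.2) (tau n s0 S) := by
  have := hμ.prob
  exact (fub_int0 hμ hs hφ).integral_prod_right

theorem integral_tau_PP (hμ : Good μ R) (hs : 0 < s0) (hS : s0 < S) {φ : E n → ℝ}
    (hφ : Continuous φ) :
    ∫ z, PP μ φ z.1 z.2 ∂(tau n s0 S) = (S - s0) * ∫ x, φ x ∂μ := by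
  have := hμ.prob
  unfold PP
  rw [← integral_integral_swap (f := fun x (z : ℝ × E n) => φ x * gk z.1 z.2 x) (fub_int0 hμ hs hφ)]
  simp only [integral_const_mul, integral_tau_gk hs hS, integral_mul_const]
  ring

theorem fub_smul (hF : Bd s0 S C F) {f : ℝ × E n → ℝ} (hf : Integrable f (tau n s0 S)) :
    Integrable (fun z => f z • F z.1 z.2) (tau n s0 S) := by
  refine (hf.norm.mul_const C).mono' (hf.1.smul hF.meas.aestronglyMeasurable) ?_
  filter_upwards [tau_ae n s0 S] with z hz
  rw [norm_smul]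
  exact mul_le_mul_of_nonneg_left (hF.bd _ hz _) (norm_nonneg _)

theorem Bd.integrable (hF : Bd s0 S C F) (hs : 0 < s0) (x : E n) :
    Integrable (fun z : ℝ × E n => gk z.1 z.2 x • F z.1 z.2) (tau n s0 S) :=
  fub_smul hF (integrable_tau_gk hs x)

theorem Bd.integrable_pp (hF : Bd s0 S C F) (hs : 0 < s0) (hμ : Good μ R) (hg : Continuous g) :
    Integrable (fun z : ℝ × E n => pp μ g z.1 z.2 • F z.1 z.2) (tau n s0 S) :=
  fub_smul hF (integrable_tau_PP hμ hs hg.rexp)

theorem Av_const (hs : 0 < s0) (hS : s0 < S) (c : V) (x : E n) :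
    Av s0 S (fun _ _ => c) x = c := by
  unfold Av
  rw [integral_smul_const, integral_tau_gk hs hS, smul_smul, inv_mul_cancel₀ (sub_pos.2 hS).ne',
    one_smul]

theorem Av_add {F' : ℝ → E n → V} {C' : ℝ} (hF : Bd s0 S C F) (hF' : Bd s0 S C' F') (hs : 0 < s0)
    (x : E n) : Av s0 S (fun s y => F s y + F' s y) x = Av s0 S F x + Av s0 S F' x := by
  simp only [Av, smul_add]
  rw [integral_add (hF.integrable hs x) (hF'.integrable hs x), smul_add]

theorem Av_smul (c : ℝ) (x : E n) : Av s0 S (fun s y => c • F s y) x = c • Av s0 S F x := by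
  simp only [Av, smul_comm _ c]
  rw [integral_smul, smul_comm]

theorem Av_mono {f f' : ℝ → E n → ℝ} {C' : ℝ} (hf : Bd s0 S C f) (hf' : Bd s0 S C' f')
    (hs : 0 < s0) (hS : s0 < S) (h : ∀ s ∈ Ioc s0 S, ∀ y, f s y ≤ f' s y) (x : E n) :
    Av s0 S f x ≤ Av s0 S f' x := by
  refine mul_le_mul_of_nonneg_left (integral_mono_ae (hf.integrable hs x) (hf'.integrable hs x) ?_)
    (inv_nonneg.2 (sub_pos.2 hS).le)
  filter_upwards [tau_ae n s0 S] with z hz
  exact mul_le_mul_of_nonneg_left (h _ hz _) (gk_pos (hs.trans hz.1) _ _).le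

theorem norm_Av_le (hF : Bd s0 S C F) (hs : 0 < s0) (hS : s0 < S) (x : E n) :
    ‖Av s0 S F x‖ ≤ C := by
  have h0 := sub_pos.2 hS
  have : ‖∫ z, gk z.1 z.2 x • F z.1 z.2 ∂(tau n s0 S)‖ ≤ ∫ z, gk z.1 z.2 x * C ∂(tau n s0 S) := by
    refine norm_integral_le_of_norm_le ((integrable_tau_gk hs x).mul_const C) ?_
    filter_upwards [tau_ae n s0 S] with z hz
    have := (gk_pos (hs.trans hz.1) z.2 x).le
    rw [norm_smul, Real.norm_of_nonneg this]
    exact mul_le_mul_of_nonneg_left (hF.bd _ hz _) this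
  rw [integral_mul_const, integral_tau_gk hs hS] at this
  rw [Av, norm_smul, norm_inv, Real.norm_of_nonneg h0.le, inv_mul_le_iff₀ h0]
  exact this

theorem Av_clm {W : Type*} [NormedAddCommGroup W] [NormedSpace ℝ W] [CompleteSpace W]
    (L : V →L[ℝ] W) (hF : Bd s0 S C F) (hs : 0 < s0) (x : E n) :
    L (Av s0 S F x) = Av s0 S (fun s y => L (F s y)) x := by
  simp only [Av, map_smul, ← L.integral_comp_comm (hF.integrable hs x)]

theorem Av_iter (hF : Bd s0 S C F) (hs : 0 < s0) (hS : s0 < S) (x : E n) :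
    Av s0 S F x = (S - s0)⁻¹ • ∫ s in s0..S, ∫ y, gk s y x • F s y := by
  rw [Av, integral_tau hS (hF.integrable hs x)]

theorem Av_shift (hF : Bd s0 S C F) (hs : 0 < s0) (x : E n) :
    Av s0 S F x = (S - s0)⁻¹ • ∫ z, gk z.1 z.2 0 • F z.1 (x + z.2) ∂(tau n s0 S) := by
  have hT : MeasurePreserving (Prod.map id fun y : E n => x + y) (tau n s0 S) (tau n s0 S) :=
    (MeasurePreserving.id _).prod (measurePreserving_add_left volume x)
  have h := integral_map (μ := tau n s0 S) hT.measurable.aemeasurable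
    (f := fun z : ℝ × E n => gk z.1 z.2 x • F z.1 z.2)
    (by rw [hT.map_eq]; exact (hF.integrable hs x).1)
  rw [hT.map_eq] at h
  rw [Av, h]
  simp only [Prod.map_fst, Prod.map_snd, id, gk_add]

theorem continuous_Av (hF : Bd s0 S C F) (hs : 0 < s0) : Continuous (Av s0 S F) := by
  by_cases hS : s0 < S
  swap
  · have : tau n s0 S = 0 := by simp [tau, Ioc_eq_empty hS]
    unfold Av
    simp only [this, integral_zero_measure]
    exact continuous_const
  refine Continuous.const_smul (continuous_iff_continuousAt.2 fun x₀ => ?_) _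
  obtain ⟨D, hD, H⟩ := gk_dom_centre (n := n) (s2 := S) hs (‖x₀‖ + 1) 0
  refine continuousAt_of_dominated (bound := fun z => D * gk (4 * S) z.2 0 * |C|)
    (.of_forall fun x => (hF.integrable hs x).1) ?_ ?_ (.of_forall fun z => ?_)
  · filter_upwards [continuous_norm.continuousAt.eventually_lt continuousAt_const
      (lt_add_one ‖x₀‖)] with x hx
    filter_upwards [tau_ae n s0 S] with z hz
    have h1 := (gk_pos (hs.trans hz.1) z.2 x).le
    have h2 := H z.1 ⟨hz.1.le, hz.2⟩ z.2 x hx.le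
    rw [pow_zero, mul_one] at h2
    rw [norm_smul, Real.norm_of_nonneg h1]
    exact mul_le_mul h2 ((hF.bd _ hz _).trans (le_abs_self C)) (norm_nonneg _) (h1.trans h2)
  · exact (((integrable_gk (s := 4 * S) (by linarith) 0).comp_snd _).const_mul D).mul_const _
  · exact ((continuous_gk_right _ _).smul continuous_const).continuousAt

theorem integral_Av (hF : Bd s0 S C F) (hs : 0 < s0) (hμ : Good μ R) (hg : Continuous g) :
    ∫ x, exp (g x) • Av s0 S F x ∂μ =
      (S - s0)⁻¹ • ∫ z, pp μ g z.1 z.2 • F z.1 z.2 ∂(tau n s0 S) := by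
  have := hμ.prob
  have hI : Integrable (fun p : E n × ℝ × E n => (exp (g p.1) * gk p.2.1 p.2.2 p.1) • F p.2.1 p.2.2)
      (μ.prod (tau n s0 S)) := by
    have h0 := fub_int0 (S := S) hμ hs hg.rexp
    refine (h0.norm.mul_const C).mono'
      (h0.1.smul (hF.meas.comp_measurable measurable_snd).aestronglyMeasurable) ?_
    filter_upwards [Measure.quasiMeasurePreserving_snd.ae (tau_ae n s0 S)] with p hp
    rw [norm_smul]
    exact mul_le_mul_of_nonneg_left (hF.bd _ hp _) (norm_nonneg _)
  simp only [Av, smul_comm _ (S - s0)⁻¹]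
  rw [integral_smul]
  congr 1
  simp only [← integral_smul, smul_smul]
  rw [integral_integral_swap (f := fun x (z : ℝ × E n) => (exp (g x) * gk z.1 z.2 x) • F z.1 z.2) hI]
  simp only [integral_smul_const, pp]

end Vale.Agent.P245
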