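import Vale.Agent.P245.Defs

open MeasureTheory Real Set
open scoped RealInnerProductSpace ENNReal

namespace Vale.Agent.P245

variable {n : ℕ}

/-! Elementary facts on the Gaussian kernel `gk`.
Hints: `GaussianFourier.integral_rexp_neg_mul_sq_norm` gives `∫ exp (-b ‖v‖²) = (π/b)^(n/2)`
(`finrank_euclideanSpace_fin`), translate with `integral_sub_right_eq_self`.
`gk_dom`: `(1+r)^k exp (-r²/(2s)) ≤ C exp (-r²/(4 s2))` for `s ≤ s2`, because
`(1+r)^k ≤ k! exp (1+r)` and `r ≤ r²/(4 s2) + s2`; and `(2πs)^(-n/2) ≤ (2π s1)^(-n/2)`.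
`integrable_gk_growth`: `1+‖y‖ ≤ (1+‖x‖)(1+‖y-x‖)` and `gk_dom` with `s1 = s2 = s`.
`integral_gk_exp`: complete the square, `gk s y x * exp ⟪ζ,y-x⟫ = exp (s‖ζ‖²/2) * gk s y (x + s•ζ)`. -/

theorem gk_pos {s : ℝ} (hs : 0 < s) (y x : E n) : 0 < gk s y x := by
  unfold gk
  positivity

theorem gk_symm (s : ℝ) (y x : E n) : gk s y x = gk s x y := by
  unfold gk
  rw [norm_sub_rev]

theorem gk_add (s : ℝ) (x w : E n) : gk s (x + w) x = gk s w 0 := by
  simp [gk]

theorem gk_le {s : ℝ} (hs : 0 < s) (y x : E n) : gk s y x ≤ (2 * π * s) ^ (-(n : ℝ) / 2) := by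
  unfold gk
  refine mul_le_of_le_one_right (by positivity) (exp_le_one_iff.2 ?_)
  rw [neg_div]
  exact neg_nonpos.2 (by positivity)

theorem measurable_gk : Measurable (fun z : ℝ × E n × E n => gk z.1 z.2.1 z.2.2) := by
  unfold gk
  fun_prop

theorem continuous_gk (s : ℝ) : Continuous (fun z : E n × E n => gk s z.1 z.2) := by
  unfold gk
  fun_prop

theorem continuous_gk_left (s : ℝ) (x : E n) : Continuous (fun y : E n => gk s y x) := by
  unfold gk
  fun_prop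

theorem continuous_gk_right (s : ℝ) (y : E n) : Continuous (fun x : E n => gk s y x) := by
  unfold gk
  fun_prop

theorem gk_shift {κ : ℝ} (hκ : 0 < κ) (z m : E n) :
    gk κ z (κ • m) = gk κ z 0 * exp (⟪z, m⟫ - κ * ‖m‖ ^ 2 / 2) := by
  unfold gk
  rw [mul_assoc _ (exp _), ← exp_add, sub_zero, norm_sub_sq_real, inner_smul_right, norm_smul,
    mul_pow, Real.norm_eq_abs, sq_abs]
  congr 2
  field_simp
  ring

theorem log_gk_sub {s : ℝ} (hs : 0 < s) (y x w : E n) :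
    log (gk s y x) - log (gk s y w) = (‖y - w‖ ^ 2 - ‖y - x‖ ^ 2) / (2 * s) := by
  unfold gk
  rw [log_mul (by positivity) (exp_pos _).ne', log_mul (by positivity) (exp_pos _).ne', log_exp,
    log_exp]
  ring

theorem hasFDerivAt_gk {s : ℝ} (hs : 0 < s) (y x : E n) :
    HasFDerivAt (fun y => gk s y x) ((gk s y x / s) • innerSL ℝ (x - y)) y := by
  have h1 := ((((hasFDerivAt_id y).sub_const x).norm_sq.const_mul (-1 / (2 * s))).exp).const_mul
    ((2 * π * s) ^ (-(n : ℝ) / 2))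
  have e : ∀ y : E n, -1 / (2 * s) * ‖y - x‖ ^ 2 = -‖y - x‖ ^ 2 / (2 * s) := fun y => by ring
  simp only [id, e] at h1
  refine h1.congr_fderiv ?_
  ext v
  simp only [gk, smul_apply, ContinuousLinearMap.comp_id, innerSL_apply_apply,
    smul_eq_mul, nsmul_eq_mul, inner_sub_left, Nat.cast_ofNat]
  field_simp
  ring

theorem hasDerivAt_gk {s : ℝ} (hs : 0 < s) (y x : E n) :
    HasDerivAt (fun s => gk s y x) (gk s y x * (‖y - x‖ ^ 2 / (2 * s ^ 2) - n / (2 * s))) s := by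
  have h1 := ((hasDerivAt_id s).const_mul (2 * π)).rpow_const (p := -(n : ℝ) / 2)
    (Or.inl (by simp only [id]; positivity))
  have h2 := ((hasDerivAt_const s (-‖y - x‖ ^ 2)).div ((hasDerivAt_id s).const_mul 2)
    (by simp only [id]; positivity)).exp
  refine (h1.mul h2).congr_deriv ?_
  simp only [gk, id, Pi.div_apply]
  rw [rpow_sub_one (by positivity)]
  field_simp
  ring

theorem gauss_pre {s1 s : ℝ} (h1 : 0 < s1) (h : s1 ≤ s) :
    (2 * π * s) ^ (-(n : ℝ) / 2) ≤ (2 * π * s1) ^ (-(n : ℝ) / 2) :=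
  rpow_le_rpow_of_nonpos (by positivity) (by gcongr)
    (div_nonpos_of_nonpos_of_nonneg (neg_nonpos.2 (Nat.cast_nonneg n)) zero_le_two)

theorem gauss_pow (k : ℕ) {r : ℝ} (hr : 0 ≤ r) : (1 + r) ^ k ≤ k.factorial * exp (1 + r) := by
  have := pow_div_factorial_le_exp (1 + r) (by positivity) k
  rwa [div_le_iff₀' (by positivity)] at this

theorem gauss_int {s : ℝ} (hs : 0 < s) (x : E n) : ∫ y, gk s y x = 1 := by
  unfold gk
  rw [integral_const_mul, integral_sub_right_eq_self (fun y : E n => exp (-‖y‖ ^ 2 / (2 * s))) x]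
  have := GaussianFourier.integral_rexp_neg_mul_sq_norm (V := E n) (b := 1 / (2 * s))
    (by positivity)
  have e : ∀ y : E n, -(1 / (2 * s)) * ‖y‖ ^ 2 = -‖y‖ ^ 2 / (2 * s) := fun y => by ring
  simp only [e] at this
  rw [this, finrank_euclideanSpace_fin, show π / (1 / (2 * s)) = 2 * π * s by field_simp,
    ← rpow_add (by positivity), neg_div, neg_add_cancel, rpow_zero]

theorem gauss_sq {s : ℝ} (hs : 0 < s) (x ζ y : E n) :
    gk s y x * exp ⟪ζ, y - x⟫ = exp (s * ‖ζ‖ ^ 2 / 2) * gk s y (x + s • ζ) := by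
  unfold gk
  rw [mul_left_comm, mul_assoc _ (exp _), ← exp_add, ← exp_add, ← sub_sub,
    norm_sub_sq_real (y - x), inner_smul_right, norm_smul, mul_pow, Real.norm_eq_abs, sq_abs,
    real_inner_comm]
  congr 2
  field_simp
  ring

theorem gk_dom {s1 s2 : ℝ} (h1 : 0 < s1) (k : ℕ) :
    ∃ C : ℝ, 0 ≤ C ∧ ∀ s ∈ Icc s1 s2, ∀ y x : E n,
      gk s y x * (1 + ‖y - x‖) ^ k ≤ C * gk (2 * s2) y x := by
  by_cases h12 : s1 ≤ s2
  swap
  · exact ⟨0, le_rfl, fun s hs => absurd (hs.1.trans hs.2) h12⟩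
  have h2 : 0 < s2 := h1.trans_le h12
  refine ⟨(2 * π * s1) ^ (-(n : ℝ) / 2) * (k.factorial * exp (1 + s2)) /
    (2 * π * (2 * s2)) ^ (-(n : ℝ) / 2), by positivity, fun s hs y x => ?_⟩
  have hs0 : 0 < s := h1.trans_le hs.1
  unfold gk
  rw [← mul_assoc, div_mul_cancel₀ _ (by positivity), mul_assoc (_ ^ _), mul_assoc (_ ^ _)]
  refine mul_le_mul (gauss_pre h1 hs.1) ?_ (by positivity) (by positivity)
  refine (mul_le_mul_of_nonneg_left (gauss_pow k (norm_nonneg _)) (by positivity)).trans ?_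
  rw [mul_left_comm, mul_assoc, ← exp_add, ← exp_add]
  refine mul_le_mul_of_nonneg_left (exp_le_exp.2 ?_) (by positivity)
  have a1 : ‖y - x‖ ^ 2 / (2 * s2) ≤ ‖y - x‖ ^ 2 / (2 * s) := by
    gcongr
    exact hs.2
  have a2 : ‖y - x‖ ≤ ‖y - x‖ ^ 2 / (2 * (2 * s2)) + s2 := by
    rw [div_add' _ _ _ (by positivity), le_div_iff₀ (by positivity)]
    nlinarith [sq_nonneg (‖y - x‖ - 2 * s2)]
  have a3 : ‖y - x‖ ^ 2 / (2 * s2) = 2 * (‖y - x‖ ^ 2 / (2 * (2 * s2))) := by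
    field_simp
  simp only [neg_div]
  linarith

/-- Domination uniform in the centre. -/
theorem gk_dom_centre {s1 s2 : ℝ} (h1 : 0 < s1) (R : ℝ) (k : ℕ) :
    ∃ C : ℝ, 0 ≤ C ∧ ∀ s ∈ Icc s1 s2, ∀ y x : E n, ‖x‖ ≤ R →
      gk s y x * (1 + ‖y‖) ^ k ≤ C * gk (4 * s2) y 0 := by
  by_cases h12 : s1 ≤ s2
  swap
  · exact ⟨0, le_rfl, fun s hs => absurd (hs.1.trans hs.2) h12⟩
  have h2 : 0 < s2 := h1.trans_le h12
  obtain ⟨C, hC, H⟩ := gk_dom (n := n) (s2 := s2) h1 k
  refine ⟨(1 + |R|) ^ k * C * ((2 * π * (2 * s2)) ^ (-(n : ℝ) / 2) * exp (R ^ 2 / (4 * s2)) /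
    (2 * π * (4 * s2)) ^ (-(n : ℝ) / 2)), by positivity, fun s hs y x hx => ?_⟩
  have hs0 : 0 < s := h1.trans_le hs.1
  have hg := gk_pos hs0 y x
  have hx' : ‖x‖ ≤ |R| := hx.trans (le_abs_self R)
  have a1 : 1 + ‖y‖ ≤ (1 + |R|) * (1 + ‖y - x‖) := by
    have := norm_add_le (y - x) x
    rw [sub_add_cancel] at this
    nlinarith [mul_nonneg (abs_nonneg R) (norm_nonneg (y - x))]
  calc _ ≤ gk s y x * ((1 + |R|) * (1 + ‖y - x‖)) ^ k := by gcongr
    _ = (1 + |R|) ^ k * (gk s y x * (1 + ‖y - x‖) ^ k) := by rw [mul_pow]; ring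
    _ ≤ (1 + |R|) ^ k * (C * gk (2 * s2) y x) :=
        mul_le_mul_of_nonneg_left (H s hs y x) (by positivity)
    _ ≤ _ := by
        rw [← mul_assoc, mul_assoc (_ * C)]
        refine mul_le_mul_of_nonneg_left ?_ (by positivity)
        unfold gk
        rw [← mul_assoc (_ / _), div_mul_cancel₀ _ (by positivity), mul_assoc (_ ^ _), ← exp_add]
        refine mul_le_mul_of_nonneg_left (exp_le_exp.2 ?_) (by positivity)
        have b1 := norm_add_le (y - x) x
        rw [sub_add_cancel] at b1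
        have b2 := pow_le_pow_left₀ (norm_nonneg _) b1 2
        have b3 := pow_le_pow_left₀ (norm_nonneg _) hx' 2
        rw [sq_abs] at b3
        rw [sub_zero, div_add_div _ _ (by positivity) (by positivity),
          div_le_div_iff₀ (by positivity) (by positivity)]
        have b4 : ‖y‖ ^ 2 ≤ 2 * ‖y - x‖ ^ 2 + 2 * R ^ 2 := by
          nlinarith [sq_nonneg (‖y - x‖ - ‖x‖)]
        nlinarith [mul_le_mul_of_nonneg_right b4 (mul_pos h2 h2).le]

theorem integrable_gk {s : ℝ} (hs : 0 < s) (x : E n) : Integrable (fun y => gk s y x) := by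
  by_contra h
  have := gauss_int hs x
  rw [integral_undef h] at this
  exact zero_ne_one this

theorem integral_gk {s : ℝ} (hs : 0 < s) (x : E n) : ∫ y, gk s y x = 1 := gauss_int hs x

theorem integrable_gk_growth {V : Type*} [NormedAddCommGroup V] [NormedSpace ℝ V] {s : ℝ}
    (hs : 0 < s) (x : E n) {F : E n → V} (hF : AEStronglyMeasurable F volume) (C : ℝ) (k : ℕ)
    (hb : ∀ y, ‖F y‖ ≤ C * (1 + ‖y‖) ^ k) : Integrable (fun y => gk s y x • F y) := by
  obtain ⟨D, hD, H⟩ := gk_dom_centre (n := n) (s2 := s) hs ‖x‖ k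
  refine ((integrable_gk (s := 4 * s) (by positivity) 0).const_mul (|C| * D)).mono'
    ((continuous_gk_left s x).aestronglyMeasurable.smul hF) (.of_forall fun y => ?_)
  have hg := gk_pos hs y x
  rw [norm_smul, Real.norm_of_nonneg hg.le]
  calc _ ≤ gk s y x * (|C| * (1 + ‖y‖) ^ k) := by
        gcongr
        exact (hb y).trans (mul_le_mul_of_nonneg_right (le_abs_self C) (by positivity))
    _ = |C| * (gk s y x * (1 + ‖y‖) ^ k) := by ring
    _ ≤ _ := by
        rw [mul_assoc]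
        exact mul_le_mul_of_nonneg_left (H s ⟨le_rfl, le_rfl⟩ y x le_rfl) (abs_nonneg _)

theorem integrable_gk_exp {s : ℝ} (hs : 0 < s) (x ζ : E n) :
    Integrable (fun y => gk s y x * exp ⟪ζ, y - x⟫) := by
  simp only [gauss_sq hs]
  exact (integrable_gk hs _).const_mul _

theorem integral_gk_exp {s : ℝ} (hs : 0 < s) (x ζ : E n) :
    ∫ y, gk s y x * exp ⟪ζ, y - x⟫ = exp (s * ‖ζ‖ ^ 2 / 2) := by
  simp only [gauss_sq hs]
  rw [integral_const_mul, integral_gk hs, mul_one]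

end Vale.Agent.P245
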