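import Vale.Agent.P245.Tight1

open MeasureTheory Real Set
open scoped RealInnerProductSpace ENNReal

namespace Vale.Agent.P245

variable {n : ℕ}

/-! Tightening (crude Rothaus argument). Let `D = lam ∫ ‖fderiv f‖²`, `φ = f - m`, `σ² = ∫ φ² ≤ 14 D`.
Case `m² ≤ σ²`: `def_sq`, `∫ f² ≤ 2σ² + 2m² ≤ 4σ²`.
Case `σ² < m²`: `Ent F ≤ ∫ (F log F - F log t - F + t)` for every `t > 0`; take `t = m²`. Pointwise, with
`Θ = f² log (f²/m²) - f² + m²`: if `|φ| ≤ 2|m|` then `Θ ≤ (f²-m²)²/m² ≤ 16 φ²`; otherwise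
`|m| ≤ |f| ≤ 3|φ|/2` and `Θ ≤ (9/4) φ² (log (φ²/σ²) + 1)`. In all cases (for `σ > 0`)
`Θ ≤ 16 φ² + (9/4) (φ² log (φ²/σ²) + φ² + σ²)` because `φ² log (φ²/σ²) ≥ φ² - σ²`. Integrate:
`∫ φ² log (φ²/σ²) = Ent φ² ≤ 4 D + σ²/10` (`def_sq` for `φ`). If `σ = 0` then `f = m` a.e. -/

variable {μ : Measure (E n)} {R lam : ℝ}

theorem tight2_lo {x t : ℝ} (hx : 0 ≤ x) (ht : 0 < t) : x - t ≤ x * log x - x * log t := by
  rcases hx.eq_or_lt with h | h
  · simp [← h, ht.le]
  · have h1 := mul_le_mul_of_nonneg_left (log_le_sub_one_of_pos (div_pos ht h)) hx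
    rw [log_div ht.ne' h.ne', mul_sub, mul_sub, mul_div_cancel₀ _ h.ne'] at h1
    linarith

theorem tight2_up {x t : ℝ} (hx : 0 ≤ x) (ht : 0 < t) :
    x * log x - x * log t - x + t ≤ (x - t) ^ 2 / t := by
  rcases hx.eq_or_lt with h | h
  · simp only [← h, zero_mul, sub_zero, zero_add, zero_sub, neg_sq]
    exact le_of_eq (by field_simp)
  · have h1 := mul_le_mul_of_nonneg_left (log_le_sub_one_of_pos (div_pos h ht)) hx
    rw [log_div h.ne' ht.ne'] at h1
    have h2 : (x - t) ^ 2 / t = x * (x / t - 1) - x + t := by field_simp; ring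
    linarith

theorem tight2_pt {a m v : ℝ} (hv : 0 < v) (hm : v ≤ m ^ 2) :
    a ^ 2 * log (a ^ 2) - a ^ 2 * log (m ^ 2) - a ^ 2 + m ^ 2 ≤ 16 * (a - m) ^ 2 + 9 / 4 *
      ((a - m) ^ 2 * log ((a - m) ^ 2) - (a - m) ^ 2 * log v + (a - m) ^ 2 + v) := by
  have hm0 : 0 < m ^ 2 := hv.trans_le hm
  have h0 := sq_nonneg (a - m)
  rcases le_or_gt ((a - m) ^ 2) (4 * m ^ 2) with h | h
  · have h1 := tight2_up (sq_nonneg a) hm0
    have h2 := tight2_lo h0 hv
    have h3 : (a ^ 2 - m ^ 2) ^ 2 / m ^ 2 ≤ 16 * (a - m) ^ 2 := by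
      rw [div_le_iff₀ hm0]
      have h4 : (a + m) ^ 2 ≤ 16 * m ^ 2 := by nlinarith [sq_nonneg (a - 3 * m)]
      nlinarith [mul_le_mul_of_nonneg_left h4 h0]
    linarith
  · have h1 : m ^ 2 ≤ a ^ 2 := by nlinarith [sq_nonneg (a + m)]
    have h2 : a ^ 2 ≤ 9 / 4 * (a - m) ^ 2 := by nlinarith [sq_nonneg (a - 3 * m)]
    have h3 : 0 ≤ log (a ^ 2) - log (m ^ 2) := sub_nonneg.2 (log_le_log hm0 h1)
    have h4 : log (a ^ 2) - log (m ^ 2) ≤ log ((a - m) ^ 2) - log v + 5 / 4 := by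
      have h5 := log_le_log (hm0.trans_le h1) h2
      rw [log_mul (by norm_num) (by linarith)] at h5
      have h6 := log_le_log hv hm
      have h7 := log_le_sub_one_of_pos (show (0 : ℝ) < 9 / 4 by norm_num)
      linarith
    have h8 := mul_le_mul h2 h4 h3 (by positivity)
    nlinarith

theorem tight (hμ : Good μ R) (hD : Def μ lam (1 / 10)) (hl : 0 ≤ lam) {f : E n → ℝ}
    (hf : ContDiff ℝ 1 f) :
    Ent μ (fun x => f x ^ 2) ≤ 1000 * lam * ∫ x, ‖fderiv ℝ f x‖ ^ 2 ∂μ := by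
  have := hμ.prob
  obtain ⟨m, hm⟩ := def_poincare hμ hD hl hf
  have fc := hf.continuous
  have hI : 0 ≤ ∫ x, ‖fderiv ℝ f x‖ ^ 2 ∂μ := integral_nonneg fun _ => sq_nonneg _
  have hD0 := mul_nonneg hl hI
  have hσ : 0 ≤ ∫ x, (f x - m) ^ 2 ∂μ := integral_nonneg fun _ => sq_nonneg _
  have i1 : Integrable (fun x => f x ^ 2) μ := hμ.integrable (by fun_prop)
  have i2 : Integrable (fun x => (f x - m) ^ 2) μ := hμ.integrable (by fun_prop)
  rcases le_or_gt (m ^ 2) (∫ x, (f x - m) ^ 2 ∂μ) with h | h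
  · have h1 := def_sq hμ hD hl hf
    have h2 : ∫ x, f x ^ 2 ∂μ ≤ ∫ x, (2 * (f x - m) ^ 2 + 2 * m ^ 2) ∂μ :=
      integral_mono i1 ((i2.const_mul 2).add (integrable_const _)) fun x => by
        simp only; nlinarith [sq_nonneg (f x - 2 * m)]
    rw [integral_add (i2.const_mul 2) (integrable_const _), integral_const_mul] at h2
    simp only [integral_const, probReal_univ, one_smul] at h2
    linarith
  have hm0 : 0 < m ^ 2 := hσ.trans_lt h
  have i3 : Integrable (fun x => f x ^ 2 * log (f x ^ 2)) μ :=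
    hμ.integrable (continuous_mul_log.comp (f := fun x => f x ^ 2) (by fun_prop))
  have i4 : Integrable (fun x => (f x - m) ^ 2 * log ((f x - m) ^ 2)) μ :=
    hμ.integrable (continuous_mul_log.comp (f := fun x => (f x - m) ^ 2) (by fun_prop))
  have h3 := def_sq hμ hD hl (hf.sub (contDiff_const (c := m)))
  simp only [fderiv_sub_const] at h3
  have h4 := tight2_lo (integral_nonneg fun x => sq_nonneg (f x) : 0 ≤ ∫ x, f x ^ 2 ∂μ) hm0
  have key : ∀ v, 0 < v → v ≤ m ^ 2 → Ent μ (fun x => f x ^ 2) ≤ 16 * (∫ x, (f x - m) ^ 2 ∂μ) +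
      9 / 4 * ((∫ x, (f x - m) ^ 2 * log ((f x - m) ^ 2) ∂μ) - (∫ x, (f x - m) ^ 2 ∂μ) * log v +
        (∫ x, (f x - m) ^ 2 ∂μ) + v) := by
    intro v hv hvm
    have j1 := (i3.sub (i1.mul_const (log (m ^ 2)))).sub i1
    have j2 := (i4.sub (i2.mul_const (log v))).add i2
    have h5 := integral_mono (j1.add (integrable_const (m ^ 2)))
      ((i2.const_mul 16).add ((j2.add (integrable_const v)).const_mul (9 / 4)))
      fun x => tight2_pt (a := f x) hv hvm
    simp only [Pi.add_apply, Pi.sub_apply] at h5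
    rw [integral_add (by exact j1) (integrable_const _),
      integral_sub (by exact i3.sub (i1.mul_const _)) i1, integral_sub i3 (i1.mul_const _),
      integral_add (i2.const_mul 16) (by exact (j2.add (integrable_const v)).const_mul _),
      integral_const_mul, integral_const_mul, integral_add (by exact j2) (integrable_const _),
      integral_add (by exact i4.sub (i2.mul_const _)) i2, integral_sub i4 (i2.mul_const _),
      integral_mul_const, integral_mul_const] at h5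
    simp only [integral_const, probReal_univ, one_smul] at h5
    unfold Ent
    linarith
  unfold Ent at h3
  rcases hσ.eq_or_lt with h6 | h6
  · refine le_of_forall_pos_le_add fun ε hε => ?_
    have h7 := key (min (m ^ 2) (ε / 3)) (lt_min hm0 (by positivity)) (min_le_left _ _)
    have h8 := min_le_right (m ^ 2) (ε / 3)
    rw [← h6] at h3 h7
    linarith
  · have h7 := key _ h6 h.le
    linarith

end Vale.Agent.P245
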