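import Vale.Agent.P245.Key
import Vale.Agent.P245.Apr
import Vale.Agent.P245.Tight2

open MeasureTheory Real Set
open scoped RealInnerProductSpace ENNReal

namespace Vale.Agent.P245

variable {n : ℕ}

theorem iter_abs (P : ℝ → ℝ → Prop) (mono : ∀ l d d', P l d → d ≤ d' → P l d') (p : ℕ)
    {l1 A B : ℝ} (hl1 : 0 < l1) (hA : 0 ≤ A) (hB : 0 < B)
    (hkey : ∀ l d1 d2, l1 ≤ l → P ((1 - 1 / (2 * ((p : ℝ) + 1))) * l) d1 → P (2 * l) d2 →
      P l (max (d1 / 3) (10 * d2 / 9)))
    (hR : ∀ l, l1 ≤ l → P l (A / l)) (hn : ∀ l, l1 ≤ l → P l B) :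
    P (4 * l1) (B / 2 ^ (p + 1)) := by
  set δ : ℝ := 1 / (2 * ((p : ℝ) + 1)) with hδ
  have hp : (0 : ℝ) < (p : ℝ) + 1 := by positivity
  have hδ0 : 0 < δ := by positivity
  have hδp : δ * ((p : ℝ) + 1) = 1 / 2 := by rw [hδ]; field_simp
  have hδ1 : δ ≤ 1 / 2 := by nlinarith [Nat.cast_nonneg (α := ℝ) p]
  have hber : (1 : ℝ) / 2 ≤ (1 - δ) ^ (p + 1) := by
    have := one_add_mul_le_pow (a := -δ) (by linarith) (p + 1)
    push_cast at this
    have e : (1 : ℝ) + -δ = 1 - δ := by ring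
    rw [e] at this
    nlinarith
  set ω : ℝ → ℝ := fun l => min l (4 * l1) ^ p * l with hω
  have hωpos : ∀ l, 0 < l → 0 < ω l := fun l hl => by
    have : 0 < min l (4 * l1) := lt_min hl (by linarith)
    simp only [hω]; positivity
  set Ks := (2 * l1) ^ (p + 1) * B with hKs
  have hKs0 : 0 < Ks := by positivity
  have step : ∀ K, 0 ≤ K → (∀ l, l1 ≤ l → P l (K / ω l)) →
      ∀ l, l1 ≤ l → P l (max Ks (2 / 3 * K) / ω l) := by
    intro K hK h l hl
    have hl0 : 0 < l := by linarith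
    have hw := hωpos l hl0
    by_cases hc : l ≤ 2 * l1
    · refine mono _ _ _ (hn l hl) ?_
      rw [le_div_iff₀ hw]
      refine le_trans ?_ (le_max_left _ _)
      have h1 : min l (4 * l1) ^ p ≤ (2 * l1) ^ p :=
        pow_le_pow_left₀ (le_min hl0.le (by linarith)) ((min_le_left _ _).trans hc) p
      have h2 : ω l ≤ (2 * l1) ^ (p + 1) := by
        rw [pow_succ]
        exact mul_le_mul h1 hc hl0.le (by positivity)
      rw [hKs]
      nlinarith
    · push Not at hc
      have h1 : l1 ≤ (1 - δ) * l := by nlinarith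
      have h2 := hkey l _ _ hl (h _ h1) (h (2 * l) (by linarith))
      refine mono _ _ _ h2 ?_
      have h3 : ω l / 2 ≤ ω ((1 - δ) * l) := by
        have h4 : (1 - δ) * min l (4 * l1) ≤ min ((1 - δ) * l) (4 * l1) := by
          refine le_min (mul_le_mul_of_nonneg_left (min_le_left _ _) (by linarith)) ?_
          have := min_le_right l (4 * l1)
          have h0 : 0 ≤ min l (4 * l1) := le_min hl0.le (by linarith)
          nlinarith
        have h0 : 0 ≤ min l (4 * l1) := le_min hl0.le (by linarith)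
        have h5 := pow_le_pow_left₀ (mul_nonneg (by linarith) h0) h4 p
        calc ω l / 2 = 1 / 2 * ω l := by ring
          _ ≤ (1 - δ) ^ (p + 1) * ω l := mul_le_mul_of_nonneg_right hber hw.le
          _ = ((1 - δ) * min l (4 * l1)) ^ p * ((1 - δ) * l) := by
              simp only [hω]; rw [mul_pow, pow_succ]; ring
          _ ≤ _ := mul_le_mul_of_nonneg_right h5 (by nlinarith)
      have h6 : 2 * ω l ≤ ω (2 * l) := by
        have h0 : 0 ≤ min l (4 * l1) := le_min hl0.le (by linarith)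
        have h4 : min l (4 * l1) ≤ min (2 * l) (4 * l1) := min_le_min (by linarith) le_rfl
        have h5 := pow_le_pow_left₀ h0 h4 p
        calc 2 * ω l = min l (4 * l1) ^ p * (2 * l) := by simp only [hω]; ring
          _ ≤ _ := mul_le_mul_of_nonneg_right h5 (by linarith)
      have h7 : K / ω ((1 - δ) * l) ≤ K / (ω l / 2) := div_le_div_of_nonneg_left hK (by positivity) h3
      have h8 : K / ω (2 * l) ≤ K / (2 * ω l) := div_le_div_of_nonneg_left hK (by positivity) h6
      have h9 : 2 / 3 * K / ω l ≤ max Ks (2 / 3 * K) / ω l :=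
        div_le_div_of_nonneg_right (le_max_right _ _) hw.le
      have e1 : K / (ω l / 2) = 2 * (K / ω l) := by field_simp
      have e2 : K / (2 * ω l) = (K / ω l) / 2 := by field_simp
      have e3 : 2 / 3 * K / ω l = 2 / 3 * (K / ω l) := by ring
      have h10 : 0 ≤ K / ω l := by positivity
      refine max_le ?_ ?_ <;> linarith
  set K0 := (4 * l1) ^ p * A with hK0
  have hK00 : 0 ≤ K0 := by positivity
  have all : ∀ j : ℕ, ∀ l, l1 ≤ l → P l (max Ks ((2 / 3) ^ j * K0) / ω l) := by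
    intro j
    induction j with
    | zero =>
      intro l hl
      have hl0 : 0 < l := by linarith
      have hw := hωpos l hl0
      refine mono _ _ _ (hR l hl) ?_
      refine le_trans ?_ (div_le_div_of_nonneg_right (le_max_right _ _) hw.le)
      rw [div_le_div_iff₀ hl0 hw, pow_zero, one_mul, hK0]
      have h1 : min l (4 * l1) ^ p ≤ (4 * l1) ^ p :=
        pow_le_pow_left₀ (le_min hl0.le (by linarith)) (min_le_right _ _) p
      have := mul_le_mul_of_nonneg_right h1 (mul_nonneg hA hl0.le)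
      simp only [hω]
      nlinarith
    | succ j ih =>
      intro l hl
      have hl0 : 0 < l := by linarith
      have hw := hωpos l hl0
      refine mono _ _ _ (step _ (le_max_of_le_left hKs0.le) ih l hl) ?_
      refine div_le_div_of_nonneg_right (max_le (le_max_left _ _) ?_) hw.le
      rcases le_total Ks ((2 / 3) ^ j * K0) with h | h
      · rw [max_eq_right h]
        refine le_max_of_le_right (le_of_eq ?_)
        ring
      · rw [max_eq_left h]
        refine le_max_of_le_left ?_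
        linarith
  obtain ⟨j, hj⟩ : ∃ j : ℕ, (2 / 3 : ℝ) ^ j * K0 ≤ Ks := by
    obtain ⟨j, hj⟩ := exists_pow_lt_of_lt_one (x := Ks / (K0 + 1)) (y := (2 / 3 : ℝ))
      (by positivity) (by norm_num)
    refine ⟨j, ?_⟩
    rw [lt_div_iff₀ (by positivity)] at hj
    have : (0 : ℝ) ≤ (2 / 3) ^ j := by positivity
    nlinarith
  have h := all j (4 * l1) (by linarith)
  rw [max_eq_left hj] at h
  refine mono _ _ _ h (le_of_eq ?_)
  simp only [hω, hKs, min_self]
  have e : (4 * l1) ^ p * (4 * l1) = 2 ^ (p + 1) * (2 * l1) ^ (p + 1) := by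
    rw [← mul_pow, ← pow_succ]; congr 1; ring
  rw [e]
  field_simp

theorem core : ∃ C : ℝ, 0 ≤ C ∧ ∀ (n : ℕ) (μ : Measure (E n)) (R a : ℝ) (c : E n), Good μ R →
    LC μ R → 0 < a → SG μ a c → ∀ f : E n → ℝ, ContDiff ℝ 1 f →
    Ent μ (fun x => f x ^ 2) ≤
      C * log (n + 2) ^ 6 * a ^ 2 * ∫ x, ‖fderiv ℝ f x‖ ^ 2 ∂μ := by
  refine ⟨1000 * (4 * (10 ^ 9 * 20 ^ 6)), by positivity, ?_⟩
  intro n μ R a c hμ hL ha hSG f hf
  set p : ℕ := Nat.log 2 (n + 1) + 4 with hp
  have hp0 : (0 : ℝ) < (p : ℝ) + 1 := by positivity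
  have hp1 : (1 : ℝ) ≤ (p : ℝ) + 1 := by linarith [Nat.cast_nonneg (α := ℝ) p]
  set l1 : ℝ := 10 ^ 9 * a ^ 2 * (2 * ((p : ℝ) + 1)) ^ 6 with hl1
  have hl10 : 0 < l1 := by positivity
  have hD := iter_abs (Def μ) (fun l d d' h hd g hg hN => (h g hg hN).trans (by linarith)) p
    (A := 2 * R ^ 2) (B := (n : ℝ) + 1) hl10 (by positivity) (by positivity)
    (fun l d1 d2 hl h1 h2 => key hμ hL ha hSG (by positivity)
      (by rw [div_le_div_iff₀ (by positivity) (by positivity)]; linarith)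
      (by
        have e : l * (1 / (2 * ((p : ℝ) + 1))) ^ 6 = l / (2 * ((p : ℝ) + 1)) ^ 6 := by
          field_simp
        rw [e, le_div_iff₀ (by positivity)]
        exact hl) h1 h2)
    (fun l hl => def_R hμ hL (by linarith))
    (fun l hl g hg hN => (def_n hμ hL ha hSG (lam := l) (by
        have h1 : (1 : ℝ) ≤ (2 * ((p : ℝ) + 1)) ^ 6 := one_le_pow₀ (by linarith)
        have h2 : 0 < a ^ 2 := by positivity
        nlinarith) g hg hN).trans (by linarith))
  have hsmall : ((n : ℝ) + 1) / 2 ^ (p + 1) ≤ 1 / 10 := by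
    have h1 : n + 1 < 2 ^ (Nat.log 2 (n + 1) + 1) := Nat.lt_pow_succ_log_self (by norm_num) _
    have h2 : ((n : ℝ) + 1) < 2 ^ (Nat.log 2 (n + 1) + 1) := by exact_mod_cast h1
    have e : (2 : ℝ) ^ (p + 1) = 16 * 2 ^ (Nat.log 2 (n + 1) + 1) := by rw [hp]; ring
    rw [e, div_le_div_iff₀ (by positivity) (by norm_num)]
    have : (0 : ℝ) < 2 ^ (Nat.log 2 (n + 1) + 1) := by positivity
    linarith
  have hD' : Def μ (4 * l1) (1 / 10) := fun g hg hN => (hD g hg hN).trans (by linarith)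
  have ht := tight hμ hD' (by positivity) hf
  refine ht.trans (mul_le_mul_of_nonneg_right ?_ (integral_nonneg fun x => by positivity))
  have hlog2 : (0.69 : ℝ) ≤ log 2 := by linarith [Real.log_two_gt_d9]
  have hL2 : log 2 ≤ log ((n : ℝ) + 2) :=
    Real.log_le_log (by norm_num) (by linarith [Nat.cast_nonneg (α := ℝ) n])
  have hlg : (Nat.log 2 (n + 1) : ℝ) * log 2 ≤ log ((n : ℝ) + 2) := by
    have h1 : 2 ^ Nat.log 2 (n + 1) ≤ n + 1 := Nat.pow_log_le_self 2 (by omega)
    have h2 : (2 : ℝ) ^ Nat.log 2 (n + 1) ≤ (n : ℝ) + 2 := by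
      have : (2 : ℝ) ^ Nat.log 2 (n + 1) ≤ (n : ℝ) + 1 := by exact_mod_cast h1
      linarith
    rw [← Real.log_pow]
    exact Real.log_le_log (by positivity) h2
  have hpl : 2 * ((p : ℝ) + 1) ≤ 20 * log ((n : ℝ) + 2) := by
    have e : (p : ℝ) = Nat.log 2 (n + 1) + 4 := by rw [hp]; push_cast; ring
    have h0 : (0 : ℝ) ≤ Nat.log 2 (n + 1) := Nat.cast_nonneg _
    rw [e]
    nlinarith
  have h6 := pow_le_pow_left₀ (by positivity) hpl 6
  have h7 : 0 < a ^ 2 := by positivity
  rw [mul_pow (20 : ℝ)] at h6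
  rw [hl1]
  nlinarith

end Vale.Agent.P245
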