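import Vale.Agent.P245.Key2
import Vale.Agent.P245.Apr
import Vale.Agent.P245.Tight2

open MeasureTheory Real Set
open scoped RealInnerProductSpace ENNReal

namespace Vale.Agent.P245

variable {n : ℕ}

theorem iter2_abs (P : ℝ → ℝ → Prop) (mono : ∀ l d d', P l d → d ≤ d' → P l d') (p : ℕ)
    (hp1 : 1 ≤ p) {l1 A B : ℝ} (hl1 : 0 < l1) (hA : 0 ≤ A) (hB : 0 < B)
    (hkey : ∀ l d1 d2 d3, l1 ≤ l → P ((1 - 1 / (2 * ((p : ℝ) + 1))) * l) d1 →
      P ((1 + 1 / (2 * ((p : ℝ) + 1))) * l) d2 → P (2 * l) d3 →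
      P l (max ((d1 + 3 * d2) / 4) (10 * d3 / 9)))
    (hR : ∀ l, l1 ≤ l → P l (A / l)) (hn : ∀ l, l1 ≤ l → P l B) {e : ℝ} (he : 0 < e) :
    P (4 * l1) (B / 2 ^ (p + 1) + e) := by
  set δ : ℝ := 1 / (2 * ((p : ℝ) + 1)) with hδ
  have hp : (0 : ℝ) < (p : ℝ) + 1 := by positivity
  have hp' : (1 : ℝ) ≤ p := by exact_mod_cast hp1
  have hδ0 : 0 < δ := by positivity
  have hδp : δ * ((p : ℝ) + 1) = 1 / 2 := by rw [hδ]; field_simp
  have hδ1 : δ ≤ 1 / 4 := by nlinarith
  have hber : (1 : ℝ) / 2 ≤ (1 - δ) ^ (p + 1) := by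
    have := one_add_mul_le_pow (a := -δ) (by linarith) (p + 1)
    push_cast at this
    have e : (1 : ℝ) + -δ = 1 - δ := by ring
    rw [e] at this
    nlinarith
  have hber' : (3 : ℝ) / 2 ≤ (1 + δ) ^ (p + 1) := by
    have := one_add_mul_le_pow (a := δ) (by linarith) (p + 1)
    push_cast at this
    nlinarith
  have htwo : (2 : ℝ) ≤ 2 ^ (p + 1) := by
    have := one_add_mul_le_pow (a := (1 : ℝ)) (by norm_num) (p + 1)
    push_cast at this
    have e : (1 : ℝ) + 1 = 2 := by norm_num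
    rw [e] at this
    linarith
  have small : ∀ K, 0 ≤ K → ∀ l, l1 ≤ l → l ≤ 2 * l1 → P l (B * (2 * l1 / l) ^ (p + 1) + K / l) := by
    intro K hK l hl hc
    have hl0 : 0 < l := by linarith
    refine mono _ _ _ (hn l hl) ?_
    have h1 : 1 ≤ (2 * l1 / l) ^ (p + 1) := one_le_pow₀ ((one_le_div hl0).2 hc)
    have h2 : 0 ≤ K / l := by positivity
    nlinarith
  have sc : ∀ t l : ℝ, 0 < t → 0 < l →
      (2 * l1 / (t * l)) ^ (p + 1) = (2 * l1 / l) ^ (p + 1) / t ^ (p + 1) := by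
    intro t l ht hl
    rw [← div_pow]; congr 1; field_simp
  have step : ∀ K, 0 ≤ K → (∀ l, l1 ≤ l → P l (B * (2 * l1 / l) ^ (p + 1) + K / l)) →
      ∀ l, l1 ≤ l → P l (B * (2 * l1 / l) ^ (p + 1) + (1 - δ / 4) * K / l) := by
    intro K hK h l hl
    have hl0 : 0 < l := by linarith
    by_cases hc : l ≤ 2 * l1
    · exact small _ (mul_nonneg (by linarith) hK) l hl hc
    push Not at hc
    have h2 := hkey l _ _ _ hl (h _ (by nlinarith)) (h _ (by nlinarith)) (h (2 * l) (by linarith))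
    refine mono _ _ _ h2 ?_
    rw [sc _ l (by linarith) hl0, sc _ l (by linarith) hl0, sc _ l (by linarith) hl0]
    have hX : 0 ≤ (2 * l1 / l) ^ (p + 1) := by positivity
    generalize (2 * l1 / l) ^ (p + 1) = X at hX
    have a1 : X / (1 - δ) ^ (p + 1) ≤ X / (1 / 2) := div_le_div_of_nonneg_left hX (by norm_num) hber
    have a2 : X / (1 + δ) ^ (p + 1) ≤ X / (3 / 2) := div_le_div_of_nonneg_left hX (by norm_num) hber'
    have a3 : X / 2 ^ (p + 1) ≤ X / 2 := div_le_div_of_nonneg_left hX (by norm_num) htwo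
    have b1 := mul_le_mul_of_nonneg_left a1 hB.le
    have b2 := mul_le_mul_of_nonneg_left a2 hB.le
    have b3 := mul_le_mul_of_nonneg_left a3 hB.le
    have hY : 0 ≤ K / l := by positivity
    have e1 : K / ((1 - δ) * l) + 3 * (K / ((1 + δ) * l)) =
        (4 - 2 * δ) / (1 - δ ^ 2) * (K / l) := by
      have : 1 - δ ≠ 0 := by linarith
      have : 1 + δ ≠ 0 := by linarith
      have e : 1 - δ ^ 2 = (1 - δ) * (1 + δ) := by ring
      rw [e]; field_simp; ring
    have e2 : (4 - 2 * δ) / (1 - δ ^ 2) ≤ 4 - δ := by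
      rw [div_le_iff₀ (by nlinarith)]
      nlinarith [pow_pos hδ0 3]
    have e3 := mul_le_mul_of_nonneg_right e2 hY
    have e4 : K / (2 * l) = K / l / 2 := by field_simp
    have e5 : (1 - δ / 4) * K / l = (1 - δ / 4) * (K / l) := by ring
    have e6 := mul_le_mul_of_nonneg_right hδ1 hY
    have hBX := mul_nonneg hB.le hX
    rw [e4, e5]
    refine max_le ?_ ?_ <;> linarith
  have all : ∀ j : ℕ, ∀ l, l1 ≤ l →
      P l (B * (2 * l1 / l) ^ (p + 1) + (1 - δ / 4) ^ j * A / l) := by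
    intro j
    induction j with
    | zero =>
      intro l hl
      have hl0 : 0 < l := by linarith
      refine mono _ _ _ (hR l hl) ?_
      have : 0 ≤ B * (2 * l1 / l) ^ (p + 1) := by positivity
      rw [pow_zero, one_mul]; linarith
    | succ j ih =>
      intro l hl
      have := step _ (mul_nonneg (pow_nonneg (by linarith) j) hA) ih l hl
      rwa [← mul_assoc, ← pow_succ'] at this
  obtain ⟨j, hj⟩ := exists_pow_lt_of_lt_one (x := e * (4 * l1) / (A + 1)) (y := 1 - δ / 4)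
    (by positivity) (by linarith)
  refine mono _ _ _ (all j (4 * l1) (by linarith)) (add_le_add (le_of_eq ?_) ?_)
  · have : 2 * l1 / (4 * l1) = 1 / 2 := by field_simp; norm_num
    rw [this, one_div_pow]; ring
  · rw [lt_div_iff₀ (by positivity)] at hj
    rw [div_le_iff₀ (by positivity)]
    have : 0 ≤ (1 - δ / 4) ^ j := pow_nonneg (by linarith) j
    nlinarith

theorem core2 : ∃ C : ℝ, 0 ≤ C ∧ ∀ (n : ℕ) (μ : Measure (E n)) (R a : ℝ) (c : E n), Good μ R →
    LC μ R → 0 < a → SG μ a c → ∀ f : E n → ℝ, ContDiff ℝ 1 f →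
    Ent μ (fun x => f x ^ 2) ≤ C * (log (n + 2) ^ 3 * log (log (n + 16)) ^ 2) * a ^ 2 *
      ∫ x, ‖fderiv ℝ f x‖ ^ 2 ∂μ := by
  refine ⟨1000 * (4 * (10 ^ 6 * 20 ^ 3 * 7 ^ 2)), by positivity, ?_⟩
  intro n μ R a c hμ hL ha hSG f hf
  set p : ℕ := Nat.log 2 (n + 1) + 4 with hp
  have hp0 : (0 : ℝ) < (p : ℝ) + 1 := by positivity
  have hp1 : (1 : ℝ) ≤ (p : ℝ) + 1 := by linarith [Nat.cast_nonneg (α := ℝ) p]
  set L : ℝ := log (40 * ((p : ℝ) + 1)) with hLd
  have hL1 : 1 ≤ L := by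
    rw [hLd, le_log_iff_exp_le (by positivity)]
    linarith [exp_one_lt_d9]
  set l1 : ℝ := 10 ^ 6 * a ^ 2 * L ^ 2 * (2 * ((p : ℝ) + 1)) ^ 3 with hl1
  have hl10 : 0 < l1 := by positivity
  have hD := iter2_abs (Def μ) (fun l d d' h hd g hg hN => (h g hg hN).trans (by linarith)) p
    (by omega) (A := 2 * R ^ 2) (B := (n : ℝ) + 1) hl10 (by positivity) (by positivity)
    (fun l d1 d2 d3 hl h1 h2 h3 => key2 hμ hL ha hSG (by positivity)
      (by rw [div_le_div_iff₀ (by positivity) (by positivity)]; linarith) (by linarith)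
      (by
        have e : l * (1 / (2 * ((p : ℝ) + 1))) ^ 3 = l / (2 * ((p : ℝ) + 1)) ^ 3 := by
          field_simp
        have e' : 20 / (1 / (2 * ((p : ℝ) + 1))) = 40 * ((p : ℝ) + 1) := by
          field_simp; norm_num
        rw [e, e', le_div_iff₀ (by positivity)]
        exact hl) h1 h2 h3)
    (fun l hl => def_R hμ hL (by linarith))
    (fun l hl g hg hN => (def_n hμ hL ha hSG (lam := l) (by
        have h1 : (1 : ℝ) ≤ L ^ 2 * (2 * ((p : ℝ) + 1)) ^ 3 :=
          one_le_mul_of_one_le_of_one_le (one_le_pow₀ hL1) (one_le_pow₀ (by linarith))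
        have h2 : 0 < a ^ 2 := by positivity
        nlinarith) g hg hN).trans (by linarith)) (e := 3 / 80) (by norm_num)
  have hsmall : ((n : ℝ) + 1) / 2 ^ (p + 1) ≤ 1 / 16 := by
    have h1 : n + 1 < 2 ^ (Nat.log 2 (n + 1) + 1) := Nat.lt_pow_succ_log_self (by norm_num) _
    have h2 : ((n : ℝ) + 1) < 2 ^ (Nat.log 2 (n + 1) + 1) := by exact_mod_cast h1
    have e : (2 : ℝ) ^ (p + 1) = 16 * 2 ^ (Nat.log 2 (n + 1) + 1) := by rw [hp]; ring
    rw [e, div_le_div_iff₀ (by positivity) (by norm_num)]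
    linarith
  have hD' : Def μ (4 * l1) (1 / 10) := fun g hg hN => (hD g hg hN).trans (by linarith)
  have ht := tight hμ hD' (by positivity) hf
  refine ht.trans (mul_le_mul_of_nonneg_right ?_ (integral_nonneg fun x => by positivity))
  have hn0 := Nat.cast_nonneg (α := ℝ) n
  have hlog2 : (0.69 : ℝ) ≤ log 2 := by linarith [Real.log_two_gt_d9]
  have hL2 : log 2 ≤ log ((n : ℝ) + 2) := Real.log_le_log (by norm_num) (by linarith)
  have hlg : (Nat.log 2 (n + 1) : ℝ) * log 2 ≤ log ((n : ℝ) + 2) := by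
    have h1 : 2 ^ Nat.log 2 (n + 1) ≤ n + 1 := Nat.pow_log_le_self 2 (by omega)
    have h2 : (2 : ℝ) ^ Nat.log 2 (n + 1) ≤ (n : ℝ) + 2 := by
      have : (2 : ℝ) ^ Nat.log 2 (n + 1) ≤ (n : ℝ) + 1 := by exact_mod_cast h1
      linarith
    rw [← Real.log_pow]
    exact Real.log_le_log (by positivity) h2
  have hpl : 2 * ((p : ℝ) + 1) ≤ 20 * log ((n : ℝ) + 2) := by
    have e : (p : ℝ) = Nat.log 2 (n + 1) + 4 := by rw [hp]; push_cast; ring
    have h0 : (0 : ℝ) ≤ Nat.log 2 (n + 1) := Nat.cast_nonneg _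
    rw [e]
    nlinarith
  have h16 : exp 1 ≤ log ((n : ℝ) + 16) := by
    have h1 : log ((2 : ℝ) ^ 4) ≤ log ((n : ℝ) + 16) := Real.log_le_log (by norm_num) (by linarith)
    rw [Real.log_pow] at h1
    push_cast at h1
    linarith [exp_one_lt_d9]
  have hll : 1 ≤ log (log ((n : ℝ) + 16)) := by
    rwa [le_log_iff_exp_le (lt_of_lt_of_le (exp_pos 1) h16)]
  have hLl : L ≤ 7 * log (log ((n : ℝ) + 16)) := by
    have h1 : log ((n : ℝ) + 2) ≤ log ((n : ℝ) + 16) := Real.log_le_log (by linarith) (by linarith)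
    have h2 : (400 : ℝ) ≤ exp 6 := by
      have h3 : (2.7182818283 : ℝ) ^ 6 ≤ exp 1 ^ 6 :=
        pow_le_pow_left₀ (by norm_num) exp_one_gt_d9.le 6
      rw [← exp_nat_mul] at h3
      norm_num at h3 ⊢
      linarith
    have h4 : 0 < log ((n : ℝ) + 16) := lt_of_lt_of_le (exp_pos 1) h16
    have h5 : L ≤ log (exp 6 * log ((n : ℝ) + 16)) :=
      Real.log_le_log (by positivity) (by nlinarith)
    rw [log_mul (exp_pos 6).ne' h4.ne', log_exp] at h5
    linarith
  have h6 := pow_le_pow_left₀ (by positivity) hpl 3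
  have h7 := pow_le_pow_left₀ (by linarith) hLl 2
  have h8 := mul_le_mul h7 h6 (by positivity) (by positivity)
  have h9 := mul_le_mul_of_nonneg_left h8 (sq_nonneg a)
  rw [hl1]
  nlinarith

end Vale.Agent.P245
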