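import Vale.Agent.P245.Fub

open MeasureTheory Real Set
open scoped RealInnerProductSpace ENNReal

namespace Vale.Agent.P245

variable {n : ℕ}

/-! The mean of `Mg` under a measure of small entropy is small (the only use of subgaussianity
besides the a priori bound).
`av_young`: if `f` is `Bd` and `exp (f s y) * pp μ 0 s y ≤ w s y` in the mean, then
`∫ e^g' Av f ≤ Hh g'`: by `integral_Av` it is `(S-s0)⁻¹ ∫ p' f`; with `q = pp 0`, Young
`p' f ≤ p' uu g' - p' + q exp f`, and `p' uu g' ≤ p' (uu g' + Hy g') = PP (e^g' g')`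
(`Hy_nonneg`); `integral_tau_PP`.
`mean_le`: let `m = ∫ e^g' • Mg`, `ζ = (s0/(4a²)) • m`, `ψp x = ⟪ζ, x - c⟫ - a²‖ζ‖²`,
`ψm x = -⟪ζ, x - c⟫ - a²‖ζ‖²` (both have `∫ exp ψ ≤ 1` by `SG`). `post_dv` for `(g, ψp)` and `(0, ψm)`:
`⟪ζ, av g - av 0⟫ ≤ 2a²‖ζ‖² + Hy g + uu ψp + uu ψm`. Multiply by `θ = s0/s ∈ (0,1]`:
`s0 ⟪ζ, NN⟫ ≤ 2a²‖ζ‖² + Hy g + θ uu ψp + θ uu ψm`; apply `Av` (`Av_clm`, `Av_mono`, `Av_add`,
`Av_const`), integrate against `e^g' μ`; `exp (θ u) ≤ θ exp u + 1 - θ` and `exp_uu` give the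
hypothesis of `av_young` for `f = θ uu ψ`. -/

variable {μ : Measure (E n)} {R : ℝ} {g g' : E n → ℝ} {a s0 S : ℝ} {c : E n}

theorem mean_bd_exp {f : ℝ → E n → ℝ} {C : ℝ} (hf : Bd s0 S C f) :
    Bd s0 S (exp C) fun s y => exp (f s y) :=
  ⟨continuous_exp.comp_stronglyMeasurable hf.meas, fun s hs y => by
    rw [Real.norm_of_nonneg (exp_pos _).le]
    exact exp_le_exp.2 ((le_abs_self _).trans (hf.bd s hs y))⟩

theorem mean_bd_add {f f' : ℝ → E n → ℝ} {C C' : ℝ} (hf : Bd s0 S C f) (hf' : Bd s0 S C' f') :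
    Bd s0 S (C + C') fun s y => f s y + f' s y :=
  ⟨hf.meas.add hf'.meas, fun s hs y =>
    (norm_add_le _ _).trans (add_le_add (hf.bd s hs y) (hf'.bd s hs y))⟩

theorem av_young (hμ : Good μ R) (hg' : Continuous g') (hN : Nm μ g') (hs : 0 < s0) (hS : s0 < S)
    {f : ℝ → E n → ℝ} {C : ℝ} (hf : Bd s0 S C f)
    (h : ∫ z, pp μ 0 z.1 z.2 * exp (f z.1 z.2) ∂(tau n s0 S) ≤ S - s0) :
    ∫ x, exp (g' x) * Av s0 S f x ∂μ ≤ Hh μ g' := by
  refine (integral_Av hf hs hμ hg').trans_le ?_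
  have i0 := hf.integrable_pp hs hμ hg'
  have i1 := integrable_tau_PP (S := S) hμ hs (φ := fun x => exp (g' x)) (by fun_prop)
  have i2 := integrable_tau_PP (S := S) hμ hs (φ := fun x => exp (g' x) * g' x) (by fun_prop)
  have i3 : Integrable (fun z : ℝ × E n => pp μ 0 z.1 z.2 * exp (f z.1 z.2)) (tau n s0 S) :=
    (mean_bd_exp hf).integrable_pp hs hμ continuous_zero
  have k := integral_mono_ae (i0.add i1) (i2.add i3) ((tau_ae n s0 S).mono fun z hz => by
    have s1 := hs.trans hz.1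
    have p := pp_pos hμ hg' s1 z.2
    have q := pp_pos hμ continuous_zero s1 z.2
    have k1 := mul_le_mul_of_nonneg_left (add_one_le_exp (f z.1 z.2 - uu μ g' z.1 z.2)) p.le
    have k2 : pp μ g' z.1 z.2 * exp (f z.1 z.2 - uu μ g' z.1 z.2) =
        pp μ 0 z.1 z.2 * exp (f z.1 z.2) := by
      rw [exp_sub, exp_uu hμ hg' s1]
      field_simp
    have k3 := mul_nonneg p.le (Hy_nonneg hμ hg' s1 z.2)
    rw [Hy, mul_sub, mul_div_cancel₀ _ p.ne'] at k3
    simp only [mul_right_comm _ _ (g' _)] at k3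
    simp only [Pi.add_apply, ← pp_eq_PP, smul_eq_mul]
    rw [PP]
    linarith)
  simp only [Pi.add_apply] at k
  rw [integral_add i0 i1, integral_add i2 i3, integral_tau_PP hμ hs hS (by fun_prop),
    integral_tau_PP hμ hs hS (by fun_prop), show ∫ x, exp (g' x) ∂μ = 1 from hN, ← Hh] at k
  rw [smul_eq_mul, inv_mul_le_iff₀ (sub_pos.2 hS)]
  linarith

/-- The tilt used in the duality argument. -/
noncomputable def mean_psi (a : ℝ) (c ζ x : E n) : ℝ := ⟪ζ, x⟫ + (-⟪ζ, c⟫ - a ^ 2 * ‖ζ‖ ^ 2)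

theorem mean_cpsi (a : ℝ) (c ζ : E n) : Continuous (mean_psi a c ζ) := by
  unfold mean_psi
  fun_prop

theorem mean_post (hμ : Good μ R) (hg : Continuous g) {s : ℝ} (hs : 0 < s) (a : ℝ) (c ζ y : E n) :
    ⟪ζ, av μ g s y⟫ + (-⟪ζ, c⟫ - a ^ 2 * ‖ζ‖ ^ 2) ≤ Hy μ g s y + uu μ (mean_psi a c ζ) s y := by
  refine le_of_eq_of_le ?_ (post_dv hμ hg hs (mean_cpsi a c ζ) y)
  have k := continuous_gk_right s y
  simp only [mean_psi, mul_add]
  rw [integral_add (hμ.integrable (by fun_prop)) (hμ.integrable (by fun_prop)), add_div,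
    ← inner_av hμ hg hs, integral_mul_const, ← pp, mul_div_cancel_left₀ _ (pp_pos hμ hg hs y).ne']

theorem mean_tilt (hμ : Good μ R) (hSG : SG μ a c) (hg' : Continuous g') (hN : Nm μ g')
    (hs : 0 < s0) (hS : s0 < S) (ζ : E n) : ∃ C : ℝ,
      (Bd s0 S C fun s y => s0 / s * uu μ (mean_psi a c ζ) s y) ∧
      ∫ x, exp (g' x) * Av s0 S (fun s y => s0 / s * uu μ (mean_psi a c ζ) s y) x ∂μ ≤ Hh μ g' := by
  have := hμ.prob
  have cp := mean_cpsi a c ζ
  obtain ⟨M, M0, hM⟩ := exists_bd cp R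
  have θ : ∀ s ∈ Ioc s0 S, 0 ≤ s0 / s ∧ s0 / s ≤ 1 := fun s h =>
    ⟨div_nonneg hs.le (hs.trans h.1).le, (div_le_one (hs.trans h.1)).2 h.1.le⟩
  have b : Bd s0 S M fun s y => s0 / s * uu μ (mean_psi a c ζ) s y :=
    ⟨(measurable_const.div measurable_fst).stronglyMeasurable.mul (sm_uu hμ cp), fun s h y => by
      rw [norm_mul, Real.norm_of_nonneg (θ s h).1]
      exact (mul_le_of_le_one_left (norm_nonneg _) (θ s h).2).trans
        (abs_uu_le hμ cp (hs.trans h.1) hM y)⟩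
  refine ⟨M, b, av_young hμ hg' hN hs hS b ?_⟩
  have k0 : ∫ x, exp (mean_psi a c ζ x) ∂μ ≤ 1 := by
    have e : ∀ x, exp (mean_psi a c ζ x) = exp ⟪ζ, x - c⟫ / exp (a ^ 2 * ‖ζ‖ ^ 2) := fun x => by
      rw [← exp_sub, mean_psi, inner_sub_right]
      congr 1
      ring
    simp only [e]
    rw [integral_div, div_le_one (exp_pos _)]
    exact hSG ζ
  have i3 : Integrable (fun z : ℝ × E n => pp μ 0 z.1 z.2 *
      exp (s0 / z.1 * uu μ (mean_psi a c ζ) z.1 z.2)) (tau n s0 S) :=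
    (mean_bd_exp b).integrable_pp hs hμ continuous_zero
  rw [integral_tau hS i3]
  refine (Real.le_norm_self _).trans ((intervalIntegral.norm_integral_le_of_norm_le_const (C := 1)
    fun s h => ?_).trans_eq (by rw [one_mul, abs_of_pos (sub_pos.2 hS)]))
  rw [uIoc_of_le hS.le] at h
  have s1 := hs.trans h.1
  have q := pp_pos hμ continuous_zero s1
  have j1 := (integrable_pp hμ cp s1).const_mul (s0 / s)
  have j2 := (integrable_pp hμ continuous_zero s1).const_mul (1 - s0 / s)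
  rw [Real.norm_of_nonneg (integral_nonneg fun y => mul_nonneg (q y).le (exp_pos _).le)]
  refine (integral_mono_of_nonneg (.of_forall fun y => mul_nonneg (q y).le (exp_pos _).le)
    (j1.add j2) (.of_forall fun y => ?_)).trans ?_
  · have k := convexOn_exp.2 (mem_univ (uu μ (mean_psi a c ζ) s y)) (mem_univ 0) (θ s h).1
      (sub_nonneg.2 (θ s h).2) (add_sub_cancel _ _)
    simp only [smul_eq_mul, mul_zero, add_zero, exp_zero, exp_uu hμ cp s1] at k
    refine (mul_le_mul_of_nonneg_left k (q y).le).trans_eq ?_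
    have := (q y).ne'
    simp only [Pi.add_apply]
    field_simp
  · simp only [Pi.add_apply]
    rw [integral_add j1 j2, integral_const_mul, integral_const_mul, integral_pp hμ cp s1,
      integral_pp hμ continuous_zero s1]
    simp only [Pi.zero_apply, exp_zero, integral_const, probReal_univ, smul_eq_mul]
    linarith [mul_le_mul_of_nonneg_left k0 (θ s h).1]

theorem mean_le (hμ : Good μ R) (ha : 0 < a) (hSG : SG μ a c) (hg : Continuous g)
    (hg' : Continuous g') (hN : Nm μ g') (hs : 0 < s0) (hS : s0 < S) :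
    ‖∫ x, exp (g' x) • Mg μ g s0 S x ∂μ‖ ^ 2 ≤
      8 * a ^ 2 / s0 ^ 2 * (2 * Hh μ g' + ∫ x, exp (g' x) * Gg μ g s0 S x ∂μ) := by
  obtain ⟨M, -, hM⟩ := exists_bd hg R
  have bN := bd_NN (S := S) hμ hg hs
  have bH := bd_Hy (S := S) hμ hg hs hM
  have cM : Continuous (Mg μ g s0 S) := continuous_Av bN hs
  have cG : Continuous (Gg μ g s0 S) := continuous_Av bH hs
  have key : ∀ ζ : E n, s0 * ⟪ζ, ∫ x, exp (g' x) • Mg μ g s0 S x ∂μ⟫ ≤ 2 * a ^ 2 * ‖ζ‖ ^ 2 +
      (2 * Hh μ g' + ∫ x, exp (g' x) * Gg μ g s0 S x ∂μ) := fun ζ => by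
    obtain ⟨C1, b1, k1⟩ := mean_tilt hμ hSG hg' hN hs hS ζ
    obtain ⟨C2, b2, k2⟩ := mean_tilt hμ hSG hg' hN hs hS (-ζ)
    have c1 := continuous_Av b1 hs
    have c2 := continuous_Av b2 hs
    have b0 : Bd s0 S ‖2 * a ^ 2 * ‖ζ‖ ^ 2‖ fun (_ : ℝ) (_ : E n) => 2 * a ^ 2 * ‖ζ‖ ^ 2 :=
      ⟨stronglyMeasurable_const, fun _ _ _ => le_rfl⟩
    have bL : Bd s0 S (‖s0 • innerSL ℝ ζ‖ * (2 * R / s0))
        fun s y => (s0 • innerSL ℝ ζ) (NN μ g s y) :=
      ⟨(s0 • innerSL ℝ ζ).continuous.comp_stronglyMeasurable bN.meas,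
        fun s h y => (s0 • innerSL ℝ ζ).le_opNorm_of_le (bN.bd s h y)⟩
    have pt : ∀ x, s0 * ⟪ζ, Mg μ g s0 S x⟫ ≤ 2 * a ^ 2 * ‖ζ‖ ^ 2 + Gg μ g s0 S x +
        Av s0 S (fun s y => s0 / s * uu μ (mean_psi a c ζ) s y) x +
        Av s0 S (fun s y => s0 / s * uu μ (mean_psi a c (-ζ)) s y) x := fun x => by
      have h := Av_mono bL (mean_bd_add (mean_bd_add (mean_bd_add b0 bH) b1) b2) hs hS
        (fun s h y => by
          have s1 := hs.trans h.1
          have p1 := mean_post hμ hg s1 a c ζ y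
          have p2 := mean_post hμ continuous_zero s1 a c (-ζ) y
          rw [Hy_zero, inner_neg_left, inner_neg_left, norm_neg] at p2
          have θ0 : 0 ≤ s0 / s := by positivity
          have θ1 : s0 / s ≤ 1 := (div_le_one s1).2 h.1.le
          have p3 := mul_le_mul_of_nonneg_left (add_le_add p1 p2) θ0
          have p4 := mul_le_of_le_one_left (Hy_nonneg hμ hg s1 y) θ1
          have p5 := mul_le_of_le_one_left (show 0 ≤ 2 * a ^ 2 * ‖ζ‖ ^ 2 by positivity) θ1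
          simp only [NN, smul_apply, innerSL_apply_apply, inner_smul_right,
            inner_sub_right, smul_eq_mul, ← mul_assoc, ← div_eq_mul_inv]
          linarith) x
      rwa [← Av_clm _ bN hs, Av_add (mean_bd_add (mean_bd_add b0 bH) b1) b2 hs,
        Av_add (mean_bd_add b0 bH) b1 hs, Av_add b0 bH hs, Av_const hs hS] at h
    generalize Av s0 S (fun s y => s0 / s * uu μ (mean_psi a c ζ) s y) = A1 at c1 k1 pt
    generalize Av s0 S (fun s y => s0 / s * uu μ (mean_psi a c (-ζ)) s y) = A2 at c2 k2 pt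
    have h := integral_mono (f := fun x => exp (g' x) * (s0 * ⟪ζ, Mg μ g s0 S x⟫))
      (g := fun x => exp (g' x) * (2 * a ^ 2 * ‖ζ‖ ^ 2 + Gg μ g s0 S x + A1 x + A2 x))
      (hμ.integrable (by fun_prop)) (hμ.integrable (by fun_prop))
      fun x => mul_le_mul_of_nonneg_left (pt x) (exp_pos (g' x)).le
    simp only [mul_add] at h
    rw [integral_add (hμ.integrable (by fun_prop)) (hμ.integrable (by fun_prop)),
      integral_add (hμ.integrable (by fun_prop)) (hμ.integrable (by fun_prop)),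
      integral_add (hμ.integrable (by fun_prop)) (hμ.integrable (by fun_prop)), integral_mul_const,
      show ∫ x, exp (g' x) ∂μ = 1 from hN] at h
    rw [← integral_inner (hμ.integrable (by fun_prop)), ← integral_const_mul]
    simp only [inner_smul_right, mul_left_comm s0]
    linarith
  have h := key ((s0 / (4 * a ^ 2)) • ∫ x, exp (g' x) • Mg μ g s0 S x ∂μ)
  rw [real_inner_smul_left, real_inner_self_eq_norm_sq, norm_smul,
    Real.norm_of_nonneg (by positivity)] at h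
  generalize ‖∫ x, exp (g' x) • Mg μ g s0 S x ∂μ‖ = m at h ⊢
  generalize 2 * Hh μ g' + ∫ x, exp (g' x) * Gg μ g s0 S x ∂μ = X at h ⊢
  have e : m ^ 2 = 8 * a ^ 2 / s0 ^ 2 *
      (s0 * (s0 / (4 * a ^ 2) * m ^ 2) - 2 * a ^ 2 * (s0 / (4 * a ^ 2) * m) ^ 2) := by
    field_simp
    ring
  rw [e]
  exact mul_le_mul_of_nonneg_left (by linarith) (by positivity)

end Vale.Agent.P245
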