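import Vale.Agent.P245.Post

open MeasureTheory Real Set
open scoped RealInnerProductSpace ENNReal

namespace Vale.Agent.P245

variable {n : ℕ}

/-! Log-Sobolev inequality for the posterior (Bobkov-Ledoux argument from `LC`).
Let `φ x = log (gk s y x)` (so `exp φ = gk`; `φ x = c - ‖y - x‖²/(2s)`), `p = pp g`, `q = pp 0`,
`t' = 1 - t`. Identity: `t φ x + t' φ w = φ (t•x+t'•w) - t t' ‖x-w‖²/(2s)`.
Fix `ε > 0`. `fderiv g` is uniformly continuous on the closed `R`-ball, so for `t'` small and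
`x, w` in the ball, `z = t•x+t'•w`, `x - z = t'•(x-w)`, the mean value inequality
(`Convex.norm_image_sub_le_of_norm_fderiv_le'` or similar) gives
`g x ≤ g z + (‖fderiv g z‖ + ε) t' ‖x-w‖`, hence
`g x - t t' ‖x-w‖²/(2s) ≤ g z + t' ψ z` with `ψ z = s (‖fderiv g z‖+ε)²/(2t)`.
Apply `LC` to `U = g/t + φ`, `V = φ`, `W = φ + g + t' ψ`.
Left side: `post_dv` with `ψ := g/t` gives (`uu (g/t) = log ∫ exp U - log q`, `m = (∫ e^g gk g)/p`,
`Hy = m - log p + log q`): `t log ∫ exp U + t' log q ≥ log p + t' Hy`.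
Right side: `log ∫ e^g gk e^(t'ψ) - log p ≤ (∫ e^g gk (e^(t'ψ) - 1))/p ≤ t' (∫ e^g gk ψ)/p + t'² M²`
(`exp u ≤ 1 + u + u²` for `|u| ≤ 1`, `ψ ≤ M` on the ball for `t ≥ 1/2`).
Divide by `t'`, let `t' → 0`, then `ε → 0`. -/

variable {μ : Measure (E n)} {R : ℝ} {g : E n → ℝ} {s : ℝ}

theorem slc1_mv (hg : ContDiff ℝ 1 g) (R : ℝ) {ε : ℝ} (hε : 0 < ε) :
    ∃ δ : ℝ, 0 < δ ∧ ∀ x z : E n, ‖x‖ ≤ R → ‖z‖ ≤ R → ‖x - z‖ < δ →
      g x - g z ≤ (‖fderiv ℝ g z‖ + ε) * ‖x - z‖ := by
  obtain ⟨δ, hδ, h⟩ := Metric.uniformContinuousOn_iff.1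
    ((isCompact_closedBall (0 : E n) R).uniformContinuousOn_of_continuous
      (hg.continuous_fderiv one_ne_zero).continuousOn) ε hε
  refine ⟨δ, hδ, fun x z hx hz hxz => (le_abs_self _).trans ?_⟩
  refine ((convex_closedBall (0 : E n) R).inter (convex_ball z δ)).norm_image_sub_le_of_norm_fderiv_le
    (𝕜 := ℝ) (fun u _ => hg.differentiable one_ne_zero u) (fun u hu => ?_)
    ⟨mem_closedBall_zero_iff.2 hz, Metric.mem_ball_self hδ⟩
    ⟨mem_closedBall_zero_iff.2 hx, mem_ball_iff_norm.2 hxz⟩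
  have := h u hu.1 z (mem_closedBall_zero_iff.2 hz) hu.2
  rw [dist_eq_norm] at this
  linarith [norm_sub_norm_le (fderiv ℝ g u) (fderiv ℝ g z)]

theorem slc1_id (hs : 0 < s) (y x w : E n) (t : ℝ) :
    t * log (gk s y x) + (1 - t) * log (gk s y w) =
      log (gk s y (t • x + (1 - t) • w)) - t * (1 - t) * ‖x - w‖ ^ 2 / (2 * s) := by
  have h1 := log_gk_sub hs y x (t • x + (1 - t) • w)
  have h2 := log_gk_sub hs y w (t • x + (1 - t) • w)
  have h3 : ‖y - (t • x + (1 - t) • w)‖ ^ 2 = t * ‖y - x‖ ^ 2 + (1 - t) * ‖y - w‖ ^ 2 -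
      t * (1 - t) * ‖x - w‖ ^ 2 := by
    rw [show y - (t • x + (1 - t) • w) = t • (y - x) + (1 - t) • (y - w) by module,
      show x - w = (y - w) - (y - x) by abel, norm_add_sq_real, norm_sub_sq_real (y - w),
      norm_smul, norm_smul, mul_pow, mul_pow, Real.norm_eq_abs, Real.norm_eq_abs, sq_abs, sq_abs,
      real_inner_smul_left, real_inner_smul_right, real_inner_comm (y - x)]
    ring
  rw [sub_eq_iff_eq_add.1 h1, sub_eq_iff_eq_add.1 h2, h3]
  ring

theorem slc1_step (hμ : Good μ R) (hL : LC μ R) (hg : Continuous g) (hs : 0 < s) (y : E n) {t : ℝ}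
    (ht0 : 0 < t) (ht1 : t < 1) {a : E n → ℝ} (ha : Continuous a)
    (h : ∀ x w : E n, ‖x‖ ≤ R → ‖w‖ ≤ R → g x - t * (1 - t) * ‖x - w‖ ^ 2 / (2 * s) ≤
      g (t • x + (1 - t) • w) + a (t • x + (1 - t) • w)) :
    (1 - t) * (pp μ g s y * Hy μ g s y) ≤
      ∫ x, exp (g x) * gk s y x * exp (a x) ∂μ - pp μ g s y := by
  have c1 := continuous_gk_right s y
  have cφ : Continuous fun x => log (gk s y x) := c1.log fun x => (gk_pos hs y x).ne'
  have hp := pp_pos hμ hg hs y
  have H := hL t ht0 ht1 (fun x => g x / t + log (gk s y x)) (fun x => log (gk s y x))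
    (fun x => g x + log (gk s y x) + a x) (by fun_prop) cφ (by fun_prop) fun x w hx hw => by
      have := slc1_id hs y x w t
      have := h x w hx hw
      rw [mul_add, mul_div_cancel₀ _ ht0.ne']
      linarith
  have hpos := hμ.integral_exp_pos (g := fun x => g x + log (gk s y x) + a x) (by fun_prop)
  simp only [exp_add, exp_log (gk_pos hs y _)] at H hpos
  have D := post_dv hμ hg hs (ψ := fun x => g x / t) (by fun_prop) y
  simp only [← mul_div_assoc, integral_div] at D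
  rw [div_right_comm, div_le_iff₀ ht0, uu, pp_zero] at D
  have E1 : Hy μ g s y = (∫ x, exp (g x) * gk s y x * g x ∂μ) / pp μ g s y -
      (log (pp μ g s y) - log (∫ x, gk s y x ∂μ)) := by rw [Hy, uu, pp_zero]
  have E2 := log_le_sub_one_of_pos (div_pos hpos hp)
  rw [log_div hpos.ne' hp.ne', le_sub_iff_add_le, le_div_iff₀ hp] at E2
  change t * log (pp μ (fun x => g x / t) s y) + _ ≤ _ at H
  have E3 : (1 - t) * Hy μ g s y ≤ log (∫ x, exp (g x) * gk s y x * exp (a x) ∂μ) -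
      log (pp μ g s y) := by linarith
  nlinarith [mul_le_mul_of_nonneg_right E3 hp.le]

theorem post_lsi (hμ : Good μ R) (hL : LC μ R) (hg : ContDiff ℝ 1 g) (hs : 0 < s) (y : E n) :
    pp μ g s y * Hy μ g s y ≤ s / 2 * PP μ (fun x => exp (g x) * ‖fderiv ℝ g x‖ ^ 2) s y := by
  have hc := hg.continuous
  have hc' := (hg.continuous_fderiv one_ne_zero).norm
  have c1 := continuous_gk_right s y
  have hp := pp_pos hμ hc hs y
  have main : ∀ ε : ℝ, 0 < ε → pp μ g s y * Hy μ g s y ≤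
      s / 2 * (PP μ (fun x => exp (g x) * ‖fderiv ℝ g x‖ ^ 2) s y +
        2 * ε * (∫ x, exp (g x) * gk s y x * ‖fderiv ℝ g x‖ ∂μ) + ε ^ 2 * pp μ g s y) := by
    intro ε hε
    obtain ⟨δ, hδ, hmv⟩ := slc1_mv hg R hε
    have ca : Continuous fun z => s / 2 * (‖fderiv ℝ g z‖ + ε) ^ 2 := by fun_prop
    obtain ⟨M, hM0, hM⟩ := exists_bd ca R
    have eA : ∫ x, exp (g x) * gk s y x * (s / 2 * (‖fderiv ℝ g x‖ + ε) ^ 2) ∂μ =
        s / 2 * (PP μ (fun x => exp (g x) * ‖fderiv ℝ g x‖ ^ 2) s y +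
          2 * ε * (∫ x, exp (g x) * gk s y x * ‖fderiv ℝ g x‖ ∂μ) + ε ^ 2 * pp μ g s y) := by
      rw [PP, pp, ← integral_const_mul, ← integral_const_mul,
        ← integral_add (hμ.integrable (by fun_prop)) (hμ.integrable (by fun_prop)),
        ← integral_add (hμ.integrable (by fun_prop)) (hμ.integrable (by fun_prop)),
        ← integral_const_mul]
      exact integral_congr_ae (.of_forall fun x => by ring)
    rw [← eA]
    set A := ∫ x, exp (g x) * gk s y x * (s / 2 * (‖fderiv ℝ g x‖ + ε) ^ 2) ∂μ with hA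
    have ct : ContinuousAt (fun t : ℝ => (A + (1 - t) / t * M ^ 2 * pp μ g s y) / t) 1 := by
      fun_prop (disch := norm_num)
    have lim := ct.tendsto.mono_left (nhdsWithin_le_nhds (s := Iio 1))
    simp only [sub_self, zero_mul, add_zero, div_one] at lim
    refine ge_of_tendsto lim ?_
    have e1 : ∀ᶠ t in nhds (1 : ℝ), (1 - t) * (2 * R) < δ :=
      ContinuousAt.eventually_lt (by fun_prop) continuousAt_const (by simpa using hδ)
    have e2 : ∀ᶠ t in nhds (1 : ℝ), (1 - t) / t * M < 1 :=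
      ContinuousAt.eventually_lt (by fun_prop (disch := norm_num)) continuousAt_const (by simp)
    filter_upwards [self_mem_nhdsWithin, nhdsWithin_le_nhds e1, nhdsWithin_le_nhds e2,
      nhdsWithin_le_nhds (Ioi_mem_nhds one_pos)] with t ht1 h1 h2 ht0
    have ht0 : 0 < t := ht0
    have hτ : 0 < 1 - t := sub_pos.2 ht1
    have hσ : 0 < (1 - t) / t := div_pos hτ ht0
    have h3 := slc1_step hμ hL hc hs y ht0 ht1 (a := fun z => (1 - t) / t *
      (s / 2 * (‖fderiv ℝ g z‖ + ε) ^ 2)) (by fun_prop) fun x w hx hw => by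
        have hz : ‖t • x + (1 - t) • w‖ ≤ R := by
          refine (norm_add_le _ _).trans ?_
          rw [norm_smul, norm_smul, Real.norm_of_nonneg ht0.le, Real.norm_of_nonneg hτ.le]
          nlinarith
        have hn : ‖x - (t • x + (1 - t) • w)‖ = (1 - t) * ‖x - w‖ := by
          rw [show x - (t • x + (1 - t) • w) = (1 - t) • (x - w) by module, norm_smul,
            Real.norm_of_nonneg hτ.le]
        have h4 := hmv x _ hx hz (by
          rw [hn]
          refine lt_of_le_of_lt (mul_le_mul_of_nonneg_left ((norm_sub_le _ _).trans ?_) hτ.le) h1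
          linarith)
        rw [hn] at h4
        set L := ‖fderiv ℝ g (t • x + (1 - t) • w)‖ + ε
        have h5 : L * ‖x - w‖ ≤ t * ‖x - w‖ ^ 2 / (2 * s) + s / 2 * L ^ 2 / t := by
          rw [div_add_div _ _ (by positivity) ht0.ne', le_div_iff₀ (by positivity)]
          nlinarith [sq_nonneg (t * ‖x - w‖ - s * L)]
        have h6 := mul_le_mul_of_nonneg_left h5 hτ.le
        have h7 : (1 - t) * (t * ‖x - w‖ ^ 2 / (2 * s) + s / 2 * L ^ 2 / t) =
            t * (1 - t) * ‖x - w‖ ^ 2 / (2 * s) + (1 - t) / t * (s / 2 * L ^ 2) := by ring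
        linarith
    have h8 : ∫ x, exp (g x) * gk s y x * exp ((1 - t) / t * (s / 2 * (‖fderiv ℝ g x‖ + ε) ^ 2)) ∂μ
        ≤ pp μ g s y + (1 - t) / t * A + ((1 - t) / t * M) ^ 2 * pp μ g s y := by
      rw [hA, pp, ← integral_const_mul, ← integral_const_mul,
        ← integral_add (hμ.integrable (by fun_prop)) (hμ.integrable (by fun_prop)),
        ← integral_add (hμ.integrable (by fun_prop)) (hμ.integrable (by fun_prop))]
      refine integral_mono_ae (hμ.integrable (by fun_prop)) (hμ.integrable (by fun_prop)) ?_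
      filter_upwards [hμ.supp] with x hx
      have b1 : |(1 - t) / t * (s / 2 * (‖fderiv ℝ g x‖ + ε) ^ 2)| ≤ (1 - t) / t * M := by
        rw [abs_mul, abs_of_pos hσ]
        exact mul_le_mul_of_nonneg_left (hM x hx) hσ.le
      have b2 := le_of_abs_le (abs_exp_sub_one_sub_id_le (b1.trans h2.le))
      have b3 := pow_le_pow_left₀ (abs_nonneg _) b1 2
      rw [sq_abs] at b3
      have b4 := mul_le_mul_of_nonneg_left (b2.trans b3) (mul_pos (exp_pos (g x)) (gk_pos hs y x)).le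
      linarith
    refine le_of_mul_le_mul_left ?_ hτ
    have : (1 - t) * ((A + (1 - t) / t * M ^ 2 * pp μ g s y) / t) =
        (1 - t) / t * A + ((1 - t) / t * M) ^ 2 * pp μ g s y := by ring
    linarith
  have t1 : Continuous fun ε : ℝ => s / 2 * (PP μ (fun x => exp (g x) * ‖fderiv ℝ g x‖ ^ 2) s y +
      2 * ε * (∫ x, exp (g x) * gk s y x * ‖fderiv ℝ g x‖ ∂μ) + ε ^ 2 * pp μ g s y) := by fun_prop
  simpa using ge_of_tendsto ((t1.tendsto 0).mono_left (nhdsWithin_le_nhds (s := Ioi 0)))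
    (eventually_nhdsWithin_of_forall main)

end Vale.Agent.P245
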