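import Vale.Agent.P245.Fub
import Vale.Agent.P245.SLC1
import Vale.Agent.P245.SLC2

open MeasureTheory Real Set
open scoped RealInnerProductSpace ENNReal

namespace Vale.Agent.P245

variable {n : ℕ}

/-! Integrated consequences.
`ent_split`: `integral_Av` for `uu` and `Hy`; `pp * (uu + Hy) = PP (e^g g)`; `integral_tau_PP`.
`Tg_nonneg`: `p log (p/q) ≥ p - q` pointwise, `integral_tau_PP` for `e^g` and `1`.
`Gg_le`: `integral_Av`, `post_lsi`, `integral_tau`, `integral_PP`, `∫ s in s0..S, s = (S²-s0²)/2`.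
`JJ_le`: `post_T1`, `post_lsi`, `integral_PP`. -/

variable {μ : Measure (E n)} {R : ℝ} {g : E n → ℝ} {s s0 S : ℝ}

theorem continuous_Tg (hμ : Good μ R) (hg : Continuous g) (hs : 0 < s0) :
    Continuous (Tg μ g s0 S) := by
  obtain ⟨M, -, hM⟩ := exists_bd hg R
  exact continuous_Av (bd_uu hμ hg hs hM) hs

theorem continuous_Gg (hμ : Good μ R) (hg : Continuous g) (hs : 0 < s0) :
    Continuous (Gg μ g s0 S) := by
  obtain ⟨M, -, hM⟩ := exists_bd hg R
  exact continuous_Av (bd_Hy hμ hg hs hM) hs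

theorem ent_split (hμ : Good μ R) (hg : Continuous g) (hs : 0 < s0) (hS : s0 < S) :
    Hh μ g = (∫ x, exp (g x) * Tg μ g s0 S x ∂μ) + ∫ x, exp (g x) * Gg μ g s0 S x ∂μ := by
  obtain ⟨M, -, hM⟩ := exists_bd hg R
  have b1 : Bd s0 S M (uu μ g) := bd_uu hμ hg hs hM
  have b2 : Bd s0 S (2 * M) (Hy μ g) := bd_Hy hμ hg hs hM
  have h1 := integral_Av b1 hs hμ hg
  have h2 := integral_Av b2 hs hμ hg
  have h3 := integral_tau_PP hμ hs hS (φ := fun x => exp (g x) * g x) (by fun_prop)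
  have h4 : ∫ z, (pp μ g z.1 z.2 • uu μ g z.1 z.2 + pp μ g z.1 z.2 • Hy μ g z.1 z.2)
      ∂(tau n s0 S) = ∫ z, PP μ (fun x => exp (g x) * g x) z.1 z.2 ∂(tau n s0 S) := by
    refine integral_congr_ae ((tau_ae n s0 S).mono fun z hz => ?_)
    have p0 := (pp_pos hμ hg (hs.trans hz.1) z.2).ne'
    have e : PP μ (fun x => exp (g x) * g x) z.1 z.2 = ∫ x, exp (g x) * gk z.1 z.2 x * g x ∂μ := by
      unfold PP; congr 1; funext x; ring
    simp only [smul_eq_mul, Hy, e]
    field_simp; ring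
  rw [integral_add (b1.integrable_pp hs hμ hg) (b2.integrable_pp hs hμ hg), h3] at h4
  simp only [smul_eq_mul] at h1 h2 h4
  have h5 : S - s0 ≠ 0 := (sub_pos.2 hS).ne'
  rw [Tg, Gg, h1, h2, ← mul_add, h4, Hh]
  field_simp

theorem Tg_nonneg (hμ : Good μ R) (hg : Continuous g) (hN : Nm μ g) (hs : 0 < s0) (hS : s0 < S) :
    0 ≤ ∫ x, exp (g x) * Tg μ g s0 S x ∂μ := by
  have := hμ.prob
  obtain ⟨M, -, hM⟩ := exists_bd hg R
  have b1 : Bd s0 S M (uu μ g) := bd_uu hμ hg hs hM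
  have h1 := integral_Av b1 hs hμ hg
  have c1 : Continuous fun x => exp (g x) := by fun_prop
  have c0 : Continuous fun x : E n => exp ((0 : E n → ℝ) x) := by fun_prop
  have i1 := integrable_tau_PP (S := S) hμ hs c1
  have i0 := integrable_tau_PP (S := S) hμ hs c0
  have h2 := integral_mono_ae (i1.sub i0) (b1.integrable_pp hs hμ hg)
    ((tau_ae n s0 S).mono fun z hz => by
      have p0 := pp_pos hμ hg (hs.trans hz.1) z.2
      have q0 := pp_pos hμ (g := 0) continuous_zero (hs.trans hz.1) z.2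
      have h3 := mul_le_mul_of_nonneg_left (log_le_sub_one_of_pos (div_pos q0 p0)) p0.le
      rw [log_div q0.ne' p0.ne', mul_sub, mul_sub, mul_div_cancel₀ _ p0.ne'] at h3
      simp only [Pi.sub_apply, ← pp_eq_PP, smul_eq_mul, uu]
      linarith)
  simp only [Pi.sub_apply] at h2
  rw [integral_sub i1 i0, integral_tau_PP hμ hs hS c1, integral_tau_PP hμ hs hS c0,
    show ∫ x, exp (g x) ∂μ = 1 from hN] at h2
  simp only [smul_eq_mul] at h1 h2
  rw [Tg, h1]
  refine mul_nonneg (inv_nonneg.2 (sub_pos.2 hS).le) (le_trans (le_of_eq ?_) h2)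
  simp

theorem Gg_nonneg (hμ : Good μ R) (hg : Continuous g) (hs : 0 < s0) (hS : s0 < S) :
    0 ≤ ∫ x, exp (g x) * Gg μ g s0 S x ∂μ := by
  obtain ⟨M, -, hM⟩ := exists_bd hg R
  have h2 := integral_Av (S := S) (bd_Hy hμ hg hs hM) hs hμ hg
  simp only [smul_eq_mul] at h2
  rw [Gg, h2]
  exact mul_nonneg (inv_nonneg.2 (sub_pos.2 hS).le) (integral_nonneg_of_ae
    ((tau_ae n s0 S).mono fun z hz => mul_nonneg (pp_pos hμ hg (hs.trans hz.1) z.2).le
      (Hy_nonneg hμ hg (hs.trans hz.1) z.2)))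

theorem Gg_le (hμ : Good μ R) (hL : LC μ R) (hg : ContDiff ℝ 1 g) (hs : 0 < s0) (hS : s0 < S) :
    ∫ x, exp (g x) * Gg μ g s0 S x ∂μ ≤ (s0 + S) / 4 * Ii μ g := by
  have gc := hg.continuous
  obtain ⟨M, -, hM⟩ := exists_bd gc R
  have b2 : Bd s0 S (2 * M) (Hy μ g) := bd_Hy hμ gc hs hM
  have h2 := integral_Av b2 hs hμ gc
  have c1 : Continuous fun x => exp (g x) * ‖fderiv ℝ g x‖ ^ 2 := by
    have := hg.continuous_fderiv one_ne_zero
    fun_prop
  have i1 : Integrable (fun z : ℝ × E n =>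
      z.1 / 2 * PP μ (fun x => exp (g x) * ‖fderiv ℝ g x‖ ^ 2) z.1 z.2) (tau n s0 S) :=
    (integrable_tau_PP hμ hs c1).bdd_mul (c := S / 2) (by fun_prop)
      ((tau_ae n s0 S).mono fun z hz => by
        rw [Real.norm_eq_abs, abs_of_nonneg (by linarith [hz.1])]; linarith [hz.2])
  have h3 := integral_mono_ae (b2.integrable_pp hs hμ gc) i1
    ((tau_ae n s0 S).mono fun z hz => post_lsi hμ hL hg (hs.trans hz.1) z.2)
  have h4 : ∫ s in s0..S, ∫ y, s / 2 * PP μ (fun x => exp (g x) * ‖fderiv ℝ g x‖ ^ 2) s y =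
      ∫ s in s0..S, s * (Ii μ g / 2) := by
    refine intervalIntegral.integral_congr fun s hs' => ?_
    rw [uIcc_of_le hS.le] at hs'
    simp only [integral_const_mul, integral_PP hμ (hs.trans_le hs'.1) c1, Ii]
    ring
  rw [integral_tau hS i1, h4, intervalIntegral.integral_mul_const, integral_id] at h3
  simp only [smul_eq_mul] at h2 h3
  have h5 : 0 < S - s0 := sub_pos.2 hS
  rw [Gg, h2, inv_mul_le_iff₀ h5]
  linarith

theorem JJ_le (hμ : Good μ R) (hL : LC μ R) (hg : ContDiff ℝ 1 g) (hs : 0 < s) :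
    JJ μ g s ≤ Ii μ g := by
  have gc := hg.continuous
  have c1 : Continuous fun x => exp (g x) * ‖fderiv ℝ g x‖ ^ 2 := by
    have := hg.continuous_fderiv one_ne_zero
    fun_prop
  rw [Ii, ← integral_PP hμ hs c1]
  refine integral_mono_of_nonneg (ae_of_all _ fun y => mul_nonneg (pp_pos hμ gc hs y).le
    (sq_nonneg _)) (integrable_PP hμ hs c1) (ae_of_all _ fun y => ?_)
  have h1 := mul_le_mul_of_nonneg_left (post_T1 hμ hL gc hs y) (pp_pos hμ gc hs y).le
  have h2 := post_lsi hμ hL hg hs y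
  exact le_of_mul_le_mul_left (by linarith) hs

end Vale.Agent.P245
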