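import Vale.Agent.P245.Sm1
import Vale.Agent.P245.DissD
import Vale.Agent.P245.SLC3

open MeasureTheory Real Set
open scoped RealInnerProductSpace ENNReal

namespace Vale.Agent.P245

variable {n : ℕ}

/-! The averaged field `Mg` is slowly varying.
`slow_pt`: by `Av_iter`, `Mg x` and `Av DN x` are averages over `s` of `m s = ∫ gk • NN` and
`L s = ∫ gk • DN`. Jensen in `s` (for the probability measure `(S-s0)⁻¹ • volume` on `Ioc s0 S`; e.g.
`‖∫ f‖² ≤ (S-s0) ∫ ‖f‖²`, column by column for `HS`) and for each `s` in `Ioc s0 S`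
`S * HS (L s) + ‖m s‖² ≤ (S-s) ∫ gk HS DN + ∫ gk ‖NN‖²` by `bessel_deriv` and `jensen_HS`.
`slow`: integrate against `e^g μ` with `integral_Av`, `integral_tau`, then `diss` and `JJ_le`. -/

variable {μ : Measure (E n)} {R : ℝ} {g : E n → ℝ} {s0 S : ℝ}

theorem sm2_sq {V : Type} [NormedAddCommGroup V] [NormedSpace ℝ V] :
    ConvexOn ℝ univ fun v : V => ‖v‖ ^ 2 :=
  convexOn_univ_norm.pow (fun _ _ => norm_nonneg _) 2

theorem sm2_conv (hS : 0 ≤ S) :
    ConvexOn ℝ univ fun p : (E n →L[ℝ] E n) × E n => S * HS p.1 + ‖p.2‖ ^ 2 := by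
  refine ⟨convex_univ, fun p _ q _ a b ha hb hab => ?_⟩
  have h1 := sm2_sq.2 (mem_univ p.2) (mem_univ q.2) ha hb hab
  have h2 : HS (a • p.1 + b • q.1) ≤ a * HS p.1 + b * HS q.1 := by
    simp only [HS, Finset.mul_sum, ← Finset.sum_add_distrib]
    exact Finset.sum_le_sum fun j _ => sm2_sq.2 (mem_univ _) (mem_univ _) ha hb hab
  have h3 := mul_le_mul_of_nonneg_left h2 hS
  simp only [smul_eq_mul, Prod.fst_add, Prod.snd_add, Prod.smul_fst, Prod.smul_snd] at h1 ⊢
  linarith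

theorem sm2_bdHS (hμ : Good μ R) (hg : Continuous g) {s : ℝ} (hs : 0 < s) (y : E n) :
    ‖HS (DN μ g s y)‖ ≤ n * (8 * R ^ 2 / s ^ 2) ^ 2 := by
  rw [Real.norm_eq_abs, abs_of_nonneg (HS_nonneg _)]
  exact (HS_le _).trans (mul_le_mul_of_nonneg_left
    (pow_le_pow_left₀ (norm_nonneg _) (norm_DN_le hμ hg hs y) 2) (Nat.cast_nonneg n))

theorem sm2_bdN (hμ : Good μ R) (hg : Continuous g) {s : ℝ} (hs : 0 < s) (y : E n) :
    ‖‖NN μ g s y‖ ^ 2‖ ≤ (2 * R / s) ^ 2 := by
  rw [Real.norm_eq_abs, abs_of_nonneg (sq_nonneg _)]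
  exact pow_le_pow_left₀ (norm_nonneg _) (norm_NN_le hμ hg hs y) 2

theorem sm2_bd (hμ : Good μ R) (hg : Continuous g) (hs : 0 < s0) :
    Bd s0 S ((2 * R / s0) ^ 2 + S * (n * (8 * R ^ 2 / s0 ^ 2) ^ 2))
      (fun s y => ‖NN μ g s y‖ ^ 2 + (S - s) * HS (DN μ g s y)) := by
  refine ⟨((sm_NN hμ hg).norm.pow 2).add
    ((stronglyMeasurable_const.sub measurable_fst.stronglyMeasurable).mul
      (continuous_HS.comp_stronglyMeasurable (sm_DN hμ hg))), fun s hs' y => ?_⟩
  have h1 := pow_le_pow_left₀ (norm_nonneg _) ((bd_NN hμ hg hs).bd s hs' y) 2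
  have h2 := (HS_le _).trans (mul_le_mul_of_nonneg_left
    (pow_le_pow_left₀ (norm_nonneg _) ((bd_DN hμ hg hs).bd s hs' y) 2) (Nat.cast_nonneg n))
  have h3 := HS_nonneg (DN μ g s y)
  have h4 : 0 ≤ S - s := sub_nonneg.2 hs'.2
  have h5 := mul_le_mul (show S - s ≤ S by linarith [hs'.1]) h2 h3 (by linarith [hs'.1])
  rw [Real.norm_eq_abs, abs_of_nonneg (by positivity)]
  linarith

theorem sm2_split (hμ : Good μ R) (hg : Continuous g) {s : ℝ} (hs : 0 < s) {w : E n → ℝ}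
    (hw : Integrable w) (c : ℝ) :
    ∫ y, w y • (‖NN μ g s y‖ ^ 2 + c * HS (DN μ g s y)) =
      (∫ y, w y * ‖NN μ g s y‖ ^ 2) + c * ∫ y, w y * HS (DN μ g s y) := by
  have c1 : Continuous (NN μ g s) :=
    continuous_iff_continuousAt.2 fun y => (hasFDerivAt_NN hμ hg hs y).continuousAt
  have i1 := hw.mul_bdd (c1.norm.pow 2).aestronglyMeasurable (ae_of_all _ (sm2_bdN hμ hg hs))
  have i2 := hw.mul_bdd (continuous_HS.comp (continuous_DN hμ hg hs)).aestronglyMeasurable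
    (ae_of_all _ (sm2_bdHS hμ hg hs))
  rw [← integral_const_mul, ← integral_add (by exact i1) (by exact i2.const_mul c)]
  congr 1; funext y; simp only [smul_eq_mul]; ring

theorem slow_pt (hμ : Good μ R) (hg : Continuous g) (hs : 0 < s0) (hS : s0 < S) (x : E n) :
    S * HS (Av s0 S (DN μ g) x) + ‖Mg μ g s0 S x‖ ^ 2 ≤
      Av s0 S (fun s y => ‖NN μ g s y‖ ^ 2 + (S - s) * HS (DN μ g s y)) x := by
  have b1 : Bd s0 S _ (DN μ g) := bd_DN hμ hg hs
  have b2 : Bd s0 S _ (NN μ g) := bd_NN hμ hg hs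
  have b3 := sm2_bd (S := S) hμ hg hs
  have i1 := (b1.integrable hs x).integral_prod_left
  have i2 := (b2.integrable hs x).integral_prod_left
  have i3 := (b3.integrable hs x).integral_prod_left
  have hS0 : 0 ≤ S := (hs.trans hS).le
  have hc : Continuous fun p : (E n →L[ℝ] E n) × E n => S * HS p.1 + ‖p.2‖ ^ 2 := by
    have := continuous_HS (n := n)
    fun_prop
  have pt : ∀ᵐ s ∂(volume.restrict (Ioc s0 S)),
      S * HS (∫ y, gk s y x • DN μ g s y) + ‖∫ y, gk s y x • NN μ g s y‖ ^ 2 ≤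
        ∫ y, gk s y x • (‖NN μ g s y‖ ^ 2 + (S - s) * HS (DN μ g s y)) :=
    (ae_restrict_mem measurableSet_Ioc).mono fun s hs' => by
      have h0 := hs.trans hs'.1
      have h1 := bessel_deriv h0 x (hasFDerivAt_NN hμ hg h0) (continuous_DN hμ hg h0)
        (max (2 * R / s) (8 * R ^ 2 / s ^ 2))
        (fun y => (norm_NN_le hμ hg h0 y).trans (le_max_left _ _))
        (fun y => (norm_DN_le hμ hg h0 y).trans (le_max_right _ _))
      have h2 := mul_le_mul_of_nonneg_left (jensen_HS h0 x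
        (continuous_DN hμ hg h0).aestronglyMeasurable _ (norm_DN_le hμ hg h0)) (sub_nonneg.2 hs'.2)
      rw [sm2_split hμ hg h0 (integrable_gk h0 x)]
      linarith
  have i4 := i1.prodMk i2
  have i5 := i3.mono' (hc.comp_aestronglyMeasurable i4.aestronglyMeasurable)
    (pt.mono fun s h => by
      rw [Real.norm_eq_abs, abs_of_nonneg (add_nonneg (mul_nonneg hS0 (HS_nonneg _)) (sq_nonneg _))]
      exact h)
  have J := (sm2_conv hS0).map_set_average_le (μ := volume) (t := Ioc s0 S) hc.continuousOn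
    isClosed_univ (by simpa using hS) (by simp) (ae_of_all _ fun _ => mem_univ _) i4 i5
  have M := integral_mono_ae i5 i3 pt
  rw [setAverage_eq, setAverage_eq, integral_pair i1 i2, Real.volume_real_Ioc_of_le hS.le] at J
  rw [Mg, Av_iter b1 hs hS, Av_iter b2 hs hS, Av_iter b3 hs hS,
    intervalIntegral.integral_of_le hS.le, intervalIntegral.integral_of_le hS.le,
    intervalIntegral.integral_of_le hS.le]
  exact J.trans (mul_le_mul_of_nonneg_left M (inv_nonneg.2 (sub_pos.2 hS).le))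

theorem slow (hμ : Good μ R) (hL : LC μ R) (hg : ContDiff ℝ 1 g) (hs : 0 < s0) (hS : s0 < S) :
    S * (∫ x, exp (g x) * HS (fderiv ℝ (Mg μ g s0 S) x) ∂μ) +
      (∫ x, exp (g x) * ‖Mg μ g s0 S x‖ ^ 2 ∂μ) ≤ Ii μ g := by
  have gc := hg.continuous
  have b3 := sm2_bd (S := S) hμ gc hs
  have c1 := continuous_HS.comp (continuous_Av (bd_DN (S := S) hμ gc hs) hs)
  have c2 := (contDiff_Mg (S := S) hμ gc hs).continuous
  have c3 := continuous_Av b3 hs
  have i1 := (hμ.integrable (gc.rexp.mul c1)).const_mul S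
  have i2 := hμ.integrable (gc.rexp.mul (c2.norm.pow 2))
  have M := integral_mono (i1.add i2) (hμ.integrable (gc.rexp.fun_smul c3)) fun x => by
    have := mul_le_mul_of_nonneg_left (slow_pt hμ gc hs hS x) (exp_pos (g x)).le
    simp only [Pi.add_apply, Pi.mul_apply, Pi.pow_apply, Function.comp, smul_eq_mul]
    linarith
  simp only [Pi.add_apply] at M
  have e : ∫ s in s0..S, ∫ y, pp μ g s y • (‖NN μ g s y‖ ^ 2 + (S - s) * HS (DN μ g s y)) =
      ∫ s in s0..S, (JJ μ g s + (S - s) * TT μ g s) := by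
    refine intervalIntegral.integral_congr fun s hs' => ?_
    rw [uIcc_of_le hS.le] at hs'
    exact sm2_split hμ gc (hs.trans_le hs'.1) (integrable_pp hμ gc (hs.trans_le hs'.1)) _
  rw [integral_add i1 i2, integral_const_mul, integral_Av b3 hs hμ gc,
    integral_tau hS (b3.integrable_pp hs hμ gc), e] at M
  simp only [(hasFDerivAt_Mg hμ gc hs _).fderiv]
  refine M.trans ?_
  rw [smul_eq_mul, inv_mul_le_iff₀ (sub_pos.2 hS)]
  exact (diss hμ hL gc hs hS).trans
    (mul_le_mul_of_nonneg_left (JJ_le hμ hL hg hs) (sub_pos.2 hS).le)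

end Vale.Agent.P245
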