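import Vale.Agent.P245.Gauss

open MeasureTheory Real Set
open scoped RealInnerProductSpace ENNReal

namespace Vale.Agent.P245

variable {n : ℕ}

/-! Gaussian integration by parts, moments, Bessel and Jensen inequalities.
`stein`: `integral_bilinear_hasLineDerivAt_right_eq_neg_left_of_integrable` with the bilinear map
`ContinuousLinearMap.lsmul ℝ ℝ`, `hasFDerivAt_gk`, integrability from `integrable_gk_growth`.
Moments: `stein` with `G = 1` (first moment, test against every `e`), `G y = ⟪b, y - x⟫` (second).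
`stein2`: `stein` with `G y = F y * (y - x) j`, `e = single j 1`, sum over `j`.
`bessel`: with `m = ∫ gk • F`, `c j = s⁻¹ • ∫ (gk (y-x) j) • F` expand
`0 ≤ ∫ gk ‖F y - m - ∑ j, (y-x) j • c j‖²` using the moments.
`bessel_deriv`: `stein` with `e = single j 1` turns the sum of `bessel` into `s * HS`.
`jensen_sq`: expand `0 ≤ ∫ gk ‖F y - m‖²`; `jensen_HS`: apply it to each column. -/

section
variable {V W U : Type*} [NormedAddCommGroup V] [NormedAddCommGroup W] [NormedAddCommGroup U]

/-- Measurable with polynomial growth. -/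
def stein_PG (F : E n → V) : Prop :=
  AEStronglyMeasurable F volume ∧ ∃ (C : ℝ) (k : ℕ), ∀ y, ‖F y‖ ≤ C * (1 + ‖y‖) ^ k

theorem stein_PG.bdd {F : E n → V} (hF : AEStronglyMeasurable F volume) {C : ℝ}
    (hb : ∀ y, ‖F y‖ ≤ C) : stein_PG F := ⟨hF, C, 0, by simpa using hb⟩

theorem stein_PG.sub (x : E n) : stein_PG fun y : E n => y - x :=
  ⟨by fun_prop, 1 + ‖x‖, 1, fun y => (norm_sub_le _ _).trans (by
    nlinarith [norm_nonneg x, norm_nonneg y, mul_nonneg (norm_nonneg x) (norm_nonneg y)])⟩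

theorem stein_PG.norm {F : E n → V} (h : stein_PG F) : stein_PG fun y => ‖F y‖ :=
  ⟨h.1.norm, by simpa only [norm_norm] using h.2⟩

variable [NormedSpace ℝ V] [NormedSpace ℝ W] [NormedSpace ℝ U]

theorem stein_PG.int {F : E n → V} (h : stein_PG F) {s : ℝ} (hs : 0 < s) (x : E n) :
    Integrable fun y => gk s y x • F y :=
  let ⟨hm, C, k, hb⟩ := h
  integrable_gk_growth hs x hm C k hb

theorem stein_PG.intm {f : E n → ℝ} (h : stein_PG f) {s : ℝ} (hs : 0 < s) (x : E n) :
    Integrable fun y => gk s y x * f y := h.int hs x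

theorem stein_PG.bil (B : V →L[ℝ] W →L[ℝ] U) {F : E n → V} {G : E n → W} (hF : stein_PG F)
    (hG : stein_PG G) : stein_PG fun y => B (F y) (G y) := by
  obtain ⟨m1, C, k, h1⟩ := hF
  obtain ⟨m2, D, l, h2⟩ := hG
  refine ⟨B.aestronglyMeasurable_comp₂ m1 m2, ‖B‖ * C * D, k + l, fun y => ?_⟩
  calc _ ≤ ‖B‖ * ‖F y‖ * ‖G y‖ := B.le_opNorm₂ _ _
    _ ≤ ‖B‖ * (C * (1 + ‖y‖) ^ k) * (D * (1 + ‖y‖) ^ l) :=
      mul_le_mul (by gcongr; exact h1 y) (h2 y) (norm_nonneg _)
        (mul_nonneg B.opNorm_nonneg ((norm_nonneg _).trans (h1 y)))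
    _ = _ := by ring

theorem stein_PG.clm (L : V →L[ℝ] W) {F : E n → V} (hF : stein_PG F) :
    stein_PG fun y => L (F y) := by
  obtain ⟨m1, C, k, h1⟩ := hF
  exact ⟨L.continuous.comp_aestronglyMeasurable m1, ‖L‖ * C, k, fun y =>
    (L.le_opNorm _).trans (by rw [mul_assoc]; gcongr; exact h1 y)⟩

theorem stein_PG.smul {f : E n → ℝ} {G : E n → W} (hF : stein_PG f) (hG : stein_PG G) :
    stein_PG fun y => f y • G y := hF.bil (ContinuousLinearMap.lsmul ℝ ℝ) hG

theorem stein_PG.mul {f g : E n → ℝ} (hF : stein_PG f) (hG : stein_PG g) :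
    stein_PG fun y => f y * g y := hF.smul hG

theorem stein_PG.inner (a x : E n) : stein_PG fun y : E n => ⟪a, y - x⟫ :=
  (stein_PG.sub x).clm (innerSL ℝ a)

theorem stein_PG.co (j : Fin n) {F : E n → E n} (hF : stein_PG F) : stein_PG fun y => F y j :=
  hF.clm (EuclideanSpace.proj j)

end

theorem stein {V : Type*} [NormedAddCommGroup V] [NormedSpace ℝ V] [CompleteSpace V] {s : ℝ}
    (hs : 0 < s) (x e : E n) {G : E n → V} {G' : E n → E n →L[ℝ] V}
    (hG : ∀ y, HasFDerivAt G (G' y) y) (hc : Continuous G') (C : ℝ) (k : ℕ)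
    (hb : ∀ y, ‖G y‖ ≤ C * (1 + ‖y‖) ^ k) (hb' : ∀ y, ‖G' y‖ ≤ C * (1 + ‖y‖) ^ k) :
    ∫ y, gk s y x • G' y e = s⁻¹ • ∫ y, (gk s y x * ⟪e, y - x⟫) • G y := by
  have p : stein_PG G :=
    ⟨(continuous_iff_continuousAt.2 fun y => (hG y).continuousAt).aestronglyMeasurable, C, k, hb⟩
  have p' : stein_PG G' := ⟨hc.aestronglyMeasurable, C, k, hb'⟩
  have e1 : ∀ y, (((gk s y x / s) • innerSL ℝ (x - y)) e) • G y =
      -(s⁻¹ • (gk s y x * ⟪e, y - x⟫) • G y) := fun y => by
    rw [← neg_smul, smul_smul, ← neg_sub y x]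
    simp only [smul_apply, innerSL_apply_apply, smul_eq_mul]
    rw [inner_neg_left, real_inner_comm e]
    congr 1; ring
  have := integral_bilinear_hasFDerivAt_right_eq_neg_left_of_integrable (μ := volume) (v := e)
    (B := ContinuousLinearMap.lsmul ℝ ℝ) (g := G) (g' := G') ?_
    ((p'.clm (ContinuousLinearMap.apply ℝ V e)).int hs x) (p.int hs x)
    (fun y _ => hasFDerivAt_gk hs y x) fun y _ => hG y
  · simpa only [ContinuousLinearMap.lsmul_apply, e1, integral_neg, neg_neg, integral_smul]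
      using this
  · simp only [ContinuousLinearMap.lsmul_apply, e1, mul_smul]
    exact ((((stein_PG.inner e x).smul p).int hs x).smul s⁻¹).neg

theorem integral_gk_inner {s : ℝ} (hs : 0 < s) (x a : E n) :
    ∫ y, gk s y x * ⟪a, y - x⟫ = 0 := by
  have := stein hs x a (G := fun _ => (1 : ℝ)) (fun y => hasFDerivAt_const _ y) continuous_const 1 0
    (by simp) (by simp)
  simpa [hs.ne'] using this.symm

theorem integral_gk_sub {s : ℝ} (hs : 0 < s) (x : E n) : ∫ y, gk s y x • (y - x) = 0 := by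
  refine ext_inner_left ℝ fun a => ?_
  rw [← integral_inner ((stein_PG.sub x).int hs x), inner_zero_right, ← integral_gk_inner hs x a]
  simp only [inner_smul_right]

theorem integral_gk_inner_mul {s : ℝ} (hs : 0 < s) (x a b : E n) :
    ∫ y, gk s y x * (⟪a, y - x⟫ * ⟪b, y - x⟫) = s * ⟪a, b⟫ := by
  have := stein hs x a (G := fun y => ⟪b, y - x⟫) (G' := fun _ => innerSL ℝ b)
    (fun y => (innerSL ℝ b).hasFDerivAt.comp y ((hasFDerivAt_id y).sub_const x))
    continuous_const (‖b‖ * (1 + ‖x‖)) 1 (fun y => (norm_inner_le_norm _ _).trans (by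
      rw [mul_assoc]; gcongr
      nlinarith [norm_sub_le y x, norm_nonneg y, mul_nonneg (norm_nonneg x) (norm_nonneg y)]))
    (fun y => by
      rw [innerSL_apply_norm, mul_assoc]
      exact le_mul_of_one_le_right (norm_nonneg _)
        (by nlinarith [norm_nonneg x, norm_nonneg y, mul_nonneg (norm_nonneg x) (norm_nonneg y)]))
  simp only [innerSL_apply_apply, smul_eq_mul, integral_mul_const, integral_gk hs, one_mul,
    mul_assoc] at this
  rw [real_inner_comm, this, mul_inv_cancel_left₀ hs.ne']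

theorem stein_co (w : E n) (j : Fin n) : ⟪EuclideanSpace.single j (1 : ℝ), w⟫ = w j := by
  simp [EuclideanSpace.inner_single_left]

theorem stein_sum (w : E n) : ∑ j, w j • EuclideanSpace.single j (1 : ℝ) = w := by
  simpa using (EuclideanSpace.basisFun (Fin n) ℝ).sum_repr w

theorem integral_gk_normsq {s : ℝ} (hs : 0 < s) (x : E n) :
    ∫ y, gk s y x * ‖y - x‖ ^ 2 = n * s := by
  simp only [EuclideanSpace.real_norm_sq_eq, Finset.mul_sum, sq ((_ - x) _)]
  rw [integral_finsetSum _ fun j _ => (((stein_PG.sub x).co j).mul ((stein_PG.sub x).co j)).intm hs x]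
  have := fun j => integral_gk_inner_mul hs x (EuclideanSpace.single j 1) (EuclideanSpace.single j 1)
  simp only [stein_co] at this
  simp only [this]
  simp

theorem stein2 {s : ℝ} (hs : 0 < s) (x : E n) {F : E n → ℝ} {F' : E n → E n →L[ℝ] ℝ}
    (hF : ∀ y, HasFDerivAt F (F' y) y) (hc : Continuous F') (C : ℝ)
    (hb : ∀ y, ‖F y‖ ≤ C) (hb' : ∀ y, ‖F' y‖ ≤ C) :
    ∫ y, F y * (gk s y x * (‖y - x‖ ^ 2 / (2 * s ^ 2) - n / (2 * s))) =
      (2 * s)⁻¹ * ∫ y, gk s y x * F' y (y - x) := by
  have cF : Continuous F := continuous_iff_continuousAt.2 fun y => (hF y).continuousAt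
  have p := stein_PG.bdd cF.aestronglyMeasurable hb
  have p' := stein_PG.bdd hc.aestronglyMeasurable hb'
  have q := fun j => (stein_PG.sub x).co j
  have C0 : 0 ≤ C := (norm_nonneg _).trans (hb 0)
  have hw : ∀ y : E n, 1 + ‖y - x‖ ≤ (1 + ‖x‖) * (1 + ‖y‖) ^ 1 := fun y => by
    nlinarith [norm_sub_le y x, mul_nonneg (norm_nonneg x) (norm_nonneg y)]
  have h : ∀ j, ∫ y, gk s y x * (F y + (y - x) j * F' y (EuclideanSpace.single j 1)) =
      s⁻¹ * ∫ y, gk s y x * ((y - x) j * (F y * (y - x) j)) := fun j => by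
    have n1 : ‖(EuclideanSpace.proj j : E n →L[ℝ] ℝ)‖ ≤ 1 :=
      ContinuousLinearMap.opNorm_le_bound _ zero_le_one fun w => by
        simpa using PiLp.norm_apply_le w j
    have := stein hs x (EuclideanSpace.single j 1) (G := fun y => F y * (y - x) j)
      (G' := fun y => F y • EuclideanSpace.proj j + (y - x) j • F' y)
      (fun y => (hF y).mul ((EuclideanSpace.proj j : E n →L[ℝ] ℝ).hasFDerivAt.comp y
        ((hasFDerivAt_id y).sub_const x)))
      (by fun_prop) (C * (1 + ‖x‖)) 1 (fun y => by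
        rw [norm_mul, mul_assoc]
        exact mul_le_mul (hb y) ((PiLp.norm_apply_le _ j).trans (by linarith [hw y]))
          (norm_nonneg _) C0)
      (fun y => by
        refine (norm_add_le _ _).trans ?_
        rw [norm_smul, norm_smul]
        have := mul_le_mul (hb y) n1 (norm_nonneg _) C0
        have := mul_le_mul (PiLp.norm_apply_le (y - x) j) (hb' y) (norm_nonneg _) (norm_nonneg _)
        nlinarith [mul_le_mul_of_nonneg_left (hw y) C0])
    simpa [-PiLp.sub_apply, stein_co, mul_assoc] using this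
  have i1 : ∀ j, Integrable fun y => gk s y x * ((y - x) j * F' y (EuclideanSpace.single j 1)) :=
    fun j => ((q j).smul (p'.clm (ContinuousLinearMap.apply ℝ ℝ _))).int hs x
  have i2 : ∀ j, Integrable fun y => gk s y x * ((y - x) j * (F y * (y - x) j)) :=
    fun j => ((q j).smul (p.smul (q j))).int hs x
  have i3 : Integrable fun y => gk s y x * F y := p.int hs x
  have e1 : ∀ y, gk s y x * F' y (y - x) =
      ∑ j, gk s y x * ((y - x) j * F' y (EuclideanSpace.single j 1)) := fun y => by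
    conv_lhs => rw [← stein_sum (y - x)]
    simp only [map_sum, map_smul, smul_eq_mul, Finset.mul_sum]
  have e2 : ∀ y, F y * (gk s y x * (‖y - x‖ ^ 2 / (2 * s ^ 2) - n / (2 * s))) =
      (2 * s)⁻¹ * (s⁻¹ * ∑ j, gk s y x * ((y - x) j * (F y * (y - x) j)) - n * (gk s y x * F y)) :=
    fun y => by
    simp only [mul_left_comm _ (F y), ← Finset.mul_sum, ← sq, ← EuclideanSpace.real_norm_sq_eq]
    field_simp
  simp only [mul_add, integral_add i3 (i1 _)] at h
  simp only [e1, e2]
  rw [integral_const_mul, integral_sub ((integrable_finsetSum _ fun j _ => i2 j).const_mul _)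
    (i3.const_mul _), integral_const_mul, integral_const_mul, integral_finsetSum _ fun j _ => i1 j,
    integral_finsetSum _ fun j _ => i2 j, Finset.mul_sum]
  simp only [← h, Finset.sum_add_distrib]
  simp

theorem stein_bessel {s : ℝ} (hs : 0 < s) (x : E n) {f : E n → ℝ} (p : stein_PG f) :
    (∫ y, gk s y x * f y) ^ 2 + s⁻¹ * ∑ j, (∫ y, gk s y x * ((y - x) j * f y)) ^ 2 ≤
      ∫ y, gk s y x * f y ^ 2 := by
  set m := ∫ y, gk s y x * f y
  let c : E n := WithLp.toLp 2 fun j => ∫ y, gk s y x * ((y - x) j * f y)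
  have q := stein_PG.inner c x
  have i0 := integrable_gk hs x
  have i1 : Integrable fun y => gk s y x * f y := p.int hs x
  have i2 : Integrable fun y => gk s y x * ⟪c, y - x⟫ := q.int hs x
  have i3 : Integrable fun y => gk s y x * (⟪c, y - x⟫ * f y) := (q.smul p).int hs x
  have i4 : Integrable fun y => gk s y x * (⟪c, y - x⟫ * ⟪c, y - x⟫) := (q.smul q).int hs x
  have i5 : Integrable fun y => gk s y x * (f y * f y) := (p.smul p).int hs x
  have e1 : ∫ y, gk s y x * (⟪c, y - x⟫ * f y) = ∑ j, c j ^ 2 := by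
    have : ∀ y, gk s y x * (⟪c, y - x⟫ * f y) = ∑ j, c j * (gk s y x * ((y - x) j * f y)) :=
      fun y => by
      simp only [PiLp.inner_apply, RCLike.inner_apply, conj_trivial, Finset.sum_mul, Finset.mul_sum]
      exact Finset.sum_congr rfl fun j _ => by ring
    simp only [this]
    rw [integral_finsetSum _ fun j _ => ((((stein_PG.sub x).co j).mul p).intm hs x).const_mul _]
    simp only [integral_const_mul, sq, c]
  have := integral_nonneg (μ := volume) (f := fun y => gk s y x * (f y * f y) +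
    (m ^ 2 * gk s y x + (s⁻¹ ^ 2 * (gk s y x * (⟪c, y - x⟫ * ⟪c, y - x⟫)) +
    (2 * m * s⁻¹ * (gk s y x * ⟪c, y - x⟫) - (2 * m * (gk s y x * f y) +
      2 * s⁻¹ * (gk s y x * (⟪c, y - x⟫ * f y))))))) fun y => by
    have := mul_nonneg (gk_pos hs y x).le (sq_nonneg (f y - m - s⁻¹ * ⟪c, y - x⟫))
    simp only [Pi.zero_apply]; linarith
  rw [integral_add i5, integral_add (i0.const_mul _), integral_add (i4.const_mul _),
    integral_sub (i2.const_mul _), integral_add (i1.const_mul _) (i3.const_mul _)] at this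
  · simp only [integral_const_mul, integral_gk hs, integral_gk_inner hs, integral_gk_inner_mul hs, e1,
      real_inner_self_eq_norm_sq, EuclideanSpace.real_norm_sq_eq] at this
    rw [← mul_assoc (s⁻¹ ^ 2), sq s⁻¹, inv_mul_cancel_right₀ hs.ne'] at this
    simp only [← sq] at this
    change _ + _ * ∑ j, c j ^ 2 ≤ _
    linarith
  all_goals repeat' first
    | assumption | apply Integrable.sub | apply Integrable.add | apply Integrable.const_mul

theorem bessel {s : ℝ} (hs : 0 < s) (x : E n) {F : E n → E n}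
    (hF : AEStronglyMeasurable F volume) (C : ℝ) (hb : ∀ y, ‖F y‖ ≤ C) :
    ‖∫ y, gk s y x • F y‖ ^ 2 + s⁻¹ * ∑ j, ‖∫ y, (gk s y x * (y - x) j) • F y‖ ^ 2 ≤
      ∫ y, gk s y x * ‖F y‖ ^ 2 := by
  have p := stein_PG.bdd hF hb
  have co : ∀ {G : E n → E n}, Integrable G → ∀ i, (∫ y, G y) i = ∫ y, G y i := fun h i =>
    ((EuclideanSpace.proj i : E n →L[ℝ] ℝ).integral_comp_comm h).symm
  simp only [EuclideanSpace.real_norm_sq_eq, mul_smul, co (p.int hs x),
    co ((((stein_PG.sub x).co _).smul p).int hs x), PiLp.smul_apply, smul_eq_mul]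
  rw [Finset.sum_comm, Finset.mul_sum, ← Finset.sum_add_distrib]
  simp only [Finset.mul_sum _ _ (gk s _ x)]
  rw [integral_finsetSum _ fun i _ => by simpa only [sq] using ((p.co i).mul (p.co i)).intm hs x]
  exact Finset.sum_le_sum fun i _ => stein_bessel hs x (p.co i)

theorem stein_col {s : ℝ} (hs : 0 < s) (x e : E n) {L : E n → E n →L[ℝ] E n} (p : stein_PG L) :
    (∫ y, gk s y x • L y) e = ∫ y, gk s y x • L y e :=
  ContinuousLinearMap.integral_apply (p.int hs x) e

theorem bessel_deriv {s : ℝ} (hs : 0 < s) (x : E n) {F : E n → E n} {F' : E n → E n →L[ℝ] E n}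
    (hF : ∀ y, HasFDerivAt F (F' y) y) (hc : Continuous F') (C : ℝ)
    (hb : ∀ y, ‖F y‖ ≤ C) (hb' : ∀ y, ‖F' y‖ ≤ C) :
    ‖∫ y, gk s y x • F y‖ ^ 2 + s * HS (∫ y, gk s y x • F' y) ≤ ∫ y, gk s y x * ‖F y‖ ^ 2 := by
  refine le_of_eq_of_le ?_ (bessel hs x
    (continuous_iff_continuousAt.2 fun y => (hF y).continuousAt).aestronglyMeasurable C hb)
  simp only [HS, stein_col hs x _ (.bdd hc.aestronglyMeasurable hb'), stein_co, norm_smul, mul_pow,
    stein hs x _ hF hc C 0 (by simpa using hb) (by simpa using hb'), ← Finset.mul_sum,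
    Real.norm_eq_abs, sq_abs]
  field_simp

theorem HS_nonneg (L : E n →L[ℝ] E n) : 0 ≤ HS L := Finset.sum_nonneg fun _ _ => sq_nonneg _

theorem HS_le (L : E n →L[ℝ] E n) : HS L ≤ n * ‖L‖ ^ 2 := by
  refine (Finset.sum_le_card_nsmul _ _ (‖L‖ ^ 2) fun j _ => ?_).trans_eq (by simp)
  gcongr
  simpa using L.le_opNorm (EuclideanSpace.single j 1)

theorem continuous_HS : Continuous (HS : (E n →L[ℝ] E n) → ℝ) := by
  unfold HS; fun_prop

theorem HS_smul (c : ℝ) (L : E n →L[ℝ] E n) : HS (c • L) = c ^ 2 * HS L := by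
  simp [HS, norm_smul, mul_pow, Finset.mul_sum]

/-- `HS` is also the sum of the squared norms of the rows. -/
theorem HS_eq_rows (L : E n →L[ℝ] E n) :
    HS L = ∑ i, ‖(innerSL ℝ (EuclideanSpace.single i (1 : ℝ) : E n)).comp L‖ ^ 2 := by
  simp only [HS, EuclideanSpace.real_norm_sq_eq]
  rw [Finset.sum_comm]
  refine Finset.sum_congr rfl fun i _ => ?_
  have : (innerSL ℝ (EuclideanSpace.single i (1 : ℝ) : E n)).comp L =
      innerSL ℝ (L.adjoint (EuclideanSpace.single i 1)) := by
    ext w; simp [ContinuousLinearMap.adjoint_inner_left]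
  rw [this, innerSL_apply_norm, EuclideanSpace.real_norm_sq_eq]
  refine Finset.sum_congr rfl fun j _ => ?_
  rw [← stein_co, ← stein_co (L.adjoint _), ContinuousLinearMap.adjoint_inner_right, real_inner_comm]

theorem jensen_HS {s : ℝ} (hs : 0 < s) (x : E n) {L : E n → E n →L[ℝ] E n}
    (hL : AEStronglyMeasurable L volume) (C : ℝ) (hb : ∀ y, ‖L y‖ ≤ C) :
    HS (∫ y, gk s y x • L y) ≤ ∫ y, gk s y x * HS (L y) := by
  have p := stein_PG.bdd hL hb
  have q := fun j => p.clm (ContinuousLinearMap.apply ℝ (E n) (EuclideanSpace.single j 1))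
  simp only [HS, stein_col hs x _ p, Finset.mul_sum]
  rw [integral_finsetSum _ fun j _ => by
    simpa only [sq, ContinuousLinearMap.apply_apply] using ((q j).norm.mul (q j).norm).intm hs x]
  refine Finset.sum_le_sum fun j _ => le_trans (le_add_of_nonneg_right (by positivity))
    (bessel hs x (q j).1 C fun y => le_trans ?_ (hb y))
  simpa using (L y).le_opNorm (EuclideanSpace.single j 1)

end Vale.Agent.P245
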