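import Vale.Agent.P245.Z1
import Vale.Agent.P245.Stein

open MeasureTheory Real Set
open scoped RealInnerProductSpace ENNReal

namespace Vale.Agent.P245

variable {n : ℕ}

/-! Fisher information of the posteriors of the channel.
`fderiv (gz z) x = fderiv g x + (innerSL ℝ (z - κ • ξ x)).comp (fderiv ξ x)`.
The squared norm of a functional `ℓ` is `∑ j, (ℓ (single j 1))²`; for each `j`
`∫ gk κ z (κ•ξ x) (A j + ⟪z - κ•ξ x, B j⟫)² = (A j)² + κ ‖B j‖²` by `integral_gk`,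
`integral_gk_inner`, `integral_gk_inner_mul`. Then `zfub` with `k = 2`. -/

variable {μ : Measure (E n)} {R : ℝ} {g : E n → ℝ} {ξ : E n → E n} {κ : ℝ}

theorem z3_normsq (l : E n →L[ℝ] ℝ) :
    ‖l‖ ^ 2 = ∑ j, (l (EuclideanSpace.single j 1)) ^ 2 := by
  obtain ⟨v, rfl⟩ := (InnerProductSpace.toDual ℝ (E n)).surjective l
  rw [LinearIsometryEquiv.norm_map, EuclideanSpace.real_norm_sq_eq]
  refine Finset.sum_congr rfl fun j _ => ?_
  rw [InnerProductSpace.toDual_apply_apply, real_inner_comm, stein_co]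

theorem z3_one (hκ : 0 < κ) (m b : E n) (a : ℝ) :
    Integrable (fun z => gk κ z m * (a + ⟪b, z - m⟫) ^ 2) ∧
      ∫ z, gk κ z m * (a + ⟪b, z - m⟫) ^ 2 = a ^ 2 + κ * ‖b‖ ^ 2 := by
  have e : (fun z => gk κ z m * (a + ⟪b, z - m⟫) ^ 2) = fun z =>
      (a ^ 2 * gk κ z m + 2 * a * (gk κ z m * ⟪b, z - m⟫)) +
        gk κ z m * (⟪b, z - m⟫ * ⟪b, z - m⟫) := by
    funext z; ring
  have h1 : Integrable fun z => a ^ 2 * gk κ z m := (integrable_gk hκ m).const_mul _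
  have h2 : Integrable fun z => 2 * a * (gk κ z m * ⟪b, z - m⟫) :=
    ((stein_PG.inner b m).intm hκ m).const_mul _
  have h3 : Integrable fun z => gk κ z m * (⟪b, z - m⟫ * ⟪b, z - m⟫) :=
    ((stein_PG.inner b m).mul (stein_PG.inner b m)).intm hκ m
  have h4 : Integrable fun z => a ^ 2 * gk κ z m + 2 * a * (gk κ z m * ⟪b, z - m⟫) := h1.add h2
  rw [e]
  refine ⟨h4.add h3, ?_⟩
  rw [integral_add h4 h3, integral_add h1 h2, integral_const_mul, integral_const_mul,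
    integral_gk hκ, integral_gk_inner hκ, integral_gk_inner_mul hκ, real_inner_self_eq_norm_sq]
  ring

theorem z3_gauss (hκ : 0 < κ) (m : E n) (A : E n →L[ℝ] ℝ) (B : E n →L[ℝ] E n) :
    ∫ z, gk κ z m * ‖A + (innerSL ℝ (z - m)).comp B‖ ^ 2 = ‖A‖ ^ 2 + κ * HS B := by
  have e : (fun z => gk κ z m * ‖A + (innerSL ℝ (z - m)).comp B‖ ^ 2) = fun z =>
      ∑ j, gk κ z m * (A (EuclideanSpace.single j 1) +
        ⟪B (EuclideanSpace.single j 1), z - m⟫) ^ 2 := by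
    funext z
    rw [z3_normsq, Finset.mul_sum]
    refine Finset.sum_congr rfl fun j _ => ?_
    rw [add_apply, ContinuousLinearMap.comp_apply, innerSL_apply_apply, real_inner_comm]
  rw [e, integral_finsetSum _ fun j _ => (z3_one hκ m _ _).1, z3_normsq, HS, Finset.mul_sum,
    ← Finset.sum_add_distrib]
  exact Finset.sum_congr rfl fun j _ => (z3_one hκ m _ _).2

theorem z3_fderiv (hg : ContDiff ℝ 1 g) (hξ : ContDiff ℝ 1 ξ) (z x : E n) :
    fderiv ℝ (gz μ g ξ κ z) x =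
      fderiv ℝ g x + (innerSL ℝ (z - κ • ξ x)).comp (fderiv ℝ ξ x) := by
  have h1 := (hg.differentiable one_ne_zero x).hasFDerivAt
  have h2 := (hξ.differentiable one_ne_zero x).hasFDerivAt
  have h3 : HasFDerivAt (fun x => ⟪z, ξ x⟫) ((innerSL ℝ z).comp (fderiv ℝ ξ x)) x :=
    (innerSL ℝ z).hasFDerivAt.comp x h2
  have h4 := (((h1.add h3).sub (h2.norm_sq.const_mul (κ / 2))).sub_const
    (log (ZZ μ g ξ κ z))).fderiv
  have e : gz μ g ξ κ z =
      fun x => g x + ⟪z, ξ x⟫ - κ / 2 * ‖ξ x‖ ^ 2 - log (ZZ μ g ξ κ z) := by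
    funext y; unfold gz; ring
  rw [e]
  refine h4.trans ?_
  ext w
  simp
  ring

theorem zfis (hμ : Good μ R) (hg : ContDiff ℝ 1 g) (hξ : ContDiff ℝ 1 ξ) (hκ : 0 < κ) :
    Integrable (fun z => pz μ g ξ κ z * Ii μ (gz μ g ξ κ z)) ∧
    ∫ z, pz μ g ξ κ z * Ii μ (gz μ g ξ κ z) =
      Ii μ g + κ * ∫ x, exp (g x) * HS (fderiv ℝ ξ x) ∂μ := by
  have c1 : Continuous (fderiv ℝ g) := hg.continuous_fderiv one_ne_zero
  have c2 : Continuous (fderiv ℝ ξ) := hξ.continuous_fderiv one_ne_zero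
  have c3 := hξ.continuous
  have c4 := hg.continuous
  obtain ⟨M1, p1, h1⟩ := exists_bd c1 R
  obtain ⟨M2, p2, h2⟩ := exists_bd c3 R
  obtain ⟨M3, p3, h3⟩ := exists_bd c2 R
  have hΨ : Continuous fun p : E n × E n =>
      ‖fderiv ℝ g p.2 + (innerSL ℝ (p.1 - κ • ξ p.2)).comp (fderiv ℝ ξ p.2)‖ ^ 2 := by
    refine (Continuous.norm ((c1.comp continuous_snd).add (Continuous.clm_comp ?_
      (c2.comp continuous_snd)))).pow 2
    exact (innerSL ℝ (E := E n)).continuous.comp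
      (continuous_fst.sub ((c3.comp continuous_snd).const_smul κ))
  obtain ⟨a1, -, a3⟩ := zfub hμ c4 c3 hκ
    (Ψ := fun z x => ‖fderiv ℝ g x + (innerSL ℝ (z - κ • ξ x)).comp (fderiv ℝ ξ x)‖ ^ 2) hΨ
    ((M1 + M3 + κ * M2 * M3) ^ 2) 2 (by
      intro z x hx
      rw [abs_of_nonneg (sq_nonneg _), ← mul_pow]
      refine pow_le_pow_left₀ (norm_nonneg _) ?_ 2
      have b1 : ‖z - κ • ξ x‖ ≤ ‖z‖ + κ * M2 := by
        refine (norm_sub_le _ _).trans (add_le_add_right ?_ _)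
        rw [norm_smul, Real.norm_of_nonneg hκ.le]
        exact mul_le_mul_of_nonneg_left (h2 x hx) hκ.le
      have b2 : ‖(innerSL ℝ (z - κ • ξ x)).comp (fderiv ℝ ξ x)‖ ≤ (‖z‖ + κ * M2) * M3 := by
        refine (ContinuousLinearMap.opNorm_comp_le _ _).trans ?_
        rw [innerSL_apply_norm]
        exact mul_le_mul b1 (h3 x hx) (norm_nonneg _) (by positivity)
      have b3 := norm_add_le (fderiv ℝ g x) ((innerSL ℝ (z - κ • ξ x)).comp (fderiv ℝ ξ x))
      have b4 := h1 x hx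
      have b5 : 0 ≤ (M1 + κ * M2 * M3) * ‖z‖ := by positivity
      linarith)
  have e : ∀ z, Ii μ (gz μ g ξ κ z) = ∫ x, exp (gz μ g ξ κ z x) *
      ‖fderiv ℝ g x + (innerSL ℝ (z - κ • ξ x)).comp (fderiv ℝ ξ x)‖ ^ 2 ∂μ := by
    intro z
    simp only [Ii, z3_fderiv hg hξ]
  simp only [e]
  refine ⟨a1, a3.trans ?_⟩
  simp only [z3_gauss hκ, mul_add]
  have i1 : Integrable (fun x => exp (g x) * ‖fderiv ℝ g x‖ ^ 2) μ :=
    hμ.integrable (c4.rexp.mul (c1.norm.pow 2))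
  have i2 : Integrable (fun x => exp (g x) * (κ * HS (fderiv ℝ ξ x))) μ :=
    hμ.integrable (c4.rexp.mul ((continuous_HS.comp c2).const_mul κ))
  rw [integral_add i1 i2, ← integral_const_mul]
  simp only [Ii, mul_left_comm κ]

end Vale.Agent.P245
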