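import Vale.Agent.P245.Z2
import Vale.Agent.P245.Z3

open MeasureTheory Real Set
open scoped RealInnerProductSpace ENNReal

namespace Vale.Agent.P245

variable {n : ℕ}

/-! Combination: integrate `hD (gz z)` and `hm (gz z)` against `pz`; `zfub` with `Ψ z x = G x`
gives `∫ pz ∫ exp (gz) G = ∫ e^g G`. -/

variable {μ : Measure (E n)} {R : ℝ} {g G : E n → ℝ} {ξ : E n → E n} {κ c lam d : ℝ}

theorem zchan (hμ : Good μ R) (hg : ContDiff ℝ 1 g) (hN : Nm μ g) (hξ : ContDiff ℝ 1 ξ)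
    (hG : Continuous G) (hκ : 0 < κ) (hc : 0 ≤ c)
    (hm : ∀ g' : E n → ℝ, Continuous g' → Nm μ g' → ‖∫ x, exp (g' x) • ξ x ∂μ‖ ^ 2 ≤
      c * (2 * Hh μ g' + ∫ x, exp (g' x) * G x ∂μ))
    (hD : Def μ lam d) :
    Hh μ g + κ * (∫ x, exp (g x) * ‖ξ x‖ ^ 2 ∂μ) / 2 -
        κ * c * (2 * Hh μ g + κ * (∫ x, exp (g x) * ‖ξ x‖ ^ 2 ∂μ) + ∫ x, exp (g x) * G x ∂μ) ≤
      lam * (Ii μ g + κ * ∫ x, exp (g x) * HS (fderiv ℝ ξ x) ∂μ) + d := by
  have hg0 := hg.continuous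
  have hξ0 := hξ.continuous
  obtain ⟨iH, eH⟩ := zent hμ hg0 hξ0 hκ
  obtain ⟨iI, eI⟩ := zfis hμ hg hξ hκ
  have ip := integrable_pz hμ hg0 hξ0 hκ
  have ep := integral_pz hμ hg0 hξ0 hκ hN
  have hp := fun z => (pz_pos hμ hg0 hξ0 hκ z).le
  obtain ⟨C, hC⟩ := (isCompact_closedBall (0 : E n) R).exists_bound_of_continuousOn
    hG.continuousOn
  obtain ⟨iG, -, eG⟩ := zfub (Ψ := fun _ x => G x) hμ hg0 hξ0 hκ (hG.comp continuous_snd) C 0
    fun z x hx => by simpa using hC x (mem_closedBall_zero_iff.2 hx)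
  simp only [integral_mul_const, integral_gk hκ, one_mul] at eG
  have h1 : ∫ z, pz μ g ξ κ z * Hh μ (gz μ g ξ κ z) ≤
      ∫ z, (lam * (pz μ g ξ κ z * Ii μ (gz μ g ξ κ z)) + d * pz μ g ξ κ z) := by
    refine integral_mono iH ((iI.const_mul _).add (ip.const_mul _)) fun z => ?_
    have := mul_le_mul_of_nonneg_left
      (hD _ (contDiff_gz (κ := κ) hg hξ z) (nm_gz hμ hg0 hξ0 z)) (hp z)
    simp only
    linarith
  rw [integral_add (iI.const_mul _) (ip.const_mul _), integral_const_mul, integral_const_mul, eI,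
    ep, mul_one, eH] at h1
  have h2 : ∫ z, pz μ g ξ κ z * ‖∫ x, exp (gz μ g ξ κ z x) • ξ x ∂μ‖ ^ 2 ≤
      ∫ z, (2 * c * (pz μ g ξ κ z * Hh μ (gz μ g ξ κ z)) +
        c * (pz μ g ξ κ z * ∫ x, exp (gz μ g ξ κ z x) * G x ∂μ)) := by
    refine integral_mono (integrable_zmean hμ hg0 hξ0 hκ) ((iH.const_mul _).add (iG.const_mul _))
      fun z => ?_
    have := mul_le_mul_of_nonneg_left
      (hm _ (contDiff_gz (κ := κ) hg hξ z).continuous (nm_gz hμ hg0 hξ0 z)) (hp z)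
    simp only
    linarith
  rw [integral_add (iH.const_mul _) (iG.const_mul _), integral_const_mul, integral_const_mul, eG,
    eH] at h2
  have h3 := zlog_le hμ hg0 hξ0 hκ hN
  have h4 := mul_nonneg (mul_nonneg hκ.le hc) (zlog_nonneg hμ hg0 hξ0 hκ hN)
  have h5 := mul_le_mul_of_nonneg_left h2 hκ.le
  linarith

end Vale.Agent.P245
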