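import Vale.Agent.P245.Fix2
import Vale.Agent.P245.Sm2
import Vale.Agent.P245.Z4
import Vale.Agent.P245.Mean

open MeasureTheory Real Set
open scoped RealInnerProductSpace ENNReal

namespace Vale.Agent.P245

variable {n : ℕ}

theorem key_c {a β lam : ℝ} (hβ : 0 < β) (hβ' : β ≤ 1 / 32) (hlam : 0 < lam)
    (hl : 10 ^ 9 * a ^ 2 ≤ lam * (16 * β) ^ 6) :
    8 * lam / β * (8 * a ^ 2 / (β * (4 * β * lam * (1 - β))) ^ 2) * (60 * lam + 8 * lam / β) ≤
      11 * lam := by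
  have hη : 0 < 1 - β := by linarith
  have e : 8 * lam / β * (8 * a ^ 2 / (β * (4 * β * lam * (1 - β))) ^ 2) * (60 * lam + 8 * lam / β)
      = 4 * a ^ 2 * (60 * β + 8) / (β ^ 6 * (1 - β) ^ 2) := by
    field_simp
    ring
  rw [e, div_le_iff₀ (by positivity)]
  have h1 : 4 * a ^ 2 * (60 * β + 8) ≤ 40 * a ^ 2 := by nlinarith [sq_nonneg a]
  have h2 : (1 : ℝ) / 2 ≤ (1 - β) ^ 2 := by nlinarith
  have h3 : 0 < lam * β ^ 6 := by positivity
  have h4 : 10 ^ 9 * a ^ 2 ≤ 16 ^ 6 * (lam * β ^ 6) := by nlinarith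
  nlinarith

theorem key_arith {a β lam h I G Q d1 : ℝ} (hβ : 0 < β) (hβ' : β ≤ 1 / 32) (hlam : 0 < lam)
    (hl : 10 ^ 9 * a ^ 2 ≤ lam * (16 * β) ^ 6) (hI : 0 ≤ I) (hh : h ≤ 20 * lam * I) (hG : G ≤ h)
    (hQ : 4 * β * lam * (1 - β) * Q + (1 - β) ^ 2 * I ≤ I)
    (hz : h + 8 * lam / β * ((1 - β) ^ 2 * I) / 2 -
        8 * lam / β * (8 * a ^ 2 / (β * (4 * β * lam * (1 - β))) ^ 2) *
          (2 * h + 8 * lam / β * ((1 - β) ^ 2 * I) + G) ≤
      (1 - 16 * β) * lam * (I + 8 * lam / β * Q) + d1) : 3 * h ≤ d1 := by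
  have hη : 0 < 1 - β := by linarith
  have hc := key_c hβ hβ' hlam hl
  set κ := 8 * lam / β with hκ
  set c := 8 * a ^ 2 / (β * (4 * β * lam * (1 - β))) ^ 2 with hcdef
  have hκ0 : 0 < κ := by positivity
  have hc0 : 0 ≤ c := by positivity
  have hκβ : κ * β = 8 * lam := by rw [hκ]; field_simp
  have h1 : 2 * lam * (1 - β) * Q ≤ I := by
    have : β * (2 * (2 * lam * (1 - β) * Q)) ≤ β * (2 * I) := by nlinarith [mul_nonneg (sq_nonneg β) hI]
    have := le_of_mul_le_mul_left this hβ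
    linarith
  have h2 : 13 * β / 2 * I ≤ (1 - β) * ((1 - β) ^ 2 * I / 2 - (1 - 16 * β) * lam * Q) := by
    have h3 : (1 - 16 * β) * (2 * lam * (1 - β) * Q) ≤ (1 - 16 * β) * I :=
      mul_le_mul_of_nonneg_left h1 (by linarith)
    have h4 : 1 - 3 * β ≤ (1 - β) ^ 3 := by nlinarith [mul_pos hβ hβ]
    have h5 : (1 - 3 * β) * I ≤ (1 - β) ^ 3 * I := mul_le_mul_of_nonneg_right h4 hI
    nlinarith
  set X := (1 - β) ^ 2 * I / 2 - (1 - 16 * β) * lam * Q with hX
  have hX0 : 0 ≤ X := by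
    by_contra hneg
    push Not at hneg
    have := mul_neg_of_pos_of_neg hη hneg
    have : 0 ≤ 13 * β / 2 * I := by positivity
    linarith
  have h6 : 13 * β / 2 * I ≤ X := by nlinarith
  have h7 : 52 * lam * I ≤ κ * X := by
    have := mul_le_mul_of_nonneg_left h6 hκ0.le
    nlinarith
  have h8 : κ * c * (2 * h + κ * ((1 - β) ^ 2 * I) + G) ≤ 11 * lam * I := by
    have h9 : (1 - β) ^ 2 * I ≤ I := by nlinarith [mul_nonneg hβ.le hI]
    have h10 : 2 * h + κ * ((1 - β) ^ 2 * I) + G ≤ (60 * lam + κ) * I := by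
      nlinarith [mul_le_mul_of_nonneg_left h9 hκ0.le]
    calc _ ≤ κ * c * ((60 * lam + κ) * I) := mul_le_mul_of_nonneg_left h10 (by positivity)
      _ = κ * c * (60 * lam + κ) * I := by ring
      _ ≤ 11 * lam * I := mul_le_mul_of_nonneg_right hc hI
  have h11 : (1 - 16 * β) * lam * I ≤ lam * I := by nlinarith [mul_nonneg (mul_pos hβ hlam).le hI]
  have e : h + κ * ((1 - β) ^ 2 * I) / 2 - (1 - 16 * β) * lam * (I + κ * Q) =
      h + κ * X - (1 - 16 * β) * lam * I := by rw [hX]; ring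
  nlinarith

variable {μ : Measure (E n)} {R a δ lam d1 d2 : ℝ} {c : E n}

theorem key (hμ : Good μ R) (hL : LC μ R) (ha : 0 < a) (hSG : SG μ a c) (hδ : 0 < δ)
    (hδ' : δ ≤ 1 / 2) (hl : 10 ^ 9 * a ^ 2 ≤ lam * δ ^ 6) (h1 : Def μ ((1 - δ) * lam) d1)
    (h2 : Def μ (2 * lam) d2) : Def μ lam (max (d1 / 3) (10 * d2 / 9)) := by
  obtain ⟨β, rfl⟩ : ∃ β, δ = 16 * β := ⟨δ / 16, by ring⟩
  have hβ : 0 < β := by linarith
  have hβ' : β ≤ 1 / 32 := by linarith
  have hlam : 0 < lam := by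
    by_contra hneg
    push Not at hneg
    have : lam * (16 * β) ^ 6 ≤ 0 := mul_nonpos_of_nonpos_of_nonneg hneg (by positivity)
    have : 0 < 10 ^ 9 * a ^ 2 := by positivity
    linarith
  have hη : 0 < 1 - β := by linarith
  set S := 4 * β * lam * (1 - β) with hSdef
  have hS0 : 0 < S := by positivity
  have hs : 0 < β * S := by positivity
  have hS : β * S < S := by nlinarith
  intro g0 hg0 hN0
  obtain ⟨g, hgc, hN, hfix, hPhi⟩ := exists_fix (η := 1 - β) hμ hη hs hS hg0.continuous hN0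
  have hder : ∀ x, HasFDerivAt g ((1 - β)⁻¹ • innerSL ℝ (Mg μ g (β * S) S x)) x := by
    intro x
    have h3 := ((hasFDerivAt_Tg (S := S) hμ hgc hs x).const_smul (1 - β)⁻¹).sub_const
      (log (∫ w, exp (Tg μ g (β * S) S w / (1 - β)) ∂μ))
    have e : (fun x => ((1 - β)⁻¹ • Tg μ g (β * S) S) x -
        log (∫ w, exp (Tg μ g (β * S) S w / (1 - β)) ∂μ)) = BA μ (1 - β) (β * S) S g := by
      funext x
      simp only [BA, Pi.smul_apply, smul_eq_mul]
      ring
    rw [e, hfix] at h3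
    exact h3
  have hg : ContDiff ℝ 1 g := by
    have h3 := ((contDiff_Tg (S := S) hμ hgc hs).div_const (1 - β)).sub
      (contDiff_const (c := log (∫ w, exp (Tg μ g (β * S) S w / (1 - β)) ∂μ)))
    have e : (fun x => Tg μ g (β * S) S x / (1 - β) -
        log (∫ w, exp (Tg μ g (β * S) S w / (1 - β)) ∂μ)) = BA μ (1 - β) (β * S) S g := rfl
    rw [e, hfix] at h3
    exact h3
  have hI : ∫ x, exp (g x) * ‖Mg μ g (β * S) S x‖ ^ 2 ∂μ = (1 - β) ^ 2 * Ii μ g := by
    unfold Ii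
    rw [← integral_const_mul]
    refine integral_congr_ae (Filter.Eventually.of_forall fun x => ?_)
    simp only [(hder x).fderiv, norm_smul, innerSL_apply_norm, norm_inv, Real.norm_eq_abs,
      abs_of_pos hη]
    field_simp
  have hd0 : Hh μ g0 - lam * Ii μ g0 ≤ Hh μ g := by
    have e0 := ent_split hμ hg0.continuous hs hS
    have e1 := ent_split hμ hgc hs hS
    have l0 := Gg_le hμ hL hg0 hs hS
    have l1 := Gg_nonneg hμ hgc hs hS
    have hI0 := Ii_nonneg μ g0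
    unfold Phi at hPhi
    have l2 : (β * S + S) / 4 * Ii μ g0 ≤ β * lam * Ii μ g0 := by
      refine mul_le_mul_of_nonneg_right ?_ hI0
      rw [hSdef]
      nlinarith [mul_pos (mul_pos hβ hlam) (mul_pos hβ hβ)]
    have l3 : β * (Hh μ g0 - lam * Ii μ g0) ≤ β * Hh μ g := by nlinarith
    exact le_of_mul_le_mul_left l3 hβ
  have hIg := Ii_nonneg μ g
  by_cases hcase : Hh μ g ≤ 20 * lam * Ii μ g
  · have hz := zchan (κ := 8 * lam / β) (c := 8 * a ^ 2 / (β * S) ^ 2) hμ hg hN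
      (contDiff_Mg (S := S) hμ hgc hs) (continuous_Gg (S := S) hμ hgc hs) (by positivity)
      (by positivity) (fun g' hg' hN' => mean_le hμ ha hSG hgc hg' hN' hs hS) h1
    have hsl := slow hμ hL hg hs hS
    rw [hI] at hz hsl
    have hG : ∫ x, exp (g x) * Gg μ g (β * S) S x ∂μ ≤ Hh μ g := by
      have e1 := ent_split hμ hgc hs hS
      have := Tg_nonneg hμ hgc hN hs hS
      linarith
    have h3 := key_arith hβ hβ' hlam hl hIg hcase hG hsl hz
    have : d1 / 3 ≤ max (d1 / 3) (10 * d2 / 9) := le_max_left _ _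
    linarith
  · push Not at hcase
    have h3 := h2 g hg hN
    have : 10 * d2 / 9 ≤ max (d1 / 3) (10 * d2 / 9) := le_max_right _ _
    linarith

end Vale.Agent.P245
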