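import Vale.Agent.P245.Sm2
import Vale.Agent.P245.Mean

open MeasureTheory Real Set
open scoped RealInnerProductSpace ENNReal

namespace Vale.Agent.P245

variable {n : ℕ}

/-! Lower bound for the averaged posterior entropy. -/

variable {μ : Measure (E n)} {R : ℝ} {g : E n → ℝ} {s0 S : ℝ}

theorem low_bd (hμ : Good μ R) (hg : Continuous g) (hs : 0 < s0) :
    Bd s0 S ((2 * R / s0) ^ 2) (fun s y => ‖NN μ g s y‖ ^ 2) :=
  ⟨(sm_NN hμ hg).norm.pow 2, fun s h y => by
    rw [Real.norm_of_nonneg (sq_nonneg _)]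
    exact pow_le_pow_left₀ (norm_nonneg _) ((bd_NN hμ hg hs).bd s h y) 2⟩

theorem low_pt (hμ : Good μ R) (hg : Continuous g) (hs : 0 < s0) (hS : s0 < S) (x : E n) :
    ‖Mg μ g s0 S x‖ ^ 2 ≤ Av s0 S (fun s y => ‖NN μ g s y‖ ^ 2) x := by
  set v := Mg μ g s0 S x with hv
  have bN := bd_NN (S := S) hμ hg hs
  have b1 := low_bd (S := S) hμ hg hs
  have b0 : Bd s0 S ‖‖v‖ ^ 2‖ fun (_ : ℝ) (_ : E n) => ‖v‖ ^ 2 :=
    ⟨stronglyMeasurable_const, fun _ _ _ => le_rfl⟩
  have bL : Bd s0 S (‖(2 : ℝ) • innerSL ℝ v‖ * (2 * R / s0))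
      fun s y => ((2 : ℝ) • innerSL ℝ v) (NN μ g s y) :=
    ⟨((2 : ℝ) • innerSL ℝ v).continuous.comp_stronglyMeasurable bN.meas,
      fun s h y => ((2 : ℝ) • innerSL ℝ v).le_opNorm_of_le (bN.bd s h y)⟩
  have h := Av_mono bL (mean_bd_add b1 b0) hs hS (fun s _ y => by
    have := norm_sub_sq_real v (NN μ g s y)
    simp only [smul_apply, innerSL_apply_apply, smul_eq_mul]
    nlinarith [sq_nonneg ‖v - NN μ g s y‖]) x
  rw [← Av_clm _ bN hs, Av_add b1 b0 hs, Av_const hs hS] at h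
  have e : ((2 : ℝ) • innerSL ℝ v) (Av s0 S (NN μ g) x) = 2 * ‖v‖ ^ 2 := by
    rw [← real_inner_self_eq_norm_sq]; rfl
  linarith

theorem Gg_ge (hμ : Good μ R) (hL : LC μ R) (hg : ContDiff ℝ 1 g) (hs : 0 < s0) (hS : s0 < S) :
    (s0 + S) / 4 * Ii μ g - S / 2 * (Ii μ g - ∫ x, exp (g x) * ‖Mg μ g s0 S x‖ ^ 2 ∂μ) ≤
      ∫ x, exp (g x) * Gg μ g s0 S x ∂μ := by
  have gc := hg.continuous
  obtain ⟨M, -, hM⟩ := exists_bd gc R
  have b1 := low_bd (S := S) hμ gc hs
  have b2 : Bd s0 S (2 * M) (Hy μ g) := bd_Hy hμ gc hs hM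
  have c1 := continuous_Av b1 hs
  have c2 := (contDiff_Mg (S := S) hμ gc hs).continuous
  have k1 : ∫ x, exp (g x) * ‖Mg μ g s0 S x‖ ^ 2 ∂μ ≤
      ∫ x, exp (g x) • Av s0 S (fun s y => ‖NN μ g s y‖ ^ 2) x ∂μ :=
    integral_mono (hμ.integrable (by fun_prop)) (hμ.integrable (by fun_prop)) fun x =>
      mul_le_mul_of_nonneg_left (low_pt hμ gc hs hS x) (exp_pos (g x)).le
  have i1 := b1.integrable_pp hs hμ gc
  have i2 := b2.integrable_pp hs hμ gc
  have h2 := integral_Av b2 hs hμ gc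
  rw [integral_Av b1 hs hμ gc, integral_tau hS i1, intervalIntegral.integral_of_le hS.le] at k1
  rw [integral_tau hS i2, intervalIntegral.integral_of_le hS.le] at h2
  have j1 := i1.integral_prod_left
  have j2 := i2.integral_prod_left
  have j3 : IntervalIntegrable (fun s : ℝ => (S - s) * (Ii μ g / 2)) volume s0 S :=
    Continuous.intervalIntegrable (by fun_prop) _ _
  have k2 := integral_mono_ae (j1.const_mul (S / 2)) (j2.add j3.1) (by
    filter_upwards [ae_restrict_mem measurableSet_Ioc] with s hs'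
    have s1 := hs.trans hs'.1
    have t1 : s / 2 * JJ μ g s ≤ ∫ y, pp μ g s y • Hy μ g s y := by
      rw [JJ, ← integral_const_mul]
      refine integral_mono_of_nonneg (ae_of_all _ fun y => mul_nonneg (by linarith)
        (mul_nonneg (pp_pos hμ gc s1 y).le (sq_nonneg _)))
        ((integrable_pp hμ gc s1).mul_bdd
          ((sm_Hy hμ gc).comp_measurable measurable_prodMk_left).aestronglyMeasurable
          (ae_of_all _ (b2.bd s hs'))) (ae_of_all _ fun y => ?_)
      have := mul_le_mul_of_nonneg_left (post_T1 hμ hL gc s1 y) (pp_pos hμ gc s1 y).le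
      simp only [smul_eq_mul]
      linarith
    have t2 := mul_le_mul_of_nonneg_left (JJ_le hμ hL hg s1) (sub_nonneg.2 hs'.2)
    have t3 : ∫ y, pp μ g s y • ‖NN μ g s y‖ ^ 2 = JJ μ g s := rfl
    simp only [Pi.add_apply, t3]
    linarith)
  simp only [Pi.add_apply] at k2
  rw [integral_const_mul, integral_add j2 j3.1, ← intervalIntegral.integral_of_le hS.le
    (f := fun s : ℝ => (S - s) * (Ii μ g / 2)), intervalIntegral.integral_mul_const,
    intervalIntegral.integral_sub intervalIntegrable_const intervalIntegral.intervalIntegrable_id,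
    intervalIntegral.integral_const, integral_id] at k2
  have h5 : 0 < S - s0 := sub_pos.2 hS
  simp only [smul_eq_mul] at k1 h2 k2
  rw [Gg, h2]
  generalize ∫ s in Ioc s0 S, ∫ y, pp μ g s y * Hy μ g s y = A at k2
  generalize ∫ s in Ioc s0 S, ∫ y, pp μ g s y * ‖NN μ g s y‖ ^ 2 = B at k1 k2
  rw [le_inv_mul_iff₀ h5] at k1 ⊢
  nlinarith [mul_le_mul_of_nonneg_left k1 (show 0 ≤ S / 2 by linarith)]

end Vale.Agent.P245
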