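import Vale.Agent.P245.Mean
import Vale.Agent.P245.SLC3

open MeasureTheory Real Set
open scoped RealInnerProductSpace ENNReal

namespace Vale.Agent.P245

variable {n : ℕ}

/-! Sharper bound for the mean of `Mg`: the weight `1 / s` is kept inside the average. -/

variable {μ : Measure (E n)} {R : ℝ} {g g' : E n → ℝ} {a s s0 S : ℝ} {c : E n}

/-- Average of `1 / s` over `(s0, S]`. -/
noncomputable def WW (s0 S : ℝ) : ℝ := (S - s0)⁻¹ * log (S / s0)

/-- Posterior entropy averaged with the weight `1 / s`. -/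
noncomputable def G2 (μ : Measure (E n)) (g : E n → ℝ) (s0 S : ℝ) (x : E n) : ℝ :=
  (WW s0 S)⁻¹ * Av s0 S (fun s y => s⁻¹ * Hy μ g s y) x

theorem WW_pos (hs : 0 < s0) (hS : s0 < S) : 0 < WW s0 S :=
  mul_pos (inv_pos.2 (sub_pos.2 hS)) (log_pos ((one_lt_div hs).2 hS))

theorem m2_bd {f : ℝ → E n → ℝ} {C : ℝ} (hf : Bd s0 S C f) (hs : 0 < s0) :
    Bd s0 S (s0⁻¹ * C) fun s y => s⁻¹ * f s y :=
  ⟨measurable_fst.inv.stronglyMeasurable.mul hf.meas, fun s h y => by
    rw [norm_mul, Real.norm_of_nonneg (inv_pos.2 (hs.trans h.1)).le]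
    exact mul_le_mul (inv_anti₀ hs h.1.le) (hf.bd s h y) (norm_nonneg _) (inv_pos.2 hs).le⟩

theorem m2_weight (hμ : Good μ R) (hg' : Continuous g') (hs : 0 < s0) (hS : s0 < S)
    {f : ℝ → E n → ℝ} {C K : ℝ} (hf : Bd s0 S C f)
    (h : ∀ s ∈ Ioc s0 S, ∫ y, pp μ g' s y * f s y ≤ K) :
    ∫ x, exp (g' x) * Av s0 S (fun s y => s⁻¹ * f s y) x ∂μ ≤ WW s0 S * K := by
  have b := m2_bd hf hs
  refine (integral_Av b hs hμ hg').trans_le ?_
  have i := b.integrable_pp hs hμ hg'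
  have h0 : (0 : ℝ) ∉ uIcc s0 S := by
    rw [uIcc_of_le hS.le]; exact fun h => absurd h.1 (not_le.2 hs)
  have i1 : IntervalIntegrable (fun s : ℝ => s⁻¹ * K) volume s0 S :=
    (intervalIntegral.intervalIntegrable_inv (fun x hx hx0 => h0 (hx0 ▸ hx))
      continuousOn_id).mul_const K
  have i2 := i.integral_prod_left
  rw [integral_tau hS i, smul_eq_mul, WW, mul_assoc, ← integral_inv h0,
    ← intervalIntegral.integral_mul_const, intervalIntegral.integral_of_le hS.le,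
    intervalIntegral.integral_of_le hS.le]
  refine mul_le_mul_of_nonneg_left (integral_mono_ae i2 i1.1 ?_) (inv_pos.2 (sub_pos.2 hS)).le
  filter_upwards [ae_restrict_mem measurableSet_Ioc] with s hs'
  simp only [smul_eq_mul, mul_left_comm _ s⁻¹, integral_const_mul]
  exact mul_le_mul_of_nonneg_left (h s hs') (inv_pos.2 (hs.trans hs'.1)).le

theorem m2_int (hμ : Good μ R) (hg : Continuous g) (hg' : Continuous g') (hs : 0 < s) :
    Integrable fun y => pp μ g' s y * uu μ g s y := by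
  obtain ⟨M, -, hM⟩ := exists_bd hg R
  exact (integrable_pp hμ hg' hs).mul_bdd
    ((sm_uu hμ hg).comp_measurable measurable_prodMk_left).aestronglyMeasurable
    (ae_of_all _ (abs_uu_le hμ hg hs hM))

theorem m2_PP (hμ : Good μ R) (hg : Continuous g) (hs : 0 < s) (y : E n) :
    pp μ g s y * Hy μ g s y =
      PP μ (fun x => exp (g x) * g x) s y - pp μ g s y * uu μ g s y := by
  rw [Hy, mul_sub, mul_div_cancel₀ _ (pp_pos hμ hg hs y).ne', PP]
  simp only [mul_right_comm _ _ (g _)]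

theorem m2_young (hμ : Good μ R) (hg' : Continuous g') (hN : Nm μ g') (hs : 0 < s)
    {ψ : E n → ℝ} (hψ : Continuous ψ) (h1 : ∫ x, exp (ψ x) ∂μ ≤ 1) :
    ∫ y, pp μ g' s y * uu μ ψ s y ≤ Hh μ g' := by
  have i0 := m2_int hμ hψ hg' hs
  have i1 := integrable_pp hμ hg' hs
  have i2 := integrable_PP hμ hs (φ := fun x => exp (g' x) * g' x) (by fun_prop)
  have i3 := integrable_pp hμ hψ hs
  have k := integral_mono (i0.add i1) (i2.add i3) fun y => by
    have p := pp_pos hμ hg' hs y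
    have q := pp_pos hμ continuous_zero hs y
    have k1 := mul_le_mul_of_nonneg_left (add_one_le_exp (uu μ ψ s y - uu μ g' s y)) p.le
    have k2 : pp μ g' s y * exp (uu μ ψ s y - uu μ g' s y) = pp μ ψ s y := by
      rw [exp_sub, exp_uu hμ hg' hs, exp_uu hμ hψ hs]
      field_simp
    have k3 := mul_nonneg p.le (Hy_nonneg hμ hg' hs y)
    rw [m2_PP hμ hg' hs] at k3
    simp only [Pi.add_apply]
    linarith
  simp only [Pi.add_apply] at k
  rw [integral_add i0 i1, integral_add i2 i3, integral_pp hμ hg' hs, integral_pp hμ hψ hs,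
    integral_PP hμ hs (by fun_prop), show ∫ x, exp (g' x) ∂μ = 1 from hN, ← Hh] at k
  linarith

theorem m2_Hy (hμ : Good μ R) (hg : Continuous g) (hN : Nm μ g) (hs : 0 < s) :
    ∫ y, pp μ g s y * Hy μ g s y ≤ Hh μ g := by
  have := hμ.prob
  have i0 := m2_int hμ hg hg hs
  have i1 := integrable_pp hμ hg hs
  have i2 := integrable_PP hμ hs (φ := fun x => exp (g x) * g x) (by fun_prop)
  have i3 := integrable_pp hμ (g := 0) continuous_zero hs
  have k := integral_mono (i1.sub i3) i0 fun y => by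
    have p0 := pp_pos hμ hg hs y
    have q0 := pp_pos hμ (g := 0) continuous_zero hs y
    have h3 := mul_le_mul_of_nonneg_left (log_le_sub_one_of_pos (div_pos q0 p0)) p0.le
    rw [log_div q0.ne' p0.ne', mul_sub, mul_sub, mul_div_cancel₀ _ p0.ne'] at h3
    simp only [Pi.sub_apply, uu]
    linarith
  simp only [Pi.sub_apply] at k
  rw [integral_sub i1 i3, integral_pp hμ hg hs, integral_pp hμ continuous_zero hs,
    show ∫ x, exp (g x) ∂μ = 1 from hN] at k
  simp only [m2_PP hμ hg hs]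
  rw [integral_sub i2 i0, integral_PP hμ hs (by fun_prop), ← Hh]
  simp only [Pi.zero_apply, exp_zero, integral_const, probReal_univ, smul_eq_mul] at k
  linarith

theorem continuous_G2 (hμ : Good μ R) (hg : Continuous g) (hs : 0 < s0) :
    Continuous (G2 μ g s0 S) := by
  obtain ⟨M, -, hM⟩ := exists_bd hg R
  exact continuous_const.mul (continuous_Av (m2_bd (bd_Hy hμ hg hs hM) hs) hs)

theorem G2_le (hμ : Good μ R) (hg : Continuous g) (hN : Nm μ g) (hs : 0 < s0) (hS : s0 < S) :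
    ∫ x, exp (g x) * G2 μ g s0 S x ∂μ ≤ Hh μ g := by
  obtain ⟨M, -, hM⟩ := exists_bd hg R
  have h := m2_weight hμ hg hs hS (bd_Hy hμ hg hs hM) fun s h => m2_Hy hμ hg hN (hs.trans h.1)
  simp only [G2, mul_left_comm _ (WW s0 S)⁻¹, integral_const_mul]
  rwa [inv_mul_le_iff₀ (WW_pos hs hS)]

theorem m2_psi (hSG : SG μ a c) (ζ : E n) :
    ∫ x, exp (mean_psi a c ζ x) ∂μ ≤ 1 := by
  have e : ∀ x, exp (mean_psi a c ζ x) = exp ⟪ζ, x - c⟫ / exp (a ^ 2 * ‖ζ‖ ^ 2) := fun x => by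
    rw [← exp_sub, mean_psi, inner_sub_right]
    congr 1
    ring
  simp only [e]
  rw [integral_div, div_le_one (exp_pos _)]
  exact hSG ζ

theorem mean_le2 (hμ : Good μ R) (ha : 0 < a) (hSG : SG μ a c) (hg : Continuous g)
    (hg' : Continuous g') (hN : Nm μ g') (hs : 0 < s0) (hS : s0 < S) :
    ‖∫ x, exp (g' x) • Mg μ g s0 S x ∂μ‖ ^ 2 ≤
      8 * a ^ 2 * WW s0 S ^ 2 * (2 * Hh μ g' + ∫ x, exp (g' x) * G2 μ g s0 S x ∂μ) := by
  have := hμ.prob
  obtain ⟨M, -, hM⟩ := exists_bd hg R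
  have hW := WW_pos hs hS
  have bN := bd_NN (S := S) hμ hg hs
  have bH := m2_bd (bd_Hy (S := S) hμ hg hs hM) hs
  have cM : Continuous (Mg μ g s0 S) := continuous_Av bN hs
  have cG : Continuous (G2 μ g s0 S) := continuous_G2 hμ hg hs
  have key : ∀ ζ : E n, ⟪ζ, ∫ x, exp (g' x) • Mg μ g s0 S x ∂μ⟫ ≤ WW s0 S * (2 * a ^ 2 * ‖ζ‖ ^ 2 +
      (2 * Hh μ g' + ∫ x, exp (g' x) * G2 μ g s0 S x ∂μ)) := fun ζ => by
    obtain ⟨C1, -, hC1⟩ := exists_bd (mean_cpsi a c ζ) R
    obtain ⟨C2, -, hC2⟩ := exists_bd (mean_cpsi a c (-ζ)) R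
    have a1 := bd_uu (S := S) hμ (mean_cpsi a c ζ) hs hC1
    have a2 := bd_uu (S := S) hμ (mean_cpsi a c (-ζ)) hs hC2
    have a0 : Bd s0 S ‖2 * a ^ 2 * ‖ζ‖ ^ 2‖ fun (_ : ℝ) (_ : E n) => 2 * a ^ 2 * ‖ζ‖ ^ 2 :=
      ⟨stronglyMeasurable_const, fun _ _ _ => le_rfl⟩
    have k1 := m2_weight hμ hg' hs hS a1 fun s h =>
      m2_young hμ hg' hN (hs.trans h.1) (mean_cpsi a c ζ) (m2_psi hSG ζ)
    have k2 := m2_weight hμ hg' hs hS a2 fun s h =>
      m2_young hμ hg' hN (hs.trans h.1) (mean_cpsi a c (-ζ)) (m2_psi hSG (-ζ))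
    have k0 := m2_weight hμ hg' hs hS a0 (K := 2 * a ^ 2 * ‖ζ‖ ^ 2) fun s h => by
      rw [integral_mul_const, integral_pp hμ hg' (hs.trans h.1),
        show ∫ x, exp (g' x) ∂μ = 1 from hN, one_mul]
    have b0 := m2_bd a0 hs
    have b1 := m2_bd a1 hs
    have b2 := m2_bd a2 hs
    have c0 := continuous_Av b0 hs
    have c1 := continuous_Av b1 hs
    have c2 := continuous_Av b2 hs
    have bL : Bd s0 S (‖innerSL ℝ ζ‖ * (2 * R / s0)) fun s y => (innerSL ℝ ζ) (NN μ g s y) :=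
      ⟨(innerSL ℝ ζ).continuous.comp_stronglyMeasurable bN.meas,
        fun s h y => (innerSL ℝ ζ).le_opNorm_of_le (bN.bd s h y)⟩
    have pt : ∀ x, ⟪ζ, Mg μ g s0 S x⟫ ≤
        Av s0 S (fun s (_ : E n) => s⁻¹ * (2 * a ^ 2 * ‖ζ‖ ^ 2)) x + WW s0 S * G2 μ g s0 S x +
        Av s0 S (fun s y => s⁻¹ * uu μ (mean_psi a c ζ) s y) x +
        Av s0 S (fun s y => s⁻¹ * uu μ (mean_psi a c (-ζ)) s y) x := fun x => by
      have h := Av_mono bL (mean_bd_add (mean_bd_add (mean_bd_add b0 bH) b1) b2) hs hS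
        (fun s h y => by
          have s1 := hs.trans h.1
          have p1 := mean_post hμ hg s1 a c ζ y
          have p2 := mean_post hμ continuous_zero s1 a c (-ζ) y
          rw [Hy_zero, inner_neg_left, inner_neg_left, norm_neg] at p2
          have p3 := mul_le_mul_of_nonneg_left (add_le_add p1 p2) (inv_pos.2 s1).le
          simp only [NN, innerSL_apply_apply, inner_smul_right, inner_sub_right]
          linarith) x
      rw [G2, mul_inv_cancel_left₀ hW.ne']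
      rwa [← Av_clm _ bN hs, Av_add (mean_bd_add (mean_bd_add b0 bH) b1) b2 hs,
        Av_add (mean_bd_add b0 bH) b1 hs, Av_add b0 bH hs] at h
    generalize Av s0 S (fun s (_ : E n) => s⁻¹ * (2 * a ^ 2 * ‖ζ‖ ^ 2)) = A0 at c0 k0 pt
    generalize Av s0 S (fun s y => s⁻¹ * uu μ (mean_psi a c ζ) s y) = A1 at c1 k1 pt
    generalize Av s0 S (fun s y => s⁻¹ * uu μ (mean_psi a c (-ζ)) s y) = A2 at c2 k2 pt
    have h := integral_mono (f := fun x => exp (g' x) * ⟪ζ, Mg μ g s0 S x⟫)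
      (g := fun x => exp (g' x) * (A0 x + WW s0 S * G2 μ g s0 S x + A1 x + A2 x))
      (hμ.integrable (by fun_prop)) (hμ.integrable (by fun_prop))
      fun x => mul_le_mul_of_nonneg_left (pt x) (exp_pos (g' x)).le
    simp only [mul_add, mul_left_comm _ (WW s0 S)] at h
    rw [integral_add (hμ.integrable (by fun_prop)) (hμ.integrable (by fun_prop)),
      integral_add (hμ.integrable (by fun_prop)) (hμ.integrable (by fun_prop)),
      integral_add (hμ.integrable (by fun_prop)) (hμ.integrable (by fun_prop)),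
      integral_const_mul] at h
    rw [← integral_inner (hμ.integrable (by fun_prop))]
    simp only [inner_smul_right]
    linarith
  have h := key ((1 / (4 * a ^ 2 * WW s0 S)) • ∫ x, exp (g' x) • Mg μ g s0 S x ∂μ)
  rw [real_inner_smul_left, real_inner_self_eq_norm_sq, norm_smul,
    Real.norm_of_nonneg (by positivity)] at h
  generalize ‖∫ x, exp (g' x) • Mg μ g s0 S x ∂μ‖ = m at h ⊢
  generalize 2 * Hh μ g' + ∫ x, exp (g' x) * G2 μ g s0 S x ∂μ = X at h ⊢
  generalize WW s0 S = W at h hW ⊢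
  have e : m ^ 2 = 8 * a ^ 2 * W *
      (1 / (4 * a ^ 2 * W) * m ^ 2 - W * (2 * a ^ 2 * (1 / (4 * a ^ 2 * W) * m) ^ 2)) := by
    field_simp
    ring
  rw [e]
  calc _ ≤ 8 * a ^ 2 * W * (W * X) := mul_le_mul_of_nonneg_left (by linarith) (by positivity)
    _ = _ := by ring

end Vale.Agent.P245
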