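import Vale.Agent.P245.Fix2
import Vale.Agent.P245.Low
import Vale.Agent.P245.Z4
import Vale.Agent.P245.Mean2

open MeasureTheory Real Set
open scoped RealInnerProductSpace ENNReal

namespace Vale.Agent.P245

variable {n : ℕ}

theorem key2_c {a β lam L : ℝ} (hβ : 0 < β) (hβ' : β ≤ 1 / 40) (hlam : 0 < lam)
    (hl : 10 ^ 6 * a ^ 2 * L ^ 2 ≤ lam * (20 * β) ^ 3) :
    10 * lam * (8 * a ^ 2 * ((4 * β * lam * (1 - β) - β * (4 * β * lam * (1 - β)))⁻¹ * L) ^ 2) *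
      70 ≤ 25 * β := by
  have hη : 0 < 1 - β := by linarith
  have e0 : 4 * β * lam * (1 - β) - β * (4 * β * lam * (1 - β)) = 4 * β * lam * (1 - β) ^ 2 := by
    ring
  have e : 10 * lam * (8 * a ^ 2 * ((4 * β * lam * (1 - β) ^ 2)⁻¹ * L) ^ 2) * 70 =
      350 * (a ^ 2 * L ^ 2) / (β ^ 2 * lam * ((1 - β) ^ 2) ^ 2) := by
    field_simp
    ring
  rw [e0, e, div_le_iff₀ (by positivity)]
  have h2 : (9 : ℝ) / 10 ≤ (1 - β) ^ 2 := by nlinarith
  have h3 : (4 : ℝ) / 5 ≤ ((1 - β) ^ 2) ^ 2 := by nlinarith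
  have h4 : 0 < lam * β ^ 3 := by positivity
  have h5 := mul_le_mul_of_nonneg_left h3 h4.le
  have h6 : 0 ≤ a ^ 2 * L ^ 2 := by positivity
  nlinarith

theorem key2_arith {β lam h I G Q c d0 d1 d2 : ℝ} (hβ : 0 < β) (hβ' : β ≤ 1 / 40) (hlam : 0 < lam)
    (hc0 : 0 ≤ c) (hc : 10 * lam * c * 70 ≤ 25 * β) (hI : 0 ≤ I) (hh : h ≤ 20 * lam * I)
    (hG : G ≤ h) (hQ : 4 * β * lam * (1 - β) * Q + (1 - β) ^ 2 * I ≤ I)
    (h0 : d0 - 5 * β * (lam * I) ≤ h - lam * I) (h2 : h ≤ (1 + 20 * β) * lam * I + d2)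
    (hz : h + 10 * lam * ((1 - β) ^ 2 * I) / 2 -
        10 * lam * c * (2 * h + 10 * lam * ((1 - β) ^ 2 * I) + G) ≤
      (1 - 20 * β) * lam * (I + 10 * lam * Q) + d1) : d0 ≤ (d1 + 3 * d2) / 4 := by
  have hη : 0 < 1 - β := by linarith
  have h1 : 4 * lam * (1 - β) * Q ≤ (2 - β) * I := by
    have : β * (4 * lam * (1 - β) * Q) ≤ β * ((2 - β) * I) := by nlinarith
    exact le_of_mul_le_mul_left this hβ
  have h3 : 2 * lam * Q ≤ (1 + β) * I := by
    have : (1 - β) * (2 * (2 * lam * Q)) ≤ (1 - β) * (2 * ((1 + β) * I)) := by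
      nlinarith [mul_nonneg (mul_nonneg hβ.le hI) (show 0 ≤ 1 - 2 * β by linarith)]
    have := le_of_mul_le_mul_left this hη
    linarith
  have h4 : (1 - 20 * β) * (2 * lam * Q) ≤ (1 - 20 * β) * ((1 + β) * I) :=
    mul_le_mul_of_nonneg_left h3 (by linarith)
  have h5 : 17 * β * I ≤ (1 - β) ^ 2 * I - (1 - 20 * β) * (2 * lam * Q) := by
    nlinarith [mul_nonneg (sq_nonneg β) hI]
  have h6 := mul_le_mul_of_nonneg_left h5 (show 0 ≤ 5 * lam by positivity)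
  have h7 : 2 * h + 10 * lam * ((1 - β) ^ 2 * I) + G ≤ 70 * (lam * I) := by
    have h9 : (1 - β) ^ 2 * I ≤ I := by nlinarith [mul_nonneg hβ.le hI]
    nlinarith [mul_le_mul_of_nonneg_left h9 hlam.le]
  have h8 : 10 * lam * c * (2 * h + 10 * lam * ((1 - β) ^ 2 * I) + G) ≤ 25 * β * (lam * I) :=
    calc _ ≤ 10 * lam * c * (70 * (lam * I)) := mul_le_mul_of_nonneg_left h7 (by positivity)
      _ = 10 * lam * c * 70 * (lam * I) := by ring
      _ ≤ _ := mul_le_mul_of_nonneg_right hc (by positivity)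
  nlinarith

variable {μ : Measure (E n)} {R a δ lam d1 d2 d3 : ℝ} {c : E n}

theorem key2 (hμ : Good μ R) (hL : LC μ R) (ha : 0 < a) (hSG : SG μ a c) (hδ : 0 < δ)
    (hδ' : δ ≤ 1 / 2) (hlam : 0 < lam) (hl : 10 ^ 6 * a ^ 2 * log (20 / δ) ^ 2 ≤ lam * δ ^ 3)
    (h1 : Def μ ((1 - δ) * lam) d1) (h2 : Def μ ((1 + δ) * lam) d2) (h3 : Def μ (2 * lam) d3) :
    Def μ lam (max ((d1 + 3 * d2) / 4) (10 * d3 / 9)) := by
  obtain ⟨β, rfl⟩ : ∃ β, δ = 20 * β := ⟨δ / 20, by ring⟩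
  have hβ : 0 < β := by linarith
  have hβ' : β ≤ 1 / 40 := by linarith
  have hη : 0 < 1 - β := by linarith
  set S := 4 * β * lam * (1 - β) with hSdef
  have hS0 : 0 < S := by positivity
  have hs : 0 < β * S := by positivity
  have hS : β * S < S := by nlinarith
  intro g0 hg0 hN0
  obtain ⟨g, hgc, hN, hfix, hPhi⟩ := exists_fix (η := 1 - β) hμ hη hs hS hg0.continuous hN0
  have hder : ∀ x, HasFDerivAt g ((1 - β)⁻¹ • innerSL ℝ (Mg μ g (β * S) S x)) x := by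
    intro x
    have h3 := ((hasFDerivAt_Tg (S := S) hμ hgc hs x).const_smul (1 - β)⁻¹).sub_const
      (log (∫ w, exp (Tg μ g (β * S) S w / (1 - β)) ∂μ))
    have e : (fun x => ((1 - β)⁻¹ • Tg μ g (β * S) S) x -
        log (∫ w, exp (Tg μ g (β * S) S w / (1 - β)) ∂μ)) = BA μ (1 - β) (β * S) S g := by
      funext x
      simp only [BA, Pi.smul_apply, smul_eq_mul]
      ring
    rw [e, hfix] at h3
    exact h3
  have hg : ContDiff ℝ 1 g := by
    have h3 := ((contDiff_Tg (S := S) hμ hgc hs).div_const (1 - β)).sub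
      (contDiff_const (c := log (∫ w, exp (Tg μ g (β * S) S w / (1 - β)) ∂μ)))
    have e : (fun x => Tg μ g (β * S) S x / (1 - β) -
        log (∫ w, exp (Tg μ g (β * S) S w / (1 - β)) ∂μ)) = BA μ (1 - β) (β * S) S g := rfl
    rw [e, hfix] at h3
    exact h3
  have hI : ∫ x, exp (g x) * ‖Mg μ g (β * S) S x‖ ^ 2 ∂μ = (1 - β) ^ 2 * Ii μ g := by
    unfold Ii
    rw [← integral_const_mul]
    refine integral_congr_ae (Filter.Eventually.of_forall fun x => ?_)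
    simp only [(hder x).fderiv, norm_smul, innerSL_apply_norm, norm_inv, Real.norm_eq_abs,
      abs_of_pos hη]
    field_simp
  have hIg := Ii_nonneg μ g
  have hd : β * (Hh μ g0 - lam * Ii μ g0) + ∫ x, exp (g x) * Gg μ g (β * S) S x ∂μ ≤
      β * Hh μ g := by
    have e0 := ent_split hμ hg0.continuous hs hS
    have e1 := ent_split hμ hgc hs hS
    have l0 := Gg_le hμ hL hg0 hs hS
    have hI0 := Ii_nonneg μ g0
    unfold Phi at hPhi
    have l2 : (β * S + S) / 4 * Ii μ g0 ≤ β * lam * Ii μ g0 := by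
      refine mul_le_mul_of_nonneg_right ?_ hI0
      rw [hSdef]
      nlinarith [mul_pos (mul_pos hβ hlam) (mul_pos hβ hβ)]
    nlinarith
  have hd0 : Hh μ g0 - lam * Ii μ g0 ≤ Hh μ g :=
    le_of_mul_le_mul_left (by linarith [Gg_nonneg hμ hgc hs hS]) hβ
  have hd1 : Hh μ g0 - lam * Ii μ g0 - 5 * β * (lam * Ii μ g) ≤ Hh μ g - lam * Ii μ g := by
    have l1 := Gg_ge hμ hL hg hs hS
    rw [hI] at l1
    have l2 : β * (1 - 5 * β) * (lam * Ii μ g) ≤
        (β * S + S) / 4 * Ii μ g - S / 2 * (Ii μ g - (1 - β) ^ 2 * Ii μ g) := by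
      have e : (β * S + S) / 4 * Ii μ g - S / 2 * (Ii μ g - (1 - β) ^ 2 * Ii μ g) =
          β * (1 - 5 * β) * (lam * Ii μ g) + β ^ 2 * (1 + 5 * β - 2 * β ^ 2) * (lam * Ii μ g) := by
        rw [hSdef]; ring
      rw [e]
      have : 0 ≤ 1 + 5 * β - 2 * β ^ 2 := by nlinarith
      have : 0 ≤ β ^ 2 * (1 + 5 * β - 2 * β ^ 2) * (lam * Ii μ g) := by positivity
      linarith
    exact le_of_mul_le_mul_left (by linarith) hβ
  by_cases hcase : Hh μ g ≤ 20 * lam * Ii μ g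
  · have hz := zchan (κ := 10 * lam) (c := 8 * a ^ 2 * WW (β * S) S ^ 2) hμ hg hN
      (contDiff_Mg (S := S) hμ hgc hs) (continuous_G2 (S := S) hμ hgc hs) (by positivity)
      (by positivity) (fun g' hg' hN' => mean_le2 hμ ha hSG hgc hg' hN' hs hS) h1
    have hsl := slow hμ hL hg hs hS
    rw [hI] at hz hsl
    have hc : 10 * lam * (8 * a ^ 2 * WW (β * S) S ^ 2) * 70 ≤ 25 * β := by
      have e : S / (β * S) = 20 / (20 * β) := by field_simp
      rw [WW, e]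
      exact key2_c hβ hβ' hlam hl
    have h4 := key2_arith hβ hβ' hlam (by positivity) hc hIg hcase (G2_le hμ hgc hN hs hS) hsl hd1
      (h2 g hg hN) hz
    linarith [le_max_left ((d1 + 3 * d2) / 4) (10 * d3 / 9)]
  · push Not at hcase
    have h4 := h3 g hg hN
    linarith [le_max_right ((d1 + 3 * d2) / 4) (10 * d3 / 9)]

end Vale.Agent.P245
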