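import Vale.Agent.P245.Gauss

open MeasureTheory Real Set
open scoped RealInnerProductSpace ENNReal

namespace Vale.Agent.P245

variable {n : ℕ}

/-! Posterior quantities: positivity, bounds, the entropy inequality.
All integrands are continuous in `x`, hence integrable for a `Good` measure (`Good.integrable`:
bounded on the compact ball that carries `μ`).
`post_dv`: put `p = pp g`, `q = pp 0`, `r = pp ψ`; pointwise Young inequality
`e^g (ψ - g + log p - log r) ≤ e^ψ p / r - e^g` (from `t + 1 ≤ exp t`), multiply by `gk`, integrate,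
divide by `p`. `Hy_nonneg` is `post_dv` with `ψ = 0`. -/

variable {μ : Measure (E n)} {R : ℝ} {g : E n → ℝ} {s : ℝ}

theorem Good.integrable {V : Type*} [NormedAddCommGroup V] (hμ : Good μ R) {F : E n → V}
    (hF : Continuous F) : Integrable F μ := by
  have := hμ.prob
  have h1 : IntegrableOn F (Metric.closedBall 0 R) μ :=
    hF.continuousOn.integrableOn_compact (isCompact_closedBall 0 R)
  have h2 : μ.restrict (Metric.closedBall 0 R) = μ :=
    Measure.restrict_eq_self_of_ae_mem (hμ.supp.mono fun x hx => mem_closedBall_zero_iff.2 hx)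
  rwa [IntegrableOn, h2] at h1

theorem exists_bd {V : Type*} [NormedAddCommGroup V] {F : E n → V} (hF : Continuous F) (R : ℝ) :
    ∃ M : ℝ, 0 ≤ M ∧ ∀ x, ‖x‖ ≤ R → ‖F x‖ ≤ M := by
  obtain ⟨M, hM⟩ := (isCompact_closedBall (0 : E n) R).exists_bound_of_continuousOn hF.continuousOn
  exact ⟨max M 0, le_max_right _ _, fun x hx =>
    (hM x (mem_closedBall_zero_iff.2 hx)).trans (le_max_left _ _)⟩

theorem post_pos (hμ : Good μ R) {w : E n → ℝ} (hw : Continuous w) (h0 : ∀ x, 0 < w x) :
    0 < ∫ x, w x ∂μ := by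
  have := hμ.prob
  rw [integral_pos_iff_support_of_nonneg (fun x => (h0 x).le) (hμ.integrable hw)]
  have h1 : Function.support w = univ := eq_univ_of_forall fun x => (h0 x).ne'
  rw [h1, measure_univ]
  exact one_pos

theorem post_bound {V : Type*} [NormedAddCommGroup V] [NormedSpace ℝ V] (hμ : Good μ R)
    {w : E n → ℝ} (hw : Continuous w) (h0 : ∀ x, 0 < w x) {F : E n → V} {M : ℝ}
    (hM : ∀ x, ‖x‖ ≤ R → ‖F x‖ ≤ M) : ‖∫ x, w x • F x ∂μ‖ ≤ M * ∫ x, w x ∂μ := by
  rw [← integral_const_mul]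
  refine norm_integral_le_of_norm_le ((hμ.integrable hw).const_mul M) (hμ.supp.mono fun x hx => ?_)
  rw [norm_smul, Real.norm_eq_abs, abs_of_pos (h0 x), mul_comm]
  exact mul_le_mul_of_nonneg_right (hM x hx) (h0 x).le

theorem post_bound' {V : Type*} [NormedAddCommGroup V] [NormedSpace ℝ V] (hμ : Good μ R)
    {w : E n → ℝ} (hw : Continuous w) (h0 : ∀ x, 0 < w x) {F : E n → V} {M : ℝ}
    (hM : ∀ x, ‖x‖ ≤ R → ‖F x‖ ≤ M) : ‖(∫ x, w x ∂μ)⁻¹ • ∫ x, w x • F x ∂μ‖ ≤ M := by
  have hp := post_pos hμ hw h0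
  rw [norm_smul, Real.norm_eq_abs, abs_of_pos (inv_pos.2 hp), inv_mul_le_iff₀ hp, mul_comm]
  exact post_bound hμ hw h0 hM

theorem post_young (hμ : Good μ R) (hg : Continuous g) {ψ k : E n → ℝ} (hψ : Continuous ψ)
    (hk : Continuous k) (h0 : ∀ x, 0 < k x) :
    ∫ x, exp (g x) * k x * ψ x ∂μ ≤ ∫ x, exp (g x) * k x * g x ∂μ +
      (log (∫ x, exp (ψ x) * k x ∂μ) - log (∫ x, exp (g x) * k x ∂μ)) *
        ∫ x, exp (g x) * k x ∂μ := by
  have c1 : Continuous fun x => exp (g x) * k x := (continuous_exp.comp hg).mul hk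
  have c2 : Continuous fun x => exp (ψ x) * k x := (continuous_exp.comp hψ).mul hk
  have hp := post_pos hμ c1 fun x => mul_pos (exp_pos _) (h0 x)
  have hr := post_pos hμ c2 fun x => mul_pos (exp_pos _) (h0 x)
  set p := ∫ x, exp (g x) * k x ∂μ with hpd
  set r := ∫ x, exp (ψ x) * k x ∂μ with hrd
  have i1 := hμ.integrable c1
  have i2 := hμ.integrable c2
  have i3 := hμ.integrable (c1.fun_mul hg)
  have i4 : Integrable (fun x => exp (g x) * k x * g x +
      (log r - log p - 1) * (exp (g x) * k x)) μ := i3.add (i1.const_mul _)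
  have h1 : ∫ x, exp (g x) * k x * ψ x ∂μ ≤ ∫ x, (exp (g x) * k x * g x +
      (log r - log p - 1) * (exp (g x) * k x)) + p / r * (exp (ψ x) * k x) ∂μ := by
    refine integral_mono (hμ.integrable (c1.mul hψ))
      ((i3.add (i1.const_mul _)).add (i2.const_mul _)) fun x => ?_
    have h2 := add_one_le_exp (ψ x - g x + log p - log r)
    have h3 : exp (g x) * exp (ψ x - g x + log p - log r) = p / r * exp (ψ x) := by
      rw [exp_sub, exp_add, exp_sub, exp_log hp, exp_log hr]
      field_simp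
    have h4 := mul_le_mul_of_nonneg_left h2 (exp_pos (g x)).le
    rw [h3] at h4
    have h5 := mul_le_mul_of_nonneg_right h4 (h0 x).le
    simp only
    nlinarith
  rw [integral_add i4 (i2.const_mul _), integral_add i3 (i1.const_mul _),
    integral_const_mul, integral_const_mul, ← hpd, ← hrd, div_mul_cancel₀ _ hr.ne'] at h1
  linarith

theorem post_cw (hg : Continuous g) (s : ℝ) (y : E n) :
    Continuous fun x => exp (g x) * gk s y x :=
  (continuous_exp.comp hg).mul (continuous_gk_right s y)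

theorem post_w0 (g : E n → ℝ) (hs : 0 < s) (y x : E n) : 0 < exp (g x) * gk s y x :=
  mul_pos (exp_pos _) (gk_pos hs y x)

theorem post_dv0 (hμ : Good μ R) (hg : Continuous g) (hN : Nm μ g) {ψ : E n → ℝ}
    (hψ : Continuous ψ) :
    ∫ x, exp (g x) * ψ x ∂μ ≤ Hh μ g + log (∫ x, exp (ψ x) ∂μ) := by
  have h := post_young hμ hg hψ (k := fun _ => 1) continuous_const fun _ => one_pos
  simp only [mul_one] at h
  rw [show ∫ x, exp (g x) ∂μ = 1 from hN, log_one, sub_zero, mul_one] at h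
  exact h

theorem Good.integral_exp_pos (hμ : Good μ R) (hg : Continuous g) :
    0 < ∫ x, exp (g x) ∂μ := by
  exact post_pos hμ (continuous_exp.comp hg) fun _ => exp_pos _

theorem Hh_nonneg (hμ : Good μ R) (hg : Continuous g) (hN : Nm μ g) : 0 ≤ Hh μ g := by
  have := hμ.prob
  have h := post_dv0 hμ hg hN (ψ := fun _ => 0) continuous_const
  simpa using h

theorem Ii_nonneg (μ : Measure (E n)) (g : E n → ℝ) : 0 ≤ Ii μ g := by
  exact integral_nonneg fun _ => mul_nonneg (exp_pos _).le (sq_nonneg _)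

/-- Entropy inequality (Young form). -/
theorem dv (hμ : Good μ R) (hg : Continuous g) (hN : Nm μ g) {ψ : E n → ℝ} (hψ : Continuous ψ) :
    ∫ x, exp (g x) * ψ x ∂μ ≤ Hh μ g + log (∫ x, exp (ψ x) ∂μ) := by
  exact post_dv0 hμ hg hN hψ

theorem pp_eq_PP (μ : Measure (E n)) (g : E n → ℝ) (s : ℝ) (y : E n) :
    pp μ g s y = PP μ (fun x => exp (g x)) s y := rfl

theorem pp_zero (μ : Measure (E n)) (s : ℝ) (y : E n) : pp μ 0 s y = ∫ x, gk s y x ∂μ := by
  simp [pp]

theorem pp_pos (hμ : Good μ R) (hg : Continuous g) (hs : 0 < s) (y : E n) : 0 < pp μ g s y := by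
  exact post_pos hμ (post_cw hg s y) (post_w0 g hs y)

theorem exp_uu (hμ : Good μ R) (hg : Continuous g) (hs : 0 < s) (y : E n) :
    exp (uu μ g s y) = pp μ g s y / pp μ 0 s y := by
  rw [uu, exp_sub, exp_log (pp_pos hμ hg hs y), exp_log (pp_pos hμ continuous_zero hs y)]

theorem abs_PP_le (hμ : Good μ R) (hs : 0 < s) {φ : E n → ℝ} (hφ : Continuous φ) {M : ℝ}
    (hM : ∀ x, ‖x‖ ≤ R → ‖φ x‖ ≤ M) (y : E n) : |PP μ φ s y| ≤ M * pp μ 0 s y := by
  have h := post_bound hμ (continuous_gk_right s y) (gk_pos hs y) hM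
  rw [pp_zero]
  simpa only [PP, smul_eq_mul, mul_comm (gk s y _), Real.norm_eq_abs] using h

theorem abs_uu_le (hμ : Good μ R) (hg : Continuous g) (hs : 0 < s) {M : ℝ}
    (hM : ∀ x, ‖x‖ ≤ R → ‖g x‖ ≤ M) (y : E n) : |uu μ g s y| ≤ M := by
  have hp := pp_pos hμ hg hs y
  have hq := pp_pos hμ continuous_zero hs y
  have i0 := hμ.integrable (continuous_gk_right s y)
  have i1 := hμ.integrable (post_cw hg s y)
  have h1 : pp μ g s y ≤ exp M * pp μ 0 s y := by
    rw [pp_zero, ← integral_const_mul]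
    refine integral_mono_ae i1 (i0.const_mul _) (hμ.supp.mono fun x hx => ?_)
    exact mul_le_mul_of_nonneg_right (exp_le_exp.2 (abs_le.1 (hM x hx)).2) (gk_pos hs y x).le
  have h2 : exp (-M) * pp μ 0 s y ≤ pp μ g s y := by
    rw [pp_zero, ← integral_const_mul]
    refine integral_mono_ae (i0.const_mul _) i1 (hμ.supp.mono fun x hx => ?_)
    exact mul_le_mul_of_nonneg_right (exp_le_exp.2 (abs_le.1 (hM x hx)).1) (gk_pos hs y x).le
  have h3 := log_le_log hp h1
  have h4 := log_le_log (mul_pos (exp_pos _) hq) h2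
  rw [log_mul (exp_pos _).ne' hq.ne', log_exp] at h3 h4
  rw [uu, abs_le]
  constructor <;> linarith

theorem norm_av_le (hμ : Good μ R) (hg : Continuous g) (hs : 0 < s) (y : E n) :
    ‖av μ g s y‖ ≤ R := by
  exact post_bound' hμ (post_cw hg s y) (post_w0 g hs y) fun _ hx => hx

theorem norm_NN_le (hμ : Good μ R) (hg : Continuous g) (hs : 0 < s) (y : E n) :
    ‖NN μ g s y‖ ≤ 2 * R / s := by
  have h1 := norm_av_le hμ hg hs y
  have h2 := norm_av_le hμ continuous_zero hs y
  have h3 := norm_sub_le (av μ g s y) (av μ 0 s y)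
  rw [NN, norm_smul, Real.norm_eq_abs, abs_of_pos (inv_pos.2 hs), inv_mul_eq_div]
  exact div_le_div_of_nonneg_right (by linarith) hs.le

theorem norm_cv_le (hμ : Good μ R) (hg : Continuous g) (hs : 0 < s) (y : E n) :
    ‖cv μ g s y‖ ≤ 4 * R ^ 2 := by
  refine post_bound' hμ (post_cw hg s y) (post_w0 g hs y) fun x hx => ?_
  have h1 := norm_av_le hμ hg hs y
  have h2 : ‖x - av μ g s y‖ ≤ 2 * R := by linarith [norm_sub_le x (av μ g s y)]
  rw [ContinuousLinearMap.norm_smulRight_apply, innerSL_apply_norm]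
  nlinarith [norm_nonneg (x - av μ g s y)]

theorem norm_DN_le (hμ : Good μ R) (hg : Continuous g) (hs : 0 < s) (y : E n) :
    ‖DN μ g s y‖ ≤ 8 * R ^ 2 / s ^ 2 := by
  have h1 := norm_cv_le hμ hg hs y
  have h2 := norm_cv_le hμ continuous_zero hs y
  have h3 := norm_sub_le (cv μ g s y) (cv μ 0 s y)
  have h4 : 0 < s ^ 2 := by positivity
  rw [DN, norm_smul, Real.norm_eq_abs, abs_of_pos (inv_pos.2 h4), inv_mul_eq_div]
  exact div_le_div_of_nonneg_right (by linarith) h4.le

theorem inner_av (hμ : Good μ R) (hg : Continuous g) (hs : 0 < s) (y ζ : E n) :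
    ⟪ζ, av μ g s y⟫ = (∫ x, exp (g x) * gk s y x * ⟪ζ, x⟫ ∂μ) / pp μ g s y := by
  rw [av, inner_smul_right, ← integral_inner (hμ.integrable ((post_cw hg s y).fun_smul continuous_id')),
    inv_mul_eq_div]
  simp only [inner_smul_right]

theorem av_apply (hμ : Good μ R) (hg : Continuous g) (hs : 0 < s) (y : E n) (i : Fin n) :
    av μ g s y i = PP μ (fun x => exp (g x) * x i) s y / pp μ g s y := by
  have h := inner_av hμ hg hs y (EuclideanSpace.single i 1)
  simp only [EuclideanSpace.inner_single_left, map_one, one_mul] at h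
  rw [h, PP]
  simp only [mul_right_comm]

theorem inner_cv (hμ : Good μ R) (hg : Continuous g) (hs : 0 < s) (y a b : E n) :
    ⟪a, cv μ g s y b⟫ = (∫ x, exp (g x) * gk s y x *
      (⟪a, x - av μ g s y⟫ * ⟪b, x - av μ g s y⟫) ∂μ) / pp μ g s y := by
  have c0 : Continuous fun x : E n => x - av μ g s y := continuous_id'.sub continuous_const
  have c1 : Continuous fun x : E n => (innerSL ℝ (x - av μ g s y)).smulRight (x - av μ g s y) :=
    (((ContinuousLinearMap.smulRightL ℝ (E n) (E n)).continuous.comp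
      ((innerSL ℝ).continuous.comp c0)).clm_apply c0)
  have c2 := (post_cw hg s y).fun_smul c1
  rw [cv, smul_apply, inner_smul_right,
    ContinuousLinearMap.integral_apply (hμ.integrable c2),
    ← integral_inner (hμ.integrable (c2.clm_apply continuous_const)), inv_mul_eq_div]
  simp only [smul_apply, ContinuousLinearMap.smulRight_apply, innerSL_apply_apply,
    inner_smul_right, real_inner_comm b, mul_comm ⟪b, _⟫]

theorem post_dv (hμ : Good μ R) (hg : Continuous g) (hs : 0 < s) {ψ : E n → ℝ}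
    (hψ : Continuous ψ) (y : E n) :
    (∫ x, exp (g x) * gk s y x * ψ x ∂μ) / pp μ g s y ≤ Hy μ g s y + uu μ ψ s y := by
  have hp := pp_pos hμ hg hs y
  have h := post_young hμ hg hψ (continuous_gk_right s y) (gk_pos hs y)
  have h1 := div_le_div_of_nonneg_right h hp.le
  refine h1.trans (le_of_eq ?_)
  change (_ + (log (pp μ ψ s y) - log (pp μ g s y)) * pp μ g s y) / _ = _
  rw [add_div, mul_div_cancel_right₀ _ hp.ne', Hy, uu, uu]
  ring

theorem Hy_zero (μ : Measure (E n)) (s : ℝ) (y : E n) : Hy μ 0 s y = 0 := by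
  simp [Hy, uu]

theorem Hy_nonneg (hμ : Good μ R) (hg : Continuous g) (hs : 0 < s) (y : E n) :
    0 ≤ Hy μ g s y := by
  have h := post_dv hμ hg hs continuous_zero y
  simpa [uu] using h

theorem Hy_le (hμ : Good μ R) (hg : Continuous g) (hs : 0 < s) {M : ℝ}
    (hM : ∀ x, ‖x‖ ≤ R → ‖g x‖ ≤ M) (y : E n) : Hy μ g s y ≤ 2 * M := by
  have h1 := post_bound' hμ (post_cw hg s y) (post_w0 g hs y) hM
  have h2 := abs_uu_le hμ hg hs hM y
  rw [smul_eq_mul, inv_mul_eq_div, Real.norm_eq_abs] at h1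
  have h3 : (∫ x, exp (g x) * gk s y x * g x ∂μ) / pp μ g s y ≤ M := (abs_le.1 h1).2
  rw [Hy]
  linarith [(abs_le.1 h2).1]

end Vale.Agent.P245
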