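import Vale.Agent.P245.PLd
import Vale.Agent.P245.Post

open MeasureTheory Real Set
open scoped RealInnerProductSpace ENNReal

namespace Vale.Agent.P245

variable {n : ℕ}

/-! The conditioned measure. `lc_cond`: apply `plfn_euclid` to `ofReal (exp U * ρ)` etc. times the
indicator of the closed ball `B`; `ρ x ^ t * ρ y ^ (1-t) ≤ ρ (t•x+(1-t)•y)` from concavity of `log ρ`
on `{ρ > 0}`; `∫ exp U ∂(cond μ B) = (μ B)⁻¹ ∫⁻ 1_B exp U ρ` (`ProbabilityTheory.cond`,
`integral_eq_lintegral_of_nonneg_ae` or `ofReal_integral_eq_lintegral_ofReal`,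
`lintegral_withDensity_eq_lintegral_mul`); take logarithms (`Good.integral_exp_pos`). -/

theorem good_cond (μ : Measure (E n)) [IsProbabilityMeasure μ] {R : ℝ} (hR : 0 ≤ R)
    (h0 : μ (Metric.closedBall 0 R) ≠ 0) :
    Good (ProbabilityTheory.cond μ (Metric.closedBall 0 R)) R := by
  refine ⟨ProbabilityTheory.cond_isProbabilityMeasure h0, hR, ?_⟩
  filter_upwards [ProbabilityTheory.ae_cond_mem (μ := μ)
    (measurableSet_closedBall (x := (0 : E n)) (ε := R))] with x hx
  exact mem_closedBall_zero_iff.1 hx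

theorem lcc_int {ρ : E n → ℝ} (hm : Measurable ρ) (μ : Measure (E n))
    [IsProbabilityMeasure μ] (hμ : μ = volume.withDensity (fun x => ENNReal.ofReal (ρ x)))
    {R : ℝ} (hR : 0 ≤ R) (h0 : μ (Metric.closedBall 0 R) ≠ 0) {U : E n → ℝ}
    (hU : Continuous U) :
    ∫⁻ x, (Metric.closedBall (0 : E n) R).indicator
        (fun x => ENNReal.ofReal (exp (U x) * ρ x)) x =
      ENNReal.ofReal ((∫ x, exp (U x) ∂(ProbabilityTheory.cond μ (Metric.closedBall 0 R))) *
        (μ (Metric.closedBall 0 R)).toReal) := by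
  have hG := good_cond μ hR h0
  have hc : Continuous fun x => exp (U x) := continuous_exp.comp hU
  have hB : MeasurableSet (Metric.closedBall (0 : E n) R) := measurableSet_closedBall
  rw [ENNReal.ofReal_mul (hG.integral_exp_pos hU).le, ENNReal.ofReal_toReal (measure_ne_top _ _),
    ofReal_integral_eq_lintegral_ofReal (hG.integrable hc) (ae_of_all _ fun x => (exp_pos _).le),
    ProbabilityTheory.cond, lintegral_smul_measure, smul_eq_mul, mul_comm, ← mul_assoc,
    ENNReal.mul_inv_cancel h0 (measure_ne_top _ _), one_mul, lintegral_indicator hB, hμ,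
    setLIntegral_withDensity_eq_setLIntegral_mul _ hm.ennreal_ofReal
      hc.measurable.ennreal_ofReal hB]
  refine lintegral_congr fun x => ?_
  rw [ENNReal.ofReal_mul (exp_pos _).le, mul_comm]
  rfl

theorem lcc_pw {ρ : E n → ℝ} (hρ : ∀ x, 0 ≤ ρ x)
    (hc : ConcaveOn ℝ {x | 0 < ρ x} (fun x => log (ρ x))) {t : ℝ} (h0 : 0 < t) (h1 : t < 1)
    (x y : E n) {u v w : ℝ} (h : t * u + (1 - t) * v ≤ w) :
    (exp u * ρ x) ^ t * (exp v * ρ y) ^ (1 - t) ≤ exp w * ρ (t • x + (1 - t) • y) := by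
  have h2 : 0 < 1 - t := sub_pos.2 h1
  have hr : 0 ≤ exp w * ρ (t • x + (1 - t) • y) := mul_nonneg (exp_pos _).le (hρ _)
  rcases (hρ x).eq_or_lt with hx | hx
  · rw [← hx, mul_zero, Real.zero_rpow h0.ne', zero_mul]; exact hr
  rcases (hρ y).eq_or_lt with hy | hy
  · rw [← hy, mul_zero, Real.zero_rpow h2.ne', mul_zero]; exact hr
  have hz : 0 < ρ (t • x + (1 - t) • y) := hc.1 hx hy h0.le h2.le (by ring)
  have h3 := hc.2 hx hy h0.le h2.le (by ring)
  simp only [smul_eq_mul] at h3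
  rw [← exp_log hx, ← exp_log hy, ← exp_log hz, ← exp_add, ← exp_add, ← exp_add, ← exp_mul,
    ← exp_mul, ← exp_add]
  exact exp_le_exp.2 (by linarith)

theorem lc_cond {ρ : E n → ℝ} (hm : Measurable ρ) (hρ : ∀ x, 0 ≤ ρ x)
    (hc : ConcaveOn ℝ {x | 0 < ρ x} (fun x => log (ρ x))) (μ : Measure (E n))
    [IsProbabilityMeasure μ] (hμ : μ = volume.withDensity (fun x => ENNReal.ofReal (ρ x)))
    {R : ℝ} (hR : 0 ≤ R) (h0 : μ (Metric.closedBall 0 R) ≠ 0) :
    LC (ProbabilityTheory.cond μ (Metric.closedBall 0 R)) R := by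
  intro t ht0 ht1 U V W hU hV hW H
  have h2 : 0 < 1 - t := sub_pos.2 ht1
  have hG := good_cond μ hR h0
  have hB : MeasurableSet (Metric.closedBall (0 : E n) R) := measurableSet_closedBall
  have hms : ∀ {U : E n → ℝ}, Continuous U → Measurable ((Metric.closedBall (0 : E n) R).indicator
      (fun x => ENNReal.ofReal (exp (U x) * ρ x))) := fun hU =>
    (((continuous_exp.comp hU).measurable.mul hm).ennreal_ofReal).indicator hB
  have key := plfn_euclid ht0 ht1 n _ _ _ (hms hU) (hms hV) (hms hW) (by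
    intro x y
    by_cases hx : x ∈ Metric.closedBall (0 : E n) R
    swap
    · rw [indicator_of_notMem hx, ENNReal.zero_rpow_of_pos ht0, zero_mul]; exact zero_le
    by_cases hy : y ∈ Metric.closedBall (0 : E n) R
    swap
    · rw [indicator_of_notMem hy, ENNReal.zero_rpow_of_pos h2, mul_zero]; exact zero_le
    have hz : t • x + (1 - t) • y ∈ Metric.closedBall (0 : E n) R :=
      convex_closedBall _ _ hx hy ht0.le h2.le (by ring)
    have a1 : 0 ≤ exp (U x) * ρ x := mul_nonneg (exp_pos _).le (hρ _)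
    have a2 : 0 ≤ exp (V y) * ρ y := mul_nonneg (exp_pos _).le (hρ _)
    rw [indicator_of_mem hx, indicator_of_mem hy, indicator_of_mem hz,
      ENNReal.ofReal_rpow_of_nonneg a1 ht0.le, ENNReal.ofReal_rpow_of_nonneg a2 h2.le,
      ← ENNReal.ofReal_mul (Real.rpow_nonneg a1 _)]
    exact ENNReal.ofReal_le_ofReal (lcc_pw hρ hc ht0 ht1 x y
      (H x y (mem_closedBall_zero_iff.1 hx) (mem_closedBall_zero_iff.1 hy))))
  rw [lcc_int hm μ hμ hR h0 hU, lcc_int hm μ hμ hR h0 hV, lcc_int hm μ hμ hR h0 hW] at key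
  have a := hG.integral_exp_pos hU
  have b := hG.integral_exp_pos hV
  have w := hG.integral_exp_pos hW
  have c : 0 < (μ (Metric.closedBall 0 R)).toReal := ENNReal.toReal_pos h0 (measure_ne_top _ _)
  rw [ENNReal.ofReal_rpow_of_pos (mul_pos a c), ENNReal.ofReal_rpow_of_pos (mul_pos b c),
    ← ENNReal.ofReal_mul (Real.rpow_nonneg (mul_pos a c).le _),
    ENNReal.ofReal_le_ofReal_iff (mul_pos w c).le] at key
  have h3 := Real.log_le_log (mul_pos (Real.rpow_pos_of_pos (mul_pos a c) _)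
    (Real.rpow_pos_of_pos (mul_pos b c) _)) key
  rw [Real.log_mul (Real.rpow_pos_of_pos (mul_pos a c) _).ne'
      (Real.rpow_pos_of_pos (mul_pos b c) _).ne', Real.log_rpow (mul_pos a c),
    Real.log_rpow (mul_pos b c), Real.log_mul a.ne' c.ne', Real.log_mul b.ne' c.ne',
    Real.log_mul w.ne' c.ne'] at h3
  linarith

end Vale.Agent.P245
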