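import Vale.Agent.P245.Defs
import Vale.Agent.P074.PL1

open MeasureTheory Real Set
open scoped RealInnerProductSpace ENNReal

namespace Vale.Agent.P245

variable {n : ℕ}

/-! Prekopa-Leindler on the line with a general weight. Follow `Vale.Agent.P074.fourFn_real`:
`Vale.Agent.P074.exists_quantile` for `f` and `g`, the map `u ↦ t * T u + (1 - t) * S u` is strictly
monotone with derivative `t M/f + (1-t) N/g ≥ (M/f)^t (N/g)^(1-t)` (`Real.geom_mean_le_arith_mean2_weighted`),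
`lintegral_image_eq_lintegral_abs_deriv_mul`. If an integral is `0` the claim is trivial; infinite
integrals: truncate (`min f k` on `[-k, k]`) and use monotone convergence, or argue first for finite
integrals and pass to the supremum. -/

theorem pl1_pw {t a b M N : ℝ} (h0 : 0 < t) (h1 : t < 1) (ha : 0 < a) (hb : 0 < b) (hM : 0 < M)
    (hN : 0 < N) {J : ℝ≥0∞} (h : ENNReal.ofReal a ^ t * ENNReal.ofReal b ^ (1 - t) ≤ J) :
    ENNReal.ofReal M ^ t * ENNReal.ofReal N ^ (1 - t) ≤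
      ENNReal.ofReal (|t * (M / a) + (1 - t) * (N / b)|) * J := by
  have h2 : 0 < 1 - t := sub_pos.2 h1
  refine le_trans ?_ (mul_le_mul_right h _)
  rw [abs_of_pos (by positivity), ENNReal.ofReal_rpow_of_pos hM, ENNReal.ofReal_rpow_of_pos hN,
    ENNReal.ofReal_rpow_of_pos ha, ENNReal.ofReal_rpow_of_pos hb,
    ← ENNReal.ofReal_mul (by positivity), ← ENNReal.ofReal_mul (by positivity),
    ← ENNReal.ofReal_mul (by positivity)]
  refine ENNReal.ofReal_le_ofReal ?_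
  have h3 := Real.geom_mean_le_arith_mean2_weighted h0.le h2.le (div_pos hM ha).le
    (div_pos hN hb).le (by ring)
  have h4 : M ^ t * N ^ (1 - t) = (M / a) ^ t * (N / b) ^ (1 - t) * (a ^ t * b ^ (1 - t)) := by
    rw [Real.div_rpow hM.le ha.le, Real.div_rpow hN.le hb.le]
    have := Real.rpow_pos_of_pos ha t
    have := Real.rpow_pos_of_pos hb (1 - t)
    field_simp
  rw [h4]
  exact mul_le_mul_of_nonneg_right h3 (by positivity)

theorem pl1_fin {t : ℝ} (h0 : 0 < t) (h1 : t < 1) (f g h : ℝ → ℝ≥0∞) (hf : Measurable f)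
    (hg : Measurable g) (H : ∀ x y, f x ^ t * g y ^ (1 - t) ≤ h (t * x + (1 - t) * y))
    (hf1 : ∫⁻ x, f x ≠ ∞) (hg1 : ∫⁻ x, g x ≠ ∞) :
    (∫⁻ x, f x) ^ t * (∫⁻ x, g x) ^ (1 - t) ≤ ∫⁻ x, h x := by
  have h2 : 0 < 1 - t := sub_pos.2 h1
  by_cases hf0 : ∫⁻ x, f x = 0
  · rw [hf0, ENNReal.zero_rpow_of_pos h0, zero_mul]; exact zero_le
  by_cases hg0 : ∫⁻ x, g x = 0
  · rw [hg0, ENNReal.zero_rpow_of_pos h2, mul_zero]; exact zero_le
  obtain ⟨U, T, hU, hUae, hT, hTd⟩ := Vale.Agent.P074.exists_quantile f hf hf0 hf1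
  obtain ⟨V, S, hV, hVae, hS, hSd⟩ := Vale.Agent.P074.exists_quantile g hg hg0 hg1
  obtain ⟨M, hM⟩ : ∃ M, M = (∫⁻ x, f x).toReal := ⟨_, rfl⟩
  obtain ⟨N, hN⟩ : ∃ N, N = (∫⁻ x, g x).toReal := ⟨_, rfl⟩
  rw [← hM] at hTd
  rw [← hN] at hSd
  have hMpos : 0 < M := hM ▸ ENNReal.toReal_pos hf0 hf1
  have hNpos : 0 < N := hN ▸ ENNReal.toReal_pos hg0 hg1
  have eM : ∫⁻ x, f x = ENNReal.ofReal M := by rw [hM, ENNReal.ofReal_toReal hf1]
  have eN : ∫⁻ x, g x = ENNReal.ofReal N := by rw [hN, ENNReal.ofReal_toReal hg1]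
  have hWm : MeasurableSet (U ∩ V) := hU.inter hV
  have hWvol : volume (U ∩ V) = 1 := by
    have : (U ∩ V : Set ℝ) =ᵐ[volume] Icc (0 : ℝ) 1 := by
      have := hUae.inter hVae
      simpa using this
    rw [measure_congr this]; simp
  have hrd : ∀ u ∈ U ∩ V, HasDerivWithinAt (fun u => t * T u + (1 - t) * S u)
      (t * (M / (f (T u)).toReal) + (1 - t) * (N / (g (S u)).toReal)) (U ∩ V) u :=
    fun u hu => (((hTd u hu.1).2.2.mono inter_subset_left).const_mul t).add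
      (((hSd u hu.2).2.2.mono inter_subset_right).const_mul (1 - t))
  have hrW : StrictMonoOn (fun u => t * T u + (1 - t) * S u) (U ∩ V) := by
    intro u hu v hv huv
    have a1 := mul_lt_mul_of_pos_left (hT hu.1 hv.1 huv) h0
    have a2 := mul_lt_mul_of_pos_left (hS hu.2 hv.2 huv) h2
    exact add_lt_add a1 a2
  have cJ := lintegral_image_eq_lintegral_abs_deriv_mul hWm hrd hrW.injOn h
  rw [eM, eN]
  calc ENNReal.ofReal M ^ t * ENNReal.ofReal N ^ (1 - t)
      = ∫⁻ _ in U ∩ V, ENNReal.ofReal M ^ t * ENNReal.ofReal N ^ (1 - t) := by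
        rw [setLIntegral_const, hWvol, mul_one]
    _ ≤ ∫⁻ u in U ∩ V, ENNReal.ofReal
          (|t * (M / (f (T u)).toReal) + (1 - t) * (N / (g (S u)).toReal)|) *
          h (t * T u + (1 - t) * S u) := by
        refine setLIntegral_mono' hWm fun u hu => ?_
        obtain ⟨a1, a2, -⟩ := hTd u hu.1
        obtain ⟨a3, a4, -⟩ := hSd u hu.2
        refine pl1_pw h0 h1 (ENNReal.toReal_pos a1 a2) (ENNReal.toReal_pos a3 a4) hMpos hNpos ?_
        rw [ENNReal.ofReal_toReal a2, ENNReal.ofReal_toReal a4]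
        exact H _ _
    _ ≤ _ := by
        rw [← cJ]
        exact setLIntegral_le_lintegral _ _

theorem pl1_trunc (f : ℝ → ℝ≥0∞) (hf : Measurable f) :
    ∃ F : ℕ → ℝ → ℝ≥0∞, (∀ k, Measurable (F k)) ∧ (∀ k x, F k x ≤ f x) ∧
      (∀ k, ∫⁻ x, F k x ≠ ∞) ∧ ∫⁻ x, f x = ⨆ k, ∫⁻ x, F k x := by
  have hm : ∀ k : ℕ, Measurable
      ((Icc (-(k : ℝ)) k).indicator fun x => min (f x) (k : ℝ≥0∞)) :=
    fun k => (hf.min measurable_const).indicator measurableSet_Icc
  have hle : ∀ (k : ℕ) x,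
      ((Icc (-(k : ℝ)) k).indicator fun x => min (f x) (k : ℝ≥0∞)) x ≤ f x :=
    fun k x => (indicator_le_self _ _ x).trans (min_le_left _ _)
  refine ⟨fun k => (Icc (-(k : ℝ)) k).indicator fun x => min (f x) (k : ℝ≥0∞), hm, hle, ?_, ?_⟩
  · intro k
    rw [lintegral_indicator measurableSet_Icc]
    refine ne_top_of_le_ne_top ?_ (lintegral_mono fun x => min_le_right (f x) (k : ℝ≥0∞))
    rw [setLIntegral_const]
    exact ENNReal.mul_ne_top (ENNReal.natCast_ne_top k) measure_Icc_lt_top.ne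
  · rw [← lintegral_iSup hm]
    · refine lintegral_congr fun x => le_antisymm ?_ (iSup_le fun k => hle k x)
      refine le_of_forall_lt fun c hc => ?_
      obtain ⟨k1, hk1⟩ := ENNReal.exists_nat_gt (ne_top_of_lt hc)
      obtain ⟨k2, hk2⟩ := exists_nat_ge |x|
      refine lt_of_lt_of_le ?_ (le_iSup _ (max k1 k2))
      have a1 : (k2 : ℝ) ≤ (max k1 k2 : ℕ) := by exact_mod_cast le_max_right k1 k2
      have a2 : (k1 : ℝ≥0∞) ≤ (max k1 k2 : ℕ) := by exact_mod_cast le_max_left k1 k2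
      rw [indicator_of_mem (mem_Icc.2 (abs_le.1 (hk2.trans a1)))]
      exact lt_min hc (hk1.trans_le a2)
    · intro k l hkl x
      have a1 : (k : ℝ) ≤ l := by exact_mod_cast hkl
      have a2 : (k : ℝ≥0∞) ≤ l := by exact_mod_cast hkl
      exact indicator_le_indicator_of_subset (Icc_subset_Icc (neg_le_neg a1) a1)
        (fun _ => zero_le) x |>.trans
        (indicator_le_indicator (min_le_min_left _ a2))

theorem pl1_iSup {t : ℝ} (h0 : 0 < t) (a : ℕ → ℝ≥0∞) : (⨆ k, a k) ^ t = ⨆ k, a k ^ t :=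
  (ENNReal.orderIsoRpow t h0).map_iSup a

theorem plfn_real {t : ℝ} (h0 : 0 < t) (h1 : t < 1) :
    PLfn (volume : Measure ℝ) t (fun x y => t * x + (1 - t) * y) := by
  intro f g h hf hg _ H
  have h2 : 0 < 1 - t := sub_pos.2 h1
  obtain ⟨F, hF1, hF2, hF3, hF4⟩ := pl1_trunc f hf
  obtain ⟨G, hG1, hG2, hG3, hG4⟩ := pl1_trunc g hg
  rw [hF4, hG4, pl1_iSup h0, pl1_iSup h2, ENNReal.iSup_mul]
  refine iSup_le fun k => ?_
  rw [ENNReal.mul_iSup]
  refine iSup_le fun l => ?_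
  refine pl1_fin h0 h1 _ _ h (hF1 k) (hG1 l) (fun x y => le_trans ?_ (H x y)) (hF3 k) (hG3 l)
  exact mul_le_mul' (ENNReal.rpow_le_rpow (hF2 k x) h0.le) (ENNReal.rpow_le_rpow (hG2 l y) h2.le)

end Vale.Agent.P245
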