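import Vale.Agent.P245.PL1

open MeasureTheory Real Set
open scoped RealInnerProductSpace ENNReal

namespace Vale.Agent.P245

variable {n : ℕ}

/-! Tensorisation, exactly as in `Vale/Agent/P074/PLd.lean` (`FourFn.prod`, `.transfer`, `fourFn_pi`,
`fourFn_euclid`). -/

theorem pld_prod {X Y : Type*} [MeasurableSpace X] [MeasurableSpace Y] {μ : Measure X}
    {ν : Measure Y} [SFinite μ] [SFinite ν] {t : ℝ} {m1 : X → X → X} {m2 : Y → Y → Y}
    (h1 : PLfn μ t m1) (h2 : PLfn ν t m2) :
    PLfn (μ.prod ν) t (fun p q => (m1 p.1 q.1, m2 p.2 q.2)) := by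
  intro f g J hf hg hJ h
  rw [lintegral_prod _ hf.aemeasurable, lintegral_prod _ hg.aemeasurable,
    lintegral_prod _ hJ.aemeasurable]
  refine h1 _ _ _ hf.lintegral_prod_right' hg.lintegral_prod_right' hJ.lintegral_prod_right'
    fun x y => ?_
  exact h2 (fun a => f (x, a)) (fun a => g (y, a)) (fun a => J (m1 x y, a)) (by fun_prop)
    (by fun_prop) (by fun_prop) fun a b => h (x, a) (y, b)

theorem pld_transfer {X Y : Type*} [MeasurableSpace X] [MeasurableSpace Y] {μ : Measure X}
    {ν : Measure Y} {t : ℝ} {m1 : X → X → X} {m2 : Y → Y → Y} (e : X → Y)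
    (he : MeasurePreserving e μ ν) (hm : ∀ x y, e (m1 x y) = m2 (e x) (e y))
    (h1 : PLfn μ t m1) : PLfn ν t m2 := by
  intro f g J hf hg hJ h
  rw [← he.lintegral_comp hf, ← he.lintegral_comp hg, ← he.lintegral_comp hJ]
  refine h1 (fun a => f (e a)) (fun a => g (e a)) (fun a => J (e a)) (hf.comp he.measurable)
    (hg.comp he.measurable) (hJ.comp he.measurable) fun x y => ?_
  rw [hm]; exact h _ _

theorem pld_pi {t : ℝ} (h0 : 0 < t) (h1 : t < 1) (n : ℕ) :
    PLfn (volume : Measure (Fin n → ℝ)) t (fun x y => t • x + (1 - t) • y) := by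
  induction n with
  | zero =>
    intro f g J hf hg hJ h
    have hu : (volume : Measure (Fin 0 → ℝ)) univ = 1 := by
      simp [volume_pi]
    simp only [lintegral_unique, hu, mul_one]
    generalize (@default (Fin 0 → ℝ) Unique.instInhabited) = z
    have := h z z
    have e : J ((fun x y => t • x + (1 - t) • y) z z) = J z :=
      congrArg J (Subsingleton.elim _ _)
    rw [e] at this
    exact this
  | succ n ih =>
    have h2 := pld_prod (plfn_real h0 h1) ih
    refine pld_transfer (MeasurableEquiv.piFinSuccAbove (fun _ : Fin (n + 1) => ℝ) 0).symm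
      ((volume_preserving_piFinSuccAbove (fun _ : Fin (n + 1) => ℝ) 0).symm _) (fun x y => ?_) h2
    ext i
    refine Fin.cases ?_ (fun j => ?_) i
    · simp [MeasurableEquiv.piFinSuccAbove_symm_apply, Fin.insertNthEquiv]
    · simp [MeasurableEquiv.piFinSuccAbove_symm_apply, Fin.insertNthEquiv]

theorem plfn_euclid {t : ℝ} (h0 : 0 < t) (h1 : t < 1) (n : ℕ) :
    PLfn (volume : Measure (E n)) t (fun x y => t • x + (1 - t) • y) := by
  refine pld_transfer (WithLp.toLp 2) (PiLp.volume_preserving_toLp (Fin n)) (fun x y => ?_)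
    (pld_pi h0 h1 n)
  simp

end Vale.Agent.P245
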