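import Vale.Agent.P245.Post
import Vale.Agent.P245.Stein

open MeasureTheory Real Set
open scoped RealInnerProductSpace ENNReal

namespace Vale.Agent.P245

variable {n : ℕ}

/-! Joint measurability in `(s, y)` (use `MeasureTheory.StronglyMeasurable.integral_prod_right'`
on `(ℝ × E n) × E n` with `measurable_gk`), and Fubini for `PP` at a fixed time
(`integral_integral_swap`, `integrable_prod_iff'`, `integral_gk`). -/

variable {μ : Measure (E n)} {R : ℝ} {g : E n → ℝ} {s : ℝ}

theorem postm_gk : Measurable fun p : (ℝ × E n) × E n => gk p.1.1 p.1.2 p.2 :=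
  measurable_gk.comp (f := fun p : (ℝ × E n) × E n => (p.1.1, p.1.2, p.2)) (by fun_prop)

theorem postm_sm {V : Type*} [NormedAddCommGroup V] [NormedSpace ℝ V] (hμ : Good μ R)
    {F : (ℝ × E n) × E n → V} (hF : StronglyMeasurable F) :
    StronglyMeasurable fun z => ∫ x, F (z, x) ∂μ :=
  have := hμ.prob
  hF.integral_prod_right'

theorem sm_PP (hμ : Good μ R) {φ : E n → ℝ} (hφ : Continuous φ) :
    StronglyMeasurable (fun z : ℝ × E n => PP μ φ z.1 z.2) :=
  postm_sm hμ ((hφ.measurable.comp measurable_snd).mul postm_gk).stronglyMeasurable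

theorem sm_PS (hμ : Good μ R) {φ : E n → ℝ} (hφ : Continuous φ) :
    StronglyMeasurable (fun z : ℝ × E n => PS μ φ z.1 z.2) :=
  postm_sm hμ ((hφ.measurable.comp measurable_snd).mul
    (postm_gk.mul (by fun_prop : Measurable fun p : (ℝ × E n) × E n =>
      ‖p.1.2 - p.2‖ ^ 2 / (2 * p.1.1 ^ 2) - n / (2 * p.1.1)))).stronglyMeasurable

theorem sm_PD (hμ : Good μ R) {φ : E n → ℝ} (hφ : Continuous φ) :
    StronglyMeasurable (fun z : ℝ × E n => PD μ φ z.1 z.2) :=
  postm_sm hμ ((((hφ.measurable.comp measurable_snd).mul postm_gk).div measurable_fst.fst).smul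
    (by fun_prop : Measurable fun p : (ℝ × E n) × E n => p.2 - p.1.2)).stronglyMeasurable

theorem sm_pp (hμ : Good μ R) (hg : Continuous g) :
    StronglyMeasurable (fun z : ℝ × E n => pp μ g z.1 z.2) := sm_PP hμ hg.rexp

theorem sm_av (hμ : Good μ R) (hg : Continuous g) :
    StronglyMeasurable (fun z : ℝ × E n => av μ g z.1 z.2) :=
  (sm_pp hμ hg).measurable.inv.stronglyMeasurable.smul (postm_sm hμ
    (((hg.rexp.measurable.comp measurable_snd).mul postm_gk).smul
      measurable_snd).stronglyMeasurable)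

theorem sm_cv (hμ : Good μ R) (hg : Continuous g) :
    StronglyMeasurable (fun z : ℝ × E n => cv μ g z.1 z.2) := by
  have h1 : Continuous fun v : E n => (innerSL ℝ v).smulRight v :=
    (ContinuousLinearMap.smulRightL ℝ (E n) (E n)).continuous₂.comp
      ((innerSL ℝ (E := E n)).continuous.prodMk continuous_id)
  exact (sm_pp hμ hg).measurable.inv.stronglyMeasurable.smul (postm_sm hμ
    (((hg.rexp.measurable.comp measurable_snd).mul postm_gk).stronglyMeasurable.smul
      (h1.comp_stronglyMeasurable (measurable_snd.stronglyMeasurable.sub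
        ((sm_av hμ hg).comp_measurable measurable_fst)))))

theorem sm_uu (hμ : Good μ R) (hg : Continuous g) :
    StronglyMeasurable (fun z : ℝ × E n => uu μ g z.1 z.2) :=
  ((sm_pp hμ hg).measurable.log.sub (sm_pp hμ continuous_zero).measurable.log).stronglyMeasurable

theorem sm_NN (hμ : Good μ R) (hg : Continuous g) :
    StronglyMeasurable (fun z : ℝ × E n => NN μ g z.1 z.2) :=
  measurable_fst.inv.stronglyMeasurable.smul ((sm_av hμ hg).sub (sm_av hμ continuous_zero))

theorem sm_DN (hμ : Good μ R) (hg : Continuous g) :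
    StronglyMeasurable (fun z : ℝ × E n => DN μ g z.1 z.2) :=
  (measurable_fst.pow_const 2).inv.stronglyMeasurable.smul
    ((sm_cv hμ hg).sub (sm_cv hμ continuous_zero))

theorem sm_Hy (hμ : Good μ R) (hg : Continuous g) :
    StronglyMeasurable (fun z : ℝ × E n => Hy μ g z.1 z.2) :=
  (((postm_sm hμ (((hg.rexp.measurable.comp measurable_snd).mul postm_gk).mul
    (hg.measurable.comp measurable_snd)).stronglyMeasurable).measurable.div
      (sm_pp hμ hg).measurable).sub (sm_uu hμ hg).measurable).stronglyMeasurable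

theorem sm_KS (hμ : Good μ R) (hg : Continuous g) :
    StronglyMeasurable (fun z : ℝ × E n => KS μ g z.1 z.2) := by
  have a1 := (sm_av hμ hg).measurable
  have a0 := (sm_av hμ continuous_zero).measurable
  have p1 := (sm_pp hμ hg).measurable
  have p0 := (sm_pp hμ continuous_zero).measurable
  have hc : ∀ i, Measurable fun z : ℝ × E n => (av μ g z.1 z.2 - av μ 0 z.1 z.2) i := fun i =>
    (EuclideanSpace.proj i).continuous.measurable.comp (a1.sub a0)
  refine Measurable.stronglyMeasurable ?_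
  refine ((((((a1.sub a0).norm.pow_const 2).sub (((a1.sub a0).inner a1).const_mul 2)).mul
    (sm_PS hμ hg.rexp).measurable).add (Finset.measurable_sum _ fun i _ => ((hc i).const_mul 2).mul
      (sm_PS hμ (hg.rexp.mul (by fun_prop))).measurable)).sub (Finset.measurable_sum _ fun i _ =>
        (((p1.div p0).mul (hc i)).const_mul 2).mul (sm_PS hμ (by fun_prop)).measurable)).add
    ((((p1.div p0).mul ((a1.sub a0).inner a0)).const_mul 2).mul
      (sm_PS hμ continuous_const).measurable)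

theorem postm_int (hμ : Good μ R) (hs : 0 < s) {φ : E n → ℝ} (hφ : Continuous φ) :
    Integrable (fun p : E n × E n => φ p.1 * gk s p.2 p.1) (μ.prod volume) := by
  have := hμ.prob
  refine (integrable_prod_iff ((hφ.comp continuous_fst).mul
    ((continuous_gk s).comp continuous_swap)).aestronglyMeasurable).2
    ⟨.of_forall fun x => (integrable_gk hs x).const_mul (φ x), ?_⟩
  change Integrable (fun x => ∫ y, ‖φ x * gk s y x‖) μ
  simp only [norm_mul, integral_const_mul, Real.norm_of_nonneg (gk_pos hs _ _).le, integral_gk hs,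
    mul_one]
  exact hμ.integrable hφ.norm

theorem integrable_PP (hμ : Good μ R) (hs : 0 < s) {φ : E n → ℝ} (hφ : Continuous φ) :
    Integrable (PP μ φ s) := by
  have := hμ.prob
  exact (postm_int hμ hs hφ).integral_prod_right

theorem integral_PP (hμ : Good μ R) (hs : 0 < s) {φ : E n → ℝ} (hφ : Continuous φ) :
    ∫ y, PP μ φ s y = ∫ x, φ x ∂μ := by
  have := hμ.prob
  unfold PP
  rw [← integral_integral_swap (f := fun x y => φ x * gk s y x) (postm_int hμ hs hφ)]
  simp only [integral_const_mul, integral_gk hs, mul_one]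

theorem integrable_pp (hμ : Good μ R) (hg : Continuous g) (hs : 0 < s) :
    Integrable (pp μ g s) := integrable_PP hμ hs hg.rexp

theorem integral_pp (hμ : Good μ R) (hg : Continuous g) (hs : 0 < s) :
    ∫ y, pp μ g s y = ∫ x, exp (g x) ∂μ := integral_PP hμ hs hg.rexp

theorem bd_uu (hμ : Good μ R) (hg : Continuous g) {s0 S : ℝ} (hs : 0 < s0) {M : ℝ}
    (hM : ∀ x, ‖x‖ ≤ R → ‖g x‖ ≤ M) : Bd s0 S M (uu μ g) :=
  ⟨sm_uu hμ hg, fun _ h y => abs_uu_le hμ hg (hs.trans h.1) hM y⟩

theorem bd_NN (hμ : Good μ R) (hg : Continuous g) {s0 S : ℝ} (hs : 0 < s0) :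
    Bd s0 S (2 * R / s0) (NN μ g) :=
  ⟨sm_NN hμ hg, fun _ h y => (norm_NN_le hμ hg (hs.trans h.1) y).trans
    (div_le_div_of_nonneg_left (mul_nonneg zero_le_two hμ.nn) hs h.1.le)⟩

theorem bd_DN (hμ : Good μ R) (hg : Continuous g) {s0 S : ℝ} (hs : 0 < s0) :
    Bd s0 S (8 * R ^ 2 / s0 ^ 2) (DN μ g) :=
  ⟨sm_DN hμ hg, fun _ h y => (norm_DN_le hμ hg (hs.trans h.1) y).trans
    (div_le_div_of_nonneg_left (by positivity) (by positivity) (pow_le_pow_left₀ hs.le h.1.le 2))⟩

theorem bd_Hy (hμ : Good μ R) (hg : Continuous g) {s0 S : ℝ} (hs : 0 < s0) {M : ℝ}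
    (hM : ∀ x, ‖x‖ ≤ R → ‖g x‖ ≤ M) : Bd s0 S (2 * M) (Hy μ g) :=
  ⟨sm_Hy hμ hg, fun _ h y => (Real.norm_of_nonneg (Hy_nonneg hμ hg (hs.trans h.1) y)).trans_le
    (Hy_le hμ hg (hs.trans h.1) hM y)⟩

theorem sm_JJ (hμ : Good μ R) (hg : Continuous g) : StronglyMeasurable (JJ μ g) :=
  ((sm_pp hμ hg).mul ((sm_NN hμ hg).norm.pow 2)).integral_prod_right'

theorem sm_TT (hμ : Good μ R) (hg : Continuous g) : StronglyMeasurable (TT μ g) :=
  ((sm_pp hμ hg).mul (continuous_HS.comp_stronglyMeasurable (sm_DN hμ hg))).integral_prod_right'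

theorem postm_bd (hμ : Good μ R) (hg : Continuous g) (hs : 0 < s) {f : E n → ℝ} {C : ℝ}
    (h0 : ∀ y, 0 ≤ f y) (h1 : ∀ y, f y ≤ C) :
    0 ≤ ∫ y, pp μ g s y * f y ∧ ∫ y, pp μ g s y * f y ≤ C * ∫ x, exp (g x) ∂μ := by
  have hp : ∀ y, 0 ≤ pp μ g s y * f y := fun y => mul_nonneg (pp_pos hμ hg hs y).le (h0 y)
  refine ⟨integral_nonneg hp, ?_⟩
  rw [← integral_pp hμ hg hs, ← integral_const_mul]
  refine integral_mono_of_nonneg (.of_forall hp) ((integrable_pp hμ hg hs).const_mul C)
    (.of_forall fun y => ?_)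
  exact (mul_le_mul_of_nonneg_left (h1 y) (pp_pos hμ hg hs y).le).trans_eq (mul_comm _ _)

theorem JJ_bd (hμ : Good μ R) (hg : Continuous g) (hs : 0 < s) :
    0 ≤ JJ μ g s ∧ JJ μ g s ≤ (2 * R / s) ^ 2 * ∫ x, exp (g x) ∂μ :=
  postm_bd hμ hg hs (fun _ => sq_nonneg _) fun y =>
    pow_le_pow_left₀ (norm_nonneg _) (norm_NN_le hμ hg hs y) 2

theorem TT_bd (hμ : Good μ R) (hg : Continuous g) (hs : 0 < s) :
    0 ≤ TT μ g s ∧ TT μ g s ≤ n * (8 * R ^ 2 / s ^ 2) ^ 2 * ∫ x, exp (g x) ∂μ :=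
  postm_bd hμ hg hs (fun _ => HS_nonneg _) fun y => (HS_le _).trans (mul_le_mul_of_nonneg_left
    (pow_le_pow_left₀ (norm_nonneg _) (norm_DN_le hμ hg hs y) 2) (Nat.cast_nonneg n))

end Vale.Agent.P245
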