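import Vale.Agent.P245.Post

open MeasureTheory Real Set
open scoped RealInnerProductSpace ENNReal

namespace Vale.Agent.P245

variable {n : ℕ}

/-! From the defective inequality to a Poincare inequality.
`def_DL`: apply `Def` to `g = log (F + ε) - log ∫ (F + ε)`; `e^g ‖fderiv g‖² ≤ w / ∫ (F + ε)`;
`(F+ε) log (F+ε) ≥ F log F + ε log ε`; let `ε → 0` (continuity of `t log t`).
`ent_ge`: Jensen in Young form: on `{F ≠ 0}`, `F log F - F log (2B) ≥ F - 2B` with `B = ∫ F`, so
`∫ F log F ≥ B log (2B) + B - 2B μ{F ≠ 0}` (the case `B = 0` is trivial as then `F = 0` a.e.).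
`def_poincare`: take a median `m` (`μ{f > m} ≤ 1/2`, `μ{f < m} ≤ 1/2`; e.g. `m = sInf {t | μ{f > t} ≤ 1/2}`,
`f` is bounded on the ball), `F = (max (f - m) 0)²` is `C¹` (`t ↦ (max t 0)²` has the continuous
derivative `2 max t 0`), `w = 4 ‖fderiv f‖²`; same for `m - f`; `log 2 - 1/10 ≥ 4/7`. -/

variable {μ : Measure (E n)} {R lam d : ℝ}

theorem def_DL (hμ : Good μ R) (hD : Def μ lam d) (hl : 0 ≤ lam) {F w : E n → ℝ}
    (hF : ContDiff ℝ 1 F) (hF0 : ∀ x, 0 ≤ F x) (hw : Continuous w) (hw0 : ∀ x, 0 ≤ w x)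
    (h : ∀ x, ‖fderiv ℝ F x‖ ^ 2 ≤ F x * w x) :
    Ent μ F ≤ lam * (∫ x, w x ∂μ) + d * ∫ x, F x ∂μ := by
  have := hμ.prob
  have hc := hF.continuous
  have iF := hμ.integrable hc
  have hB : 0 ≤ ∫ x, F x ∂μ := integral_nonneg hF0
  have cl : Continuous fun x => F x * log (F x) := continuous_mul_log.comp hc
  have main : ∀ ε : ℝ, 0 < ε → (∫ x, F x * log (F x) ∂μ) + ε * log ε -
      ((∫ x, F x ∂μ) + ε) * log ((∫ x, F x ∂μ) + ε) ≤
      lam * (∫ x, w x ∂μ) + d * ((∫ x, F x ∂μ) + ε) := fun ε hε => by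
    set Z := (∫ x, F x ∂μ) + ε with hZ
    have hZ0 : 0 < Z := by positivity
    have hp : ∀ x, 0 < F x + ε := fun x => add_pos_of_nonneg_of_pos (hF0 x) hε
    have eg : ∀ x, exp (log (F x + ε) - log Z) = (F x + ε) / Z := fun x => by
      rw [exp_sub, exp_log (hp x), exp_log hZ0]
    have eZ : ∫ x, F x + ε ∂μ = Z := by
      rw [integral_add iF (integrable_const _), integral_const, probReal_univ, one_smul]
    have cl' : Continuous fun x => (F x + ε) * log (F x + ε) :=
      continuous_mul_log.comp (hc.add continuous_const)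
    have H := hD (fun x => log (F x + ε) - log Z)
      (((hF.add contDiff_const).log fun x => (hp x).ne').sub contDiff_const)
      (by simp only [Nm, eg]; rw [integral_div, eZ, div_self hZ0.ne'])
    have e1 : Hh μ (fun x => log (F x + ε) - log Z) =
        (∫ x, (F x + ε) * log (F x + ε) ∂μ - Z * log Z) / Z := by
      simp only [Hh, eg, div_mul_eq_mul_div]
      simp only [mul_sub]
      rw [integral_div, integral_sub (hμ.integrable cl') (hμ.integrable (by fun_prop)),
        integral_mul_const, eZ]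
    have e2 : Ii μ (fun x => log (F x + ε) - log Z) ≤ (∫ x, w x ∂μ) / Z := by
      rw [← integral_div]
      refine integral_mono_of_nonneg (.of_forall fun x => by positivity)
        ((hμ.integrable hw).div_const Z) (.of_forall fun x => ?_)
      have hd := ((((hF.differentiable one_ne_zero x).hasFDerivAt.add_const ε).log
        (hp x).ne').sub_const (log Z)).fderiv
      beta_reduce
      rw [eg, hd, norm_smul, mul_pow, norm_inv, Real.norm_of_nonneg (hp x).le, div_mul_eq_mul_div]
      refine div_le_div_of_nonneg_right ?_ hZ0.le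
      rw [inv_pow, ← mul_assoc, ← div_eq_mul_inv, sq (F x + ε), div_mul_cancel_right₀ (hp x).ne',
        inv_mul_le_iff₀ (hp x)]
      nlinarith [h x, mul_nonneg hε.le (hw0 x)]
    have e3 : (∫ x, F x * log (F x) ∂μ) + ε * log ε ≤ ∫ x, (F x + ε) * log (F x + ε) ∂μ := by
      have : ∫ x, F x * log (F x) + ε * log ε ∂μ = (∫ x, F x * log (F x) ∂μ) + ε * log ε := by
        rw [integral_add (hμ.integrable cl) (integrable_const _), integral_const, probReal_univ,
          one_smul]
      rw [← this]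
      refine integral_mono (hμ.integrable (cl.add continuous_const)) (hμ.integrable cl') fun x => ?_
      simp only [add_mul]
      refine add_le_add ?_ (mul_le_mul_of_nonneg_left (log_le_log hε (by linarith [hF0 x])) hε.le)
      rcases (hF0 x).eq_or_lt with h0 | h0
      · simp [← h0]
      · exact mul_le_mul_of_nonneg_left (log_le_log h0 (by linarith)) h0.le
    have e4 := H.trans (add_le_add_left (mul_le_mul_of_nonneg_left e2 hl) d)
    rw [e1, div_le_iff₀ hZ0, add_mul _ d, mul_assoc, div_mul_cancel₀ _ hZ0.ne'] at e4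
    linarith
  have t1 : Continuous fun ε : ℝ => (∫ x, F x * log (F x) ∂μ) + ε * log ε -
      ((∫ x, F x ∂μ) + ε) * log ((∫ x, F x ∂μ) + ε) :=
    (continuous_const.add continuous_mul_log).sub
      (continuous_mul_log.comp (continuous_const.add continuous_id))
  have t2 : Continuous fun ε : ℝ => lam * (∫ x, w x ∂μ) + d * ((∫ x, F x ∂μ) + ε) := by fun_prop
  have := le_of_tendsto_of_tendsto ((t1.tendsto 0).mono_left (nhdsWithin_le_nhds (s := Ioi 0)))
    ((t2.tendsto 0).mono_left nhdsWithin_le_nhds) (eventually_nhdsWithin_of_forall main)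
  simpa [Ent] using this

theorem def_sq (hμ : Good μ R) (hD : Def μ lam d) (hl : 0 ≤ lam) {f : E n → ℝ}
    (hf : ContDiff ℝ 1 f) :
    Ent μ (fun x => f x ^ 2) ≤ 4 * lam * (∫ x, ‖fderiv ℝ f x‖ ^ 2 ∂μ) + d * ∫ x, f x ^ 2 ∂μ := by
  have := def_DL hμ hD hl (F := fun x => f x ^ 2) (w := fun x => 4 * ‖fderiv ℝ f x‖ ^ 2) (hf.pow 2)
    (fun x => sq_nonneg _) (continuous_const.mul ((hf.continuous_fderiv one_ne_zero).norm.pow 2))
    (fun x => by positivity) fun x => by
      rw [((hf.differentiable one_ne_zero x).hasFDerivAt.pow 2).fderiv, norm_smul, mul_pow,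
        Real.norm_eq_abs, sq_abs]
      simp only [nsmul_eq_mul, Nat.cast_ofNat, Nat.add_one_sub_one, pow_one]
      exact le_of_eq (by ring)
  rw [integral_const_mul] at this
  linarith

theorem ent_ge (hμ : Good μ R) {F : E n → ℝ} (hF : Continuous F) (hF0 : ∀ x, 0 ≤ F x)
    (h : μ.real {x | F x ≠ 0} ≤ 1 / 2) : log 2 * ∫ x, F x ∂μ ≤ Ent μ F := by
  have := hμ.prob
  have iF := hμ.integrable hF
  have cl : Continuous fun x => F x * log (F x) := continuous_mul_log.comp hF
  unfold Ent
  rcases (integral_nonneg (μ := μ) (f := F) hF0).eq_or_lt with h0 | h0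
  · have h1 := (integral_eq_zero_iff_of_nonneg hF0 iF).1 h0.symm
    have : ∫ x, F x * log (F x) ∂μ = 0 := integral_eq_zero_of_ae (by
      filter_upwards [h1] with x hx
      simp [show F x = 0 from hx])
    simp [this, ← h0]
  set B := ∫ x, F x ∂μ with hB
  have hm : MeasurableSet {x | F x ≠ 0} := (isOpen_ne_fun hF continuous_const).measurableSet
  have i1 : Integrable ({x | F x ≠ 0}.indicator fun _ => 2 * B) μ :=
    (integrable_const _).indicator hm
  have h2 := integral_mono ((iF.mul_const (log (2 * B) + 1)).sub i1) (hμ.integrable cl) fun x => by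
    simp only [Pi.sub_apply]
    rcases (hF0 x).eq_or_lt with hx | hx
    · simp [← hx]
    · rw [indicator_of_mem (show x ∈ {x | F x ≠ 0} from hx.ne')]
      have h3 := log_le_sub_one_of_pos (div_pos (mul_pos two_pos h0) hx)
      rw [log_div (by positivity) hx.ne', le_sub_iff_add_le, le_div_iff₀ hx] at h3
      linarith
  rw [integral_sub' (iF.mul_const _) i1, integral_mul_const, integral_indicator_const _ hm,
    log_mul two_ne_zero h0.ne', smul_eq_mul, ← hB] at h2
  nlinarith

theorem tight1_deriv (s : ℝ) : HasDerivAt (fun s : ℝ => max s 0 ^ 2) (2 * max s 0) s := by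
  rcases lt_trichotomy s 0 with h | rfl | h
  · have : (fun s : ℝ => max s 0 ^ 2) =ᶠ[nhds s] fun _ => 0 := by
      filter_upwards [Iio_mem_nhds h] with x hx
      simp [max_eq_right (le_of_lt (mem_Iio.1 hx))]
    refine ((hasDerivAt_const s (0 : ℝ)).congr_of_eventuallyEq this).congr_deriv ?_
    simp [max_eq_right h.le]
  · rw [hasDerivAt_iff_isLittleO_nhds_zero]
    refine Asymptotics.IsBigO.trans_isLittleO (Asymptotics.IsBigO.of_bound' ?_)
      (Asymptotics.isLittleO_pow_id (n := 2) (by omega))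
    refine .of_forall fun x => ?_
    simp only [zero_add, max_self, ne_eq, OfNat.ofNat_ne_zero,
      not_false_eq_true, zero_pow, sub_zero, mul_zero, smul_eq_mul, norm_pow, Real.norm_eq_abs]
    refine pow_le_pow_left₀ (abs_nonneg _) ?_ _
    rw [abs_of_nonneg (le_max_right _ _)]
    exact max_le (le_abs_self _) (abs_nonneg _)
  · have : (fun s : ℝ => max s 0 ^ 2) =ᶠ[nhds s] fun s => s ^ 2 := by
      filter_upwards [Ioi_mem_nhds h] with x hx
      rw [max_eq_left (le_of_lt hx)]
    refine ((hasDerivAt_pow 2 s).congr_of_eventuallyEq this).congr_deriv ?_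
    simp [max_eq_left h.le]

theorem tight1_half (hμ : Good μ R) (hD : Def μ lam (1 / 10)) (hl : 0 ≤ lam) {f : E n → ℝ}
    (hf : ContDiff ℝ 1 f) (h : μ.real {x | 0 < f x} ≤ 1 / 2) :
    ∫ x, max (f x) 0 ^ 2 ∂μ ≤ 7 * lam * ∫ x, ‖fderiv ℝ f x‖ ^ 2 ∂μ := by
  have hq : ContDiff ℝ 1 fun s : ℝ => max s 0 ^ 2 := by
    rw [contDiff_one_iff_deriv]
    refine ⟨fun s => (tight1_deriv s).differentiableAt, ?_⟩
    rw [show deriv (fun s : ℝ => max s 0 ^ 2) = _ from funext fun s => (tight1_deriv s).deriv]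
    fun_prop
  have h1 := def_DL hμ hD hl (F := fun x => max (f x) 0 ^ 2) (w := fun x => 4 * ‖fderiv ℝ f x‖ ^ 2)
    (hq.comp hf) (fun x => sq_nonneg _)
    (continuous_const.mul ((hf.continuous_fderiv one_ne_zero).norm.pow 2))
    (fun x => by positivity) fun x => by
      have := ((tight1_deriv (f x)).comp_hasFDerivAt x
        (hf.differentiable one_ne_zero x).hasFDerivAt).fderiv
      rw [show fderiv ℝ (fun x => max (f x) 0 ^ 2) x = _ from this, norm_smul, mul_pow,
        Real.norm_eq_abs, sq_abs]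
      exact le_of_eq (by ring)
  have h2 := ent_ge hμ (hq.comp hf).continuous (fun x => sq_nonneg _) (by
    convert h using 3 with x
    simp [not_le])
  rw [integral_const_mul] at h1
  have h3 : 0 ≤ ∫ x, max (f x) 0 ^ 2 ∂μ := integral_nonneg fun x => sq_nonneg _
  have h4 := h2.trans h1
  simp only [Function.comp] at h4
  nlinarith [log_two_gt_d9]

theorem tight1_med (hμ : Good μ R) {f : E n → ℝ} (hf : Continuous f) :
    ∃ m : ℝ, μ.real {x | m < f x} ≤ 1 / 2 ∧ μ.real {x | f x < m} ≤ 1 / 2 := by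
  have := hμ.prob
  obtain ⟨M, -, hM⟩ := exists_bd hf R
  have hms : ∀ t, MeasurableSet {x | t < f x} := fun t =>
    (isOpen_lt continuous_const hf).measurableSet
  have hne : M ∈ {t | μ.real {x | t < f x} ≤ 1 / 2} := by
    have : μ {x | M < f x} = 0 := by
      refine measure_mono_null ?_ (ae_iff.1 hμ.supp)
      intro x hx h
      exact absurd ((le_abs_self _).trans (hM x h)) (not_le.2 hx)
    simp [measureReal_def, this]
  have hbd : BddBelow {t | μ.real {x | t < f x} ≤ 1 / 2} := by
    refine ⟨-M, fun t ht => not_lt.1 fun h => ?_⟩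
    have h1 : μ {x | t < f x}ᶜ = 0 := by
      refine measure_mono_null (fun x hx (h' : ‖x‖ ≤ R) => hx ?_) (ae_iff.1 hμ.supp)
      exact h.trans_le (neg_le_of_abs_le (hM x h'))
    have h2 := (prob_compl_eq_zero_iff (hms t)).1 h1
    simp only [mem_ofPred_eq, measureReal_def, h2, ENNReal.toReal_one] at ht
    norm_num at ht
  have key : ∀ A : ℕ → Set (E n), Monotone A → (∀ k, μ.real (A k) ≤ 1 / 2) →
      μ.real (⋃ k, A k) ≤ 1 / 2 := fun A hA h =>
    le_of_tendsto' ((ENNReal.tendsto_toReal (measure_ne_top _ _)).comp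
      (tendsto_measure_iUnion_atTop hA)) h
  set m := sInf {t | μ.real {x | t < f x} ≤ 1 / 2} with hm
  have hk : ∀ k l : ℕ, k ≤ l → 1 / ((l : ℝ) + 1) ≤ 1 / ((k : ℝ) + 1) := fun k l h =>
    Nat.one_div_le_one_div h
  refine ⟨m, le_trans (measureReal_mono fun x hx => ?_) (key (fun k => {x | m + 1 / ((k : ℝ) + 1) <
    f x}) (fun k l h x hx => ?_) fun k => ?_), le_trans (measureReal_mono fun x hx => ?_)
    (key (fun k => {x | m - 1 / ((k : ℝ) + 1) < f x}ᶜ) (fun k l h x hx => ?_) fun k => ?_)⟩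
  · obtain ⟨k, h⟩ := exists_nat_one_div_lt (sub_pos.2 (show m < f x from hx))
    exact mem_iUnion.2 ⟨k, show m + 1 / ((k : ℝ) + 1) < f x by linarith⟩
  · exact lt_of_le_of_lt (add_le_add_right (hk k l h) m) hx
  · obtain ⟨t, ht, h⟩ := exists_lt_of_csInf_lt ⟨M, hne⟩
      (lt_add_of_pos_right m (Nat.one_div_pos_of_nat (n := k)))
    exact le_trans (measureReal_mono fun x hx => lt_trans h hx) ht
  · obtain ⟨k, h⟩ := exists_nat_one_div_lt (sub_pos.2 (show f x < m from hx))
    exact mem_iUnion.2 ⟨k, fun h' => by linarith [show _ < f x from h']⟩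
  · exact fun h' => hx (lt_of_le_of_lt (sub_le_sub_left (hk k l h) m) h')
  · have h1 := notMem_of_lt_csInf (sub_lt_self m (Nat.one_div_pos_of_nat (n := k))) hbd
    rw [probReal_compl_eq_one_sub (hms _)]
    rw [mem_ofPred_eq, not_le] at h1
    linarith

theorem def_poincare (hμ : Good μ R) (hD : Def μ lam (1 / 10)) (hl : 0 ≤ lam) {f : E n → ℝ}
    (hf : ContDiff ℝ 1 f) :
    ∃ m : ℝ, ∫ x, (f x - m) ^ 2 ∂μ ≤ 14 * lam * ∫ x, ‖fderiv ℝ f x‖ ^ 2 ∂μ := by
  obtain ⟨m, h1, h2⟩ := tight1_med hμ hf.continuous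
  refine ⟨m, ?_⟩
  have a1 := tight1_half hμ hD hl (f := fun x => f x - m) (hf.sub contDiff_const)
    (by simpa only [sub_pos] using h1)
  have a2 := tight1_half hμ hD hl (f := fun x => m - f x) (contDiff_const.sub hf)
    (by simpa only [sub_pos] using h2)
  simp only [fderiv_sub_const, fderiv_const_sub, norm_neg] at a1 a2
  have hc := hf.continuous
  have : ∫ x, (f x - m) ^ 2 ∂μ = ∫ x, max (f x - m) 0 ^ 2 ∂μ + ∫ x, max (m - f x) 0 ^ 2 ∂μ := by
    rw [← integral_add (hμ.integrable (by fun_prop)) (hμ.integrable (by fun_prop))]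
    refine integral_congr_ae (.of_forall fun x => ?_)
    rcases le_total (f x) m with h | h
    · simp only [max_eq_right (sub_nonpos.2 h), max_eq_left (sub_nonneg.2 h)]
      ring
    · simp only [max_eq_right (sub_nonpos.2 h), max_eq_left (sub_nonneg.2 h)]
      ring
  linarith

end Vale.Agent.P245
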