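import Vale.Agent.P245.Post

open MeasureTheory Real Set
open scoped RealInnerProductSpace ENNReal

namespace Vale.Agent.P245

variable {n : ℕ}

/-! The channel `z = κ ξ(x) + √κ W`. By `gk_shift`,
`pz z * exp (gz z x) = exp (g x) * gk κ z (κ • ξ x)`.
`abs_log_ZZ_le`: on the ball the exponent is bounded by `M + ‖z‖ M + κ M²`.
`zfub`: `integral_integral_swap`; integrability on `volume.prod μ` from `gk_dom_centre`
(centre `κ • ξ x` is bounded for `‖x‖ ≤ R`) and `integrable_gk`. -/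

variable {μ : Measure (E n)} {R : ℝ} {g : E n → ℝ} {ξ : E n → E n} {κ : ℝ}

theorem z1_cont {V : Type*} [NormedAddCommGroup V] [NormedSpace ℝ V] (hμ : Good μ R)
    {F : E n → E n → V} (hF : Continuous fun p : E n × E n => F p.1 p.2) :
    Continuous fun z => ∫ x, F z x ∂μ := by
  have := hμ.prob
  have e : μ.restrict (Metric.closedBall 0 R) = μ :=
    Measure.restrict_eq_self_of_ae_mem (hμ.supp.mono fun x hx => mem_closedBall_zero_iff.2 hx)
  rw [← e]
  exact continuous_parametric_integral_of_continuous hF (isCompact_closedBall 0 R)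

theorem z1_log (hμ : Good μ R) {h : E n → ℝ} (hh : Continuous h) {B : ℝ}
    (hB : ∀ x, ‖x‖ ≤ R → |h x| ≤ B) : |log (∫ x, exp (h x) ∂μ)| ≤ B := by
  have := hμ.prob
  have i := hμ.integrable (continuous_exp.comp hh)
  have h1 := integral_mono_ae (integrable_const (exp (-B))) i
    (hμ.supp.mono fun x hx => exp_le_exp.2 (abs_le.1 (hB x hx)).1)
  have h2 := integral_mono_ae i (integrable_const (exp B))
    (hμ.supp.mono fun x hx => exp_le_exp.2 (abs_le.1 (hB x hx)).2)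
  rw [integral_const, probReal_univ, one_smul] at h1 h2
  exact abs_le.2 ⟨(le_log_iff_exp_le (hμ.integral_exp_pos hh)).2 h1,
    (log_le_iff_le_exp (hμ.integral_exp_pos hh)).2 h2⟩

theorem z1_expo (hg : Continuous g) (hξ : Continuous ξ) (R κ : ℝ) : ∃ C : ℝ, 0 ≤ C ∧
    ∀ z x, ‖x‖ ≤ R → |g x + ⟪z, ξ x⟫ - κ * ‖ξ x‖ ^ 2 / 2| ≤ C * (1 + ‖z‖) := by
  obtain ⟨M, M0, hM⟩ := exists_bd (F := fun x => g x - κ * ‖ξ x‖ ^ 2 / 2) (by fun_prop) R
  obtain ⟨N, N0, hN⟩ := exists_bd hξ R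
  refine ⟨M + N, by positivity, fun z x hx => ?_⟩
  have h1 := abs_add_le (g x - κ * ‖ξ x‖ ^ 2 / 2) ⟪z, ξ x⟫
  have h2 := (abs_real_inner_le_norm z (ξ x)).trans
    (mul_le_mul_of_nonneg_left (hN x hx) (norm_nonneg _))
  have h3 : |g x - κ * ‖ξ x‖ ^ 2 / 2| ≤ M := hM x hx
  rw [add_sub_right_comm]
  nlinarith [mul_nonneg M0 (norm_nonneg z)]

theorem ZZ_pos (hμ : Good μ R) (hg : Continuous g) (hξ : Continuous ξ) (z : E n) :
    0 < ZZ μ g ξ κ z := hμ.integral_exp_pos (by fun_prop)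

theorem continuous_ZZ (hμ : Good μ R) (hg : Continuous g) (hξ : Continuous ξ) :
    Continuous (ZZ μ g ξ κ) := z1_cont hμ (by fun_prop)

theorem abs_log_ZZ_le (hμ : Good μ R) (hg : Continuous g) (hξ : Continuous ξ) :
    ∃ C : ℝ, 0 ≤ C ∧ ∀ z, |log (ZZ μ g ξ κ z)| ≤ C * (1 + ‖z‖) := by
  obtain ⟨C, C0, h⟩ := z1_expo hg hξ R κ
  exact ⟨C, C0, fun z => z1_log hμ (by fun_prop) (h z)⟩

theorem continuous_gz (hμ : Good μ R) (hg : Continuous g) (hξ : Continuous ξ) :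
    Continuous (fun p : E n × E n => gz μ g ξ κ p.1 p.2) := by
  have := (continuous_ZZ (κ := κ) hμ hg hξ).log fun z => (ZZ_pos hμ hg hξ z).ne'
  exact Continuous.sub (by fun_prop) (this.comp continuous_fst)

theorem contDiff_gz (hg : ContDiff ℝ 1 g) (hξ : ContDiff ℝ 1 ξ) (z : E n) :
    ContDiff ℝ 1 (gz μ g ξ κ z) :=
  ((hg.add (contDiff_const.inner ℝ hξ)).sub
    ((contDiff_const.mul (hξ.norm_sq ℝ)).div_const 2)).sub contDiff_const

theorem nm_gz (hμ : Good μ R) (hg : Continuous g) (hξ : Continuous ξ) (z : E n) :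
    Nm μ (gz μ g ξ κ z) := by
  have h := ZZ_pos (κ := κ) hμ hg hξ z
  simp only [Nm, gz, exp_sub _ (log _), exp_log h]
  rw [integral_div]
  exact div_self h.ne'

theorem pz_pos (hμ : Good μ R) (hg : Continuous g) (hξ : Continuous ξ) (hκ : 0 < κ) (z : E n) :
    0 < pz μ g ξ κ z := mul_pos (gk_pos hκ z 0) (ZZ_pos hμ hg hξ z)

theorem pz_mul_exp (hμ : Good μ R) (hg : Continuous g) (hξ : Continuous ξ) (hκ : 0 < κ)
    (z x : E n) : pz μ g ξ κ z * exp (gz μ g ξ κ z x) = exp (g x) * gk κ z (κ • ξ x) := by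
  have h := ZZ_pos (κ := κ) hμ hg hξ z
  rw [pz, gz, exp_sub _ (log _), exp_log h, gk_shift hκ, add_sub_assoc, exp_add]
  field_simp

theorem zfub (hμ : Good μ R) (hg : Continuous g) (hξ : Continuous ξ) (hκ : 0 < κ)
    {Ψ : E n → E n → ℝ} (hΨ : Continuous (fun p : E n × E n => Ψ p.1 p.2)) (C : ℝ) (k : ℕ)
    (hb : ∀ z x, ‖x‖ ≤ R → |Ψ z x| ≤ C * (1 + ‖z‖) ^ k) :
    Integrable (fun z => pz μ g ξ κ z * ∫ x, exp (gz μ g ξ κ z x) * Ψ z x ∂μ) ∧
    Integrable (fun x => exp (g x) * ∫ z, gk κ z (κ • ξ x) * Ψ z x) μ ∧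
    ∫ z, pz μ g ξ κ z * (∫ x, exp (gz μ g ξ κ z x) * Ψ z x ∂μ) =
      ∫ x, exp (g x) * (∫ z, gk κ z (κ • ξ x) * Ψ z x) ∂μ := by
  have := hμ.prob
  obtain ⟨M, M0, hM⟩ := exists_bd (continuous_exp.comp hg) R
  obtain ⟨N, N0, hN⟩ := exists_bd (hξ.const_smul κ) R
  obtain ⟨D, D0, hD⟩ := gk_dom_centre (n := n) (s2 := κ) hκ N k
  have hk := continuous_gk (n := n) κ
  have hF : Integrable (fun p : E n × E n => exp (g p.2) * (gk κ p.1 (κ • ξ p.2) * Ψ p.1 p.2))
      (volume.prod μ) := by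
    refine (((integrable_gk (show 0 < 4 * κ by positivity) 0).const_mul (M * (|C| * D))).comp_fst
      μ).mono' (Continuous.aestronglyMeasurable ((continuous_exp.comp (hg.comp continuous_snd)).mul
        ((hk.comp (continuous_fst.prodMk ((hξ.comp continuous_snd).const_smul κ))).mul hΨ))) ?_
    filter_upwards [Measure.quasiMeasurePreserving_snd.ae hμ.supp] with p hp
    have g0 := gk_pos hκ p.1 (κ • ξ p.2)
    rw [norm_mul, norm_mul, mul_assoc, mul_assoc, Real.norm_of_nonneg g0.le]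
    refine mul_le_mul (hM _ hp) ?_ (by positivity) M0
    refine (mul_le_mul_of_nonneg_left ((hb _ _ hp).trans (mul_le_mul_of_nonneg_right (le_abs_self C)
      (by positivity))) g0.le).trans ?_
    rw [mul_left_comm]
    exact mul_le_mul_of_nonneg_left (hD κ ⟨le_rfl, le_rfl⟩ _ _ (hN _ hp)) (abs_nonneg _)
  have e1 : ∀ z, pz μ g ξ κ z * ∫ x, exp (gz μ g ξ κ z x) * Ψ z x ∂μ =
      ∫ x, exp (g x) * (gk κ z (κ • ξ x) * Ψ z x) ∂μ := fun z => by
    simp only [← integral_const_mul, ← mul_assoc, pz_mul_exp hμ hg hξ hκ]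
  simp only [e1, ← integral_const_mul]
  exact ⟨hF.integral_prod_left, hF.integral_prod_right, integral_integral_swap hF⟩

theorem integrable_pz (hμ : Good μ R) (hg : Continuous g) (hξ : Continuous ξ) (hκ : 0 < κ) :
    Integrable (pz μ g ξ κ) := by
  refine (zfub hμ hg hξ hκ (Ψ := fun _ _ => 1) continuous_const 1 0 (by simp)).1.congr
    (.of_forall fun z => ?_)
  simp only [mul_one, show ∫ x, exp (gz μ g ξ κ z x) ∂μ = 1 from nm_gz hμ hg hξ z]

theorem integral_pz (hμ : Good μ R) (hg : Continuous g) (hξ : Continuous ξ) (hκ : 0 < κ)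
    (hN : Nm μ g) : ∫ z, pz μ g ξ κ z = 1 := by
  have h := (zfub hμ hg hξ hκ (Ψ := fun _ _ => 1) continuous_const 1 0 (by simp)).2.2
  have e : ∀ z, ∫ x, exp (gz μ g ξ κ z x) ∂μ = 1 := nm_gz hμ hg hξ
  simp only [mul_one, e, integral_gk hκ] at h
  exact h.trans hN

/-- The posterior mean of `ξ` is continuous in `z`. -/
theorem continuous_zmean (hμ : Good μ R) (hg : Continuous g) (hξ : Continuous ξ) :
    Continuous (fun z => ∫ x, exp (gz μ g ξ κ z x) • ξ x ∂μ) :=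
  z1_cont hμ ((continuous_exp.comp (continuous_gz hμ hg hξ)).smul (hξ.comp continuous_snd))

end Vale.Agent.P245
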