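import Vale.Agent.P245.Z1
import Vale.Agent.P245.Stein

open MeasureTheory Real Set
open scoped RealInnerProductSpace ENNReal

namespace Vale.Agent.P245

variable {n : ℕ}

/-! Entropy of the posteriors of the channel. Write `m z = ∫ exp (gz z x) • ξ x ∂μ` (bounded by the
bound of `ξ` on the ball, continuous by `continuous_zmean`).
`zent`: `zfub` with `Ψ z x = g x + ⟪z, ξ x⟫ - κ‖ξ x‖²/2`; `∫ gk κ z (κ•ξ x) ⟪z, ξ x⟫ = κ ‖ξ x‖²`
(`integral_gk_inner`, `integral_gk`); the term `log ZZ` comes out by `nm_gz`.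
`zlog_nonneg`: `Z log Z ≥ Z - 1`, `integral_pz`, `integral_gk`.
`zlog_le`: Jensen (`dv` with `gz z` replaced suitably, or `exp u ≥ 1 + u`):
`log ZZ w ≥ log ZZ z + ⟪w - z, m z⟫`. With `w = z - κ • ξ x`:
`log ZZ z ≤ log ZZ (z - κ•ξ x) + κ ⟪ξ x, m z⟫`. Integrate against `exp (g x) gk κ z (κ•ξ x)`
(`zfub` three times). First term: translate, `∫ gk κ w 0 * log ZZ w ≤ ∫ gk κ w 0 * (ZZ w - 1) = 0`.
Second term: `∫ exp (gz z x) ⟪ξ x, m z⟫ ∂μ = ‖m z‖²`. -/

variable {μ : Measure (E n)} {R : ℝ} {g : E n → ℝ} {ξ : E n → E n} {κ : ℝ}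

theorem z2_aff (hκ : 0 < κ) (m a : E n) (c : ℝ) : ∫ z, gk κ z m * (c + ⟪a, z - m⟫) = c := by
  have i : Integrable fun z => gk κ z m * ⟪a, z - m⟫ :=
    integrable_gk_growth hκ m (F := fun z => ⟪a, z - m⟫) (by fun_prop) (‖a‖ * (1 + ‖m‖)) 1
      fun z => by
        refine (norm_inner_le_norm _ _).trans ?_
        rw [mul_assoc]
        refine mul_le_mul_of_nonneg_left ((norm_sub_le _ _).trans ?_) (norm_nonneg _)
        nlinarith [mul_nonneg (norm_nonneg z) (norm_nonneg m)]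
  simp only [mul_add]
  rw [integral_add ((integrable_gk hκ m).mul_const c) i, integral_gk_inner hκ, integral_mul_const,
    integral_gk hκ, one_mul, add_zero]

theorem z2_clog (hμ : Good μ R) (hg : Continuous g) (hξ : Continuous ξ) :
    Continuous fun z => log (ZZ μ g ξ κ z) :=
  (continuous_ZZ hμ hg hξ).log fun z => (ZZ_pos hμ hg hξ z).ne'

theorem z2_cgz (hg : Continuous g) (hξ : Continuous ξ) (z : E n) : Continuous (gz μ g ξ κ z) := by
  unfold gz
  fun_prop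

theorem z2_const (hμ : Good μ R) (hg : Continuous g) (hξ : Continuous ξ) (z : E n) (c : ℝ) :
    ∫ x, exp (gz μ g ξ κ z x) * c ∂μ = c := by
  rw [integral_mul_const, show ∫ x, exp (gz μ g ξ κ z x) ∂μ = 1 from nm_gz hμ hg hξ z, one_mul]

theorem z2_ilog (hμ : Good μ R) (hg : Continuous g) (hξ : Continuous ξ) (hκ : 0 < κ) :
    Integrable fun z => pz μ g ξ κ z * log (ZZ μ g ξ κ z) := by
  obtain ⟨C, -, hC⟩ := abs_log_ZZ_le (κ := κ) hμ hg hξ
  simpa only [z2_const hμ hg hξ] using (zfub hμ hg hξ hκ (Ψ := fun z _ => log (ZZ μ g ξ κ z))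
    ((z2_clog hμ hg hξ).comp continuous_fst) C 1 fun z x _ => by simpa using hC z).1

theorem z2_inner (hμ : Good μ R) (hg : Continuous g) (hξ : Continuous ξ) (z a : E n) :
    ∫ x, exp (gz μ g ξ κ z x) * ⟪a, ξ x⟫ ∂μ = ⟪a, ∫ x, exp (gz μ g ξ κ z x) • ξ x ∂μ⟫ := by
  have c := z2_cgz (μ := μ) (κ := κ) hg hξ z
  rw [← integral_inner (hμ.integrable (by fun_prop))]
  simp only [inner_smul_right]

theorem z2_jensen (hμ : Good μ R) (hg : Continuous g) (hξ : Continuous ξ) (z w : E n) :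
    log (ZZ μ g ξ κ z) + ⟪w - z, ∫ x, exp (gz μ g ξ κ z x) • ξ x ∂μ⟫ ≤ log (ZZ μ g ξ κ w) := by
  have c := z2_cgz (μ := μ) (κ := κ) hg hξ z
  have h := dv hμ c (nm_gz hμ hg hξ z) (ψ := fun x => gz μ g ξ κ z x + ⟪w - z, ξ x⟫) (by fun_prop)
  have e : ∀ x, exp (gz μ g ξ κ z x + ⟪w - z, ξ x⟫) =
      exp (g x + ⟪w, ξ x⟫ - κ * ‖ξ x‖ ^ 2 / 2) / ZZ μ g ξ κ z := fun x => by
    rw [← exp_log (ZZ_pos hμ hg hξ z), ← exp_sub, gz, inner_sub_left]
    congr 1
    ring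
  simp only [mul_add, e] at h
  rw [integral_add (hμ.integrable (by fun_prop)) (hμ.integrable (by fun_prop)), z2_inner hμ hg hξ,
    integral_div, ← ZZ, log_div (ZZ_pos hμ hg hξ w).ne' (ZZ_pos hμ hg hξ z).ne', Hh] at h
  linarith

theorem zent (hμ : Good μ R) (hg : Continuous g) (hξ : Continuous ξ) (hκ : 0 < κ) :
    Integrable (fun z => pz μ g ξ κ z * Hh μ (gz μ g ξ κ z)) ∧
    ∫ z, pz μ g ξ κ z * Hh μ (gz μ g ξ κ z) =
      Hh μ g + κ * (∫ x, exp (g x) * ‖ξ x‖ ^ 2 ∂μ) / 2 -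
        ∫ z, pz μ g ξ κ z * log (ZZ μ g ξ κ z) := by
  obtain ⟨C, -, hC⟩ := z1_expo hg hξ R κ
  obtain ⟨i1, -, e1⟩ := zfub hμ hg hξ hκ (Ψ := fun z x => g x + ⟪z, ξ x⟫ - κ * ‖ξ x‖ ^ 2 / 2)
    (by fun_prop) C 1 fun z x hx => by simpa using hC z x hx
  have i2 := z2_ilog hμ hg hξ hκ
  have e2 : ∀ z, pz μ g ξ κ z * Hh μ (gz μ g ξ κ z) = pz μ g ξ κ z *
      (∫ x, exp (gz μ g ξ κ z x) * (g x + ⟪z, ξ x⟫ - κ * ‖ξ x‖ ^ 2 / 2) ∂μ) -
        pz μ g ξ κ z * log (ZZ μ g ξ κ z) := fun z => by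
    have c := z2_cgz (μ := μ) (κ := κ) hg hξ z
    rw [← mul_sub, ← z2_const (κ := κ) hμ hg hξ z (log _),
      ← integral_sub (hμ.integrable (by fun_prop)) (hμ.integrable (by fun_prop))]
    simp only [← mul_sub]
    rfl
  have e3 : ∀ z x, g x + ⟪z, ξ x⟫ - κ * ‖ξ x‖ ^ 2 / 2 =
      g x + κ * ‖ξ x‖ ^ 2 / 2 + ⟪ξ x, z - κ • ξ x⟫ := fun z x => by
    rw [inner_sub_right, inner_smul_right, real_inner_self_eq_norm_sq, real_inner_comm]
    ring
  simp only [e2]
  refine ⟨i1.sub i2, ?_⟩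
  rw [integral_sub i1 i2, e1]
  simp only [e3, z2_aff hκ]
  simp only [mul_add]
  rw [integral_add (hμ.integrable (by fun_prop)) (hμ.integrable (by fun_prop)), Hh,
    ← integral_const_mul, ← integral_div]
  congr 3
  funext x
  ring

theorem zlog_nonneg (hμ : Good μ R) (hg : Continuous g) (hξ : Continuous ξ) (hκ : 0 < κ)
    (hN : Nm μ g) : 0 ≤ ∫ z, pz μ g ξ κ z * log (ZZ μ g ξ κ z) := by
  have h := integral_mono ((integrable_pz hμ hg hξ hκ).sub (integrable_gk hκ 0))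
    (z2_ilog hμ hg hξ hκ) fun z => by
      have := mul_le_mul_of_nonneg_left (self_sub_one_le_mul_log (ZZ_pos (κ := κ) hμ hg hξ z).le)
        (gk_pos hκ z 0).le
      simp only [Pi.sub_apply, pz]
      linarith
  simp only [Pi.sub_apply] at h
  rwa [integral_sub (integrable_pz hμ hg hξ hκ) (integrable_gk hκ 0), integral_pz hμ hg hξ hκ hN,
    integral_gk hκ, sub_self] at h

theorem integrable_zmean (hμ : Good μ R) (hg : Continuous g) (hξ : Continuous ξ) (hκ : 0 < κ) :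
    Integrable (fun z => pz μ g ξ κ z * ‖∫ x, exp (gz μ g ξ κ z x) • ξ x ∂μ‖ ^ 2) := by
  obtain ⟨N, N0, hN⟩ := exists_bd hξ R
  refine (integrable_pz hμ hg hξ hκ).mul_bdd (c := N ^ 2)
    ((continuous_zmean hμ hg hξ).norm.pow 2).aestronglyMeasurable (.of_forall fun z => ?_)
  have c := z2_cgz (μ := μ) (κ := κ) hg hξ z
  rw [Real.norm_of_nonneg (sq_nonneg _)]
  refine pow_le_pow_left₀ (norm_nonneg _) ?_ 2
  rw [← z2_const (κ := κ) hμ hg hξ z N]
  refine norm_integral_le_of_norm_le (hμ.integrable (by fun_prop)) (hμ.supp.mono fun x hx => ?_)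
  rw [norm_smul, Real.norm_of_nonneg (exp_pos _).le]
  exact mul_le_mul_of_nonneg_left (hN x hx) (exp_pos _).le

theorem zlog_le (hμ : Good μ R) (hg : Continuous g) (hξ : Continuous ξ) (hκ : 0 < κ)
    (hN : Nm μ g) :
    ∫ z, pz μ g ξ κ z * log (ZZ μ g ξ κ z) ≤
      κ * ∫ z, pz μ g ξ κ z * ‖∫ x, exp (gz μ g ξ κ z x) • ξ x ∂μ‖ ^ 2 := by
  obtain ⟨C, C0, hC⟩ := abs_log_ZZ_le (κ := κ) hμ hg hξ
  obtain ⟨N, N0, hb⟩ := exists_bd (hξ.const_smul κ) R
  have cl := z2_clog (κ := κ) hμ hg hξ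
  obtain ⟨i1, -, e1⟩ := zfub hμ hg hξ hκ (Ψ := fun z x => log (ZZ μ g ξ κ (z - κ • ξ x)))
    (cl.comp (by fun_prop)) (C * (1 + N)) 1 fun z x hx => by
      refine (hC _).trans ?_
      rw [mul_assoc]
      refine mul_le_mul_of_nonneg_left ?_ C0
      have h1 : ‖κ • ξ x‖ ≤ N := hb x hx
      nlinarith [norm_sub_le z (κ • ξ x), mul_nonneg N0 (norm_nonneg z)]
  have e2 : ∀ m : E n, ∫ z, gk κ z m * log (ZZ μ g ξ κ (z - m)) =
      ∫ w, gk κ w 0 * log (ZZ μ g ξ κ w) := fun m => by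
    rw [← integral_add_left_eq_self _ m]
    simp only [gk_add, add_sub_cancel_left]
  have k1 : ∫ w, gk κ w 0 * log (ZZ μ g ξ κ w) ≤ 0 := by
    have h := integral_mono (integrable_gk_growth hκ 0 cl.aestronglyMeasurable C 1
      fun z => by simpa using hC z) ((integrable_pz hμ hg hξ hκ).sub (integrable_gk hκ 0))
      fun z => by
        have := mul_le_mul_of_nonneg_left (log_le_sub_one_of_pos (ZZ_pos (κ := κ) hμ hg hξ z))
          (gk_pos hκ z 0).le
        simp only [Pi.sub_apply, pz, smul_eq_mul]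
        linarith
    simp only [Pi.sub_apply] at h
    rwa [integral_sub (integrable_pz hμ hg hξ hκ) (integrable_gk hκ 0), integral_pz hμ hg hξ hκ hN,
      integral_gk hκ, sub_self] at h
  simp only [e2] at e1
  rw [integral_mul_const, show ∫ x, exp (g x) ∂μ = 1 from hN, one_mul] at e1
  have i2 := (integrable_zmean hμ hg hξ hκ).const_mul κ
  have h := integral_mono (z2_ilog hμ hg hξ hκ) (i1.add i2) fun z => by
    have c := z2_cgz (μ := μ) (κ := κ) hg hξ z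
    have c2 : Continuous fun x => log (ZZ μ g ξ κ (z - κ • ξ x)) := cl.comp (by fun_prop)
    simp only [Pi.add_apply]
    rw [mul_left_comm, ← mul_add]
    refine mul_le_mul_of_nonneg_left ?_ (pz_pos hμ hg hξ hκ z).le
    rw [← real_inner_self_eq_norm_sq, ← z2_inner hμ hg hξ, ← integral_const_mul,
      ← integral_add (hμ.integrable (by fun_prop)) (hμ.integrable (by fun_prop)),
      ← z2_const (κ := κ) hμ hg hξ z (log (ZZ μ g ξ κ z))]
    refine integral_mono (hμ.integrable (by fun_prop)) (hμ.integrable (by fun_prop)) fun x => ?_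
    have j := z2_jensen (κ := κ) hμ hg hξ z (z - κ • ξ x)
    rw [sub_sub_cancel_left, inner_neg_left, real_inner_smul_left, real_inner_comm] at j
    have := mul_le_mul_of_nonneg_left j (exp_pos (gz μ g ξ κ z x)).le
    dsimp only
    linarith
  simp only [Pi.add_apply] at h
  rw [integral_add i1 i2, e1, integral_const_mul] at h
  linarith

end Vale.Agent.P245
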